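import Vale.Agent.P082.Dec

/-! Weak limits and minimal invariant sets of averaging operators. -/

open scoped InnerProductSpace ComplexConjugate BigOperators ComplexOrder
open Finset Filter Topology

set_option linter.unusedSectionVars false

namespace Vale.Agent.P082

open Vale.Agent.P104

variable {N : Type*} [CStarAlgebra N] [PartialOrder N] [StarOrderedRing N]
variable {H : Type*} [NormedAddCommGroup H] [InnerProductSpace ℂ H] [CompleteSpace H]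
variable {ρ : N →⋆ₐ[ℂ] (H →L[ℂ] H)} {𝒮 : Set (H →L[ℂ] H)}

/-- weak operator limit -/
def WL (ρ : N →⋆ₐ[ℂ] (H →L[ℂ] H)) {I : Type*} (l : Filter I) (f : I → N) (x : N) : Prop :=
  ∀ ξ η, Tendsto (fun i => ⟪ρ (f i) ξ, η⟫_ℂ) l (𝓝 ⟪ρ x ξ, η⟫_ℂ)

namespace WL
variable {I : Type*} {l : Filter I} {f g : I → N} {x y : N}

lemma const (x : N) : WL ρ l (fun _ => x) x := fun _ _ => tendsto_const_nhds

lemma add (h : WL ρ l f x) (h' : WL ρ l g y) : WL ρ l (fun i => f i + g i) (x + y) := fun ξ η => by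
  simpa [inner_add_left] using (h ξ η).add (h' ξ η)

lemma sub (h : WL ρ l f x) (h' : WL ρ l g y) : WL ρ l (fun i => f i - g i) (x - y) := fun ξ η => by
  simpa [inner_sub_left] using (h ξ η).sub (h' ξ η)

lemma mul_left (h : WL ρ l f x) (a : N) : WL ρ l (fun i => a * f i) (a * x) := fun ξ η => by
  simpa only [rho_mul, rho_inner a] using h ξ _

lemma mul_right (h : WL ρ l f x) (a : N) : WL ρ l (fun i => f i * a) (x * a) := fun ξ η => by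
  simpa only [rho_mul] using h _ η

lemma smul (h : WL ρ l f x) (c : ℂ) : WL ρ l (fun i => c • f i) (c • x) := by
  simpa using h.mul_left (c • 1)

lemma unique (W : WS ρ 𝒮) [l.NeBot] (h : WL ρ l f x) (h' : WL ρ l f y) : x = y :=
  W.ext fun ξ => ext_inner_right ℂ fun η => tendsto_nhds_unique (h ξ η) (h' ξ η)

lemma congr (h : WL ρ l f x) (h' : ∀ᶠ i in l, f i = g i) : WL ρ l g x := fun ξ η =>
  (h ξ η).congr' (h'.mono fun i hi => by simp only [hi])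

lemma eq (W : WS ρ 𝒮) [l.NeBot] (h : WL ρ l f x) (h' : WL ρ l g y) (e : ∀ᶠ i in l, f i = g i) :
    x = y := (h.congr e).unique W h'

lemma sum {κ : Type*} (s : Finset κ) {f : κ → I → N} {x : κ → N} (h : ∀ k, WL ρ l (f k) (x k)) :
    WL ρ l (fun i => ∑ k ∈ s, f k i) (∑ k ∈ s, x k) := fun ξ η => by
  simpa [sum_inner] using tendsto_finsetSum s fun k _ => h k ξ η

lemma norm_le (W : WS ρ 𝒮) [l.NeBot] (h : WL ρ l f x) {C : ℝ} (hC : ∀ᶠ i in l, ‖f i‖ ≤ C) :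
    ‖x‖ ≤ C := by
  have h0 : 0 ≤ C := hC.exists.elim fun i hi => (norm_nonneg _).trans hi
  rw [← NonUnitalStarAlgHom.norm_map ρ W.inj x]
  refine (ρ x).opNorm_le_bound h0 fun ξ => ?_
  have := le_of_tendsto (h ξ (ρ x ξ)).norm (hC.mono fun i hi =>
    (norm_inner_le_norm _ _).trans (mul_le_mul_of_nonneg_right ((rho_le _ _).trans
      (mul_le_mul_of_nonneg_right hi (norm_nonneg ξ))) (norm_nonneg _)))
  rw [inner_self_eq_norm_sq_to_K, norm_pow, RCLike.norm_ofReal, abs_norm, sq] at this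
  rcases (norm_nonneg (ρ x ξ)).eq_or_lt with h1 | h1
  · rw [← h1]; positivity
  · exact le_of_mul_le_mul_right this h1

end WL

lemma exists_WL (W : WS ρ 𝒮) {I : Type*} (𝒰 : Ultrafilter I) {f : I → N} {C : ℝ}
    (hC : ∀ᶠ i in 𝒰, ‖f i‖ ≤ C) : ∃ x, WL ρ 𝒰 f x := by
  have b : ∀ ξ η, ∀ᶠ i in 𝒰, ‖⟪ρ (f i) ξ, η⟫_ℂ‖ ≤ C * ‖ξ‖ * ‖η‖ := fun ξ η => hC.mono fun i hi =>
    (norm_inner_le_norm _ _).trans (mul_le_mul_of_nonneg_right ((rho_le _ _).trans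
      (mul_le_mul_of_nonneg_right hi (norm_nonneg ξ))) (norm_nonneg _))
  have : ∀ ξ η, ∃ z, Tendsto (fun i => ⟪ρ (f i) ξ, η⟫_ℂ) 𝒰 (𝓝 z) := fun ξ η => by
    obtain ⟨z, -, hz⟩ := (isCompact_closedBall (0 : ℂ) (C * ‖ξ‖ * ‖η‖)).ultrafilter_le_nhds
      (𝒰.map fun i => ⟪ρ (f i) ξ, η⟫_ℂ) (by
        rw [le_principal_iff, Ultrafilter.coe_map, Filter.mem_map]
        exact (b ξ η).mono fun i hi => mem_closedBall_zero_iff.2 hi)
    exact ⟨z, hz⟩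
  choose L hL using this
  have hb : ∀ ξ η, ‖L ξ η‖ ≤ C * ‖ξ‖ * ‖η‖ := fun ξ η => le_of_tendsto (hL ξ η).norm (b ξ η)
  let φ : H → H →ₗ[ℂ] ℂ := fun ξ =>
    { toFun := L ξ
      map_add' := fun η η' => tendsto_nhds_unique (hL ξ _)
        (by simpa only [inner_add_right] using (hL ξ η).add (hL ξ η'))
      map_smul' := fun c η => tendsto_nhds_unique (hL ξ _)
        (by simpa [inner_smul_right] using (hL ξ η).const_mul c) }
  let y : H → H := fun ξ => (InnerProductSpace.toDual ℂ H).symm ((φ ξ).mkContinuous _ (hb ξ))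
  have hy : ∀ ξ η, Tendsto (fun i => ⟪ρ (f i) ξ, η⟫_ℂ) 𝒰 (𝓝 ⟪y ξ, η⟫_ℂ) := fun ξ η => by
    simp only [y, InnerProductSpace.toDual_symm_apply]
    exact hL ξ η
  let T : H →ₗ[ℂ] H :=
    { toFun := y
      map_add' := fun ξ ξ' => ext_inner_right ℂ fun η => tendsto_nhds_unique (hy _ η)
        (by simpa only [map_add, inner_add_left] using (hy ξ η).add (hy ξ' η))
      map_smul' := fun c ξ => ext_inner_right ℂ fun η => tendsto_nhds_unique (hy _ η)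
        (by simpa only [map_smul, inner_smul_left, RingHom.id_apply] using
          (hy ξ η).const_mul (conj c)) }
  have hT : ∀ ξ, ‖T ξ‖ ≤ |C| * ‖ξ‖ := fun ξ => by
    change ‖y ξ‖ ≤ _
    simp only [y, LinearIsometryEquiv.norm_map]
    refine ContinuousLinearMap.opNorm_le_bound _ (by positivity) fun η => (hb ξ η).trans ?_
    gcongr
    exact le_abs_self C
  obtain ⟨x, hx⟩ := W.surj (T.mkContinuous _ hT) fun s hs => ContinuousLinearMap.ext fun ξ =>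
    ext_inner_right ℂ fun η => by
      change ⟪s (y ξ), η⟫_ℂ = ⟪y (s ξ), η⟫_ℂ
      refine tendsto_nhds_unique ?_ (hy _ η)
      have : ∀ i, ρ (f i) (s ξ) = s (ρ (f i) ξ) := fun i => congr($((W.comm (f i) s hs).symm) ξ)
      simp only [this, ← s.adjoint_inner_right]
      exact hy _ _
  exact ⟨x, fun ξ η => by rw [hx]; exact hy ξ η⟩

/-- sets of linear maps closed under weak limits -/
def WCl (ρ : N →⋆ₐ[ℂ] (H →L[ℂ] H)) (X : Set (N →ₗ[ℂ] N)) : Prop :=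
  ∀ (l : Filter (N →ₗ[ℂ] N)) (S : N →ₗ[ℂ] N), l.NeBot → (∀ᶠ T in l, T ∈ X) →
    (∀ x, WL ρ l (fun T => T x) (S x)) → S ∈ X

lemma WCl.lim {X : Set (N →ₗ[ℂ] N)} (h : WCl ρ X) {I : Type*} {l : Filter I} [l.NeBot]
    {f : I → N →ₗ[ℂ] N} {S : N →ₗ[ℂ] N} (hf : ∀ᶠ i in l, f i ∈ X)
    (hS : ∀ x, WL ρ l (fun i => f i x) (S x)) : S ∈ X :=
  h (l.map f) S inferInstance hf hS

/-- a class of bounded maps with tests -/
structure Cls (ρ : N →⋆ₐ[ℂ] (H →L[ℂ] H)) (Bd : (N →ₗ[ℂ] N) → ℝ → Prop)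
    (𝒯 : Set (Set (N →ₗ[ℂ] N))) : Prop where
  le : ∀ S C, Bd S C → ∀ x, ‖S x‖ ≤ C * ‖x‖
  nonneg : ∀ S C, Bd S C → 0 ≤ C
  mem : ∀ C, {S | Bd S C} ∈ 𝒯
  closed : ∀ X ∈ 𝒯, WCl ρ X
  add : ∀ S C S' C', Bd S C → Bd S' C' → ∃ C'', Bd (S + S') C''
  left : ∀ S C b, Bd S C → ∃ C', Bd (Lm b S) C'
  right : ∀ S C b, Bd S C → ∃ C', Bd (Rm b S) C'
  id : ∃ C, Bd LinearMap.id C
  mem_id : {LinearMap.id} ∈ 𝒯

/-- admissible operators -/
structure Adm (Bd : (N →ₗ[ℂ] N) → ℝ → Prop) (𝒯 : Set (Set (N →ₗ[ℂ] N)))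
    (A : (N →ₗ[ℂ] N) → N →ₗ[ℂ] N) : Prop where
  add : ∀ S C S' C', Bd S C → Bd S' C' → A (S + S') = A S + A S'
  left : ∀ S C b, Bd S C → A (Lm b S) = Lm b (A S)
  right : ∀ S C b, Bd S C → A (Rm b S) = Rm b (A S)
  test : ∀ X ∈ 𝒯, ∀ S C, Bd S C → S ∈ X → A S ∈ X

variable {Bd : (N →ₗ[ℂ] N) → ℝ → Prop} {𝒯 : Set (Set (N →ₗ[ℂ] N))}

lemma Adm.bd (c : Cls ρ Bd 𝒯) {A : (N →ₗ[ℂ] N) → N →ₗ[ℂ] N} (h : Adm Bd 𝒯 A) {S : N →ₗ[ℂ] N}
    {C : ℝ} (hS : Bd S C) : Bd (A S) C := h.test _ (c.mem C) S C hS hS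

lemma Adm.comp (c : Cls ρ Bd 𝒯) {A B : (N →ₗ[ℂ] N) → N →ₗ[ℂ] N} (h : Adm Bd 𝒯 A)
    (h' : Adm Bd 𝒯 B) : Adm Bd 𝒯 (A ∘ B) :=
  ⟨fun S C S' C' a b => by
      simp only [Function.comp, h'.add S C S' C' a b, h.add _ C _ C' (h'.bd c a) (h'.bd c b)],
    fun S C b a => by simp only [Function.comp, h'.left S C b a, h.left _ C b (h'.bd c a)],
    fun S C b a => by simp only [Function.comp, h'.right S C b a, h.right _ C b (h'.bd c a)],
    fun X hX S C a b => h.test X hX _ C (h'.bd c a) (h'.test X hX S C a b)⟩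

lemma Adm.lim (W : WS ρ 𝒮) (c : Cls ρ Bd 𝒯) {I : Type*} (𝒰 : Ultrafilter I)
    {A : I → (N →ₗ[ℂ] N) → N →ₗ[ℂ] N} (h : ∀ᶠ i in 𝒰, Adm Bd 𝒯 (A i)) :
    ∃ B, Adm Bd 𝒯 B ∧ ∀ S C, Bd S C → ∀ x, WL ρ 𝒰 (fun i => A i S x) (B S x) := by
  have : ∀ S : N →ₗ[ℂ] N, ∃ T : N →ₗ[ℂ] N, ∀ C, Bd S C →
      ∀ x, WL ρ 𝒰 (fun i => A i S x) (T x) := fun S => by
    by_cases hS : ∃ C, Bd S C
    · obtain ⟨C, hS⟩ := hS
      choose T hT using fun x => exists_WL W 𝒰 (f := fun i => A i S x)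
        (h.mono fun i hi => c.le _ _ (hi.bd c hS) x)
      exact ⟨⟨⟨T, fun x y => (hT _).eq W ((hT x).add (hT y)) (by simp)⟩,
        fun a x => (hT _).eq W ((hT x).smul a) (by simp)⟩, fun _ _ => hT⟩
    · exact ⟨0, fun C hC => absurd ⟨C, hC⟩ hS⟩
  choose B hB using this
  refine ⟨B, ⟨fun S C S' C' a b => ?_, fun S C b a => ?_, fun S C b a => ?_,
    fun X hX S C a b => ?_⟩, hB⟩
  · obtain ⟨C'', d⟩ := c.add S C S' C' a b
    exact LinearMap.ext fun x => (hB _ _ d x).eq W ((hB _ _ a x).add (hB _ _ b x))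
      (h.mono fun i hi => by rw [hi.add S C S' C' a b]; rfl)
  · obtain ⟨C'', d⟩ := c.left S C b a
    exact LinearMap.ext fun x => (hB _ _ d x).eq W ((hB _ _ a x).mul_left b)
      (h.mono fun i hi => by rw [hi.left S C b a]; rfl)
  · obtain ⟨C'', d⟩ := c.right S C b a
    exact LinearMap.ext fun x => (hB _ _ d x).eq W (hB _ _ a (b * x))
      (h.mono fun i hi => by rw [hi.right S C b a]; rfl)
  · exact (c.closed X hX).lim (h.mono fun i hi => hi.test X hX S C a b) (hB S C a)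

theorem exists_min (W : WS ρ 𝒮) (c : Cls ρ Bd 𝒯) : ∃ P, Adm Bd 𝒯 P ∧
    ∀ T C, Bd T C → ∀ X ∈ 𝒯, ∀ A, Adm Bd 𝒯 A → A (P T) ∈ X → P T ∈ X := by
  obtain ⟨K, -, hK⟩ := zorn_superset_nonempty {K : Set ((N →ₗ[ℂ] N) → N →ₗ[ℂ] N) |
      K.Nonempty ∧ (∀ B ∈ K, Adm Bd 𝒯 B) ∧ (∀ A, Adm Bd 𝒯 A → ∀ B ∈ K, A ∘ B ∈ K) ∧
      ∀ (l : Filter _) B, l.NeBot → K ∈ l → Adm Bd 𝒯 B →
        (∀ S C, Bd S C → ∀ x, WL ρ l (fun A => A S x) (B S x)) → B ∈ K}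
    (fun s hs hc hne => by
      have := hne.to_subtype
      have : (⨅ K : s, 𝓟 K.1).NeBot := iInf_neBot_of_directed' (fun K K' => by
        rcases hc.total K.2 K'.2 with h | h
        · exact ⟨K, le_rfl, principal_mono.2 h⟩
        · exact ⟨K', principal_mono.2 h, le_rfl⟩) fun K => principal_neBot_iff.2 (hs K.2).1
      have hm : ∀ K ∈ s, K ∈ Ultrafilter.of (⨅ K : s, 𝓟 K.1) := fun K hK =>
        Ultrafilter.of_le _ (mem_iInf_of_mem ⟨K, hK⟩ (mem_principal_self K))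
      obtain ⟨K0, h0⟩ := hne
      obtain ⟨B, h1, h2⟩ := Adm.lim W c (Ultrafilter.of (⨅ K : s, 𝓟 K.1)) (A := id)
        (mem_of_superset (hm K0 h0) (hs h0).2.1)
      exact ⟨⋂₀ s, ⟨⟨B, fun K hK => (hs hK).2.2.2 _ B inferInstance (hm K hK) h1 h2⟩,
        fun B hB => (hs h0).2.1 B (hB K0 h0),
        fun A hA B hB K hK => (hs hK).2.2.1 A hA B (hB K hK),
        fun l B a b d e K hK => (hs hK).2.2.2 l B a
          (mem_of_superset b (Set.sInter_subset_of_mem hK)) d e⟩,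
        fun K hK => Set.sInter_subset_of_mem hK⟩)
    {B | Adm Bd 𝒯 B} ⟨⟨id, fun _ _ _ _ _ _ => rfl, fun _ _ _ _ => rfl, fun _ _ _ _ => rfl,
      fun _ _ _ _ _ h => h⟩, fun _ h => h, fun A hA B hB => hA.comp c hB, fun _ _ _ _ h _ => h⟩
  obtain ⟨⟨P, hP⟩, h1, h2, h3⟩ := hK.1
  refine ⟨P, h1 P hP, fun T C hT X hX A hA h => ?_⟩
  refine (hK.2 (y := {B | B ∈ K ∧ B T ∈ X}) ⟨⟨A ∘ P, h2 A hA P hP, h⟩, fun B hB => h1 B hB.1,
    fun A hA B hB => ⟨h2 A hA B hB.1, hA.test X hX _ C ((h1 B hB.1).bd c hT) hB.2⟩,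
    fun l B a b d e => ⟨h3 l B a (mem_of_superset b fun _ h => h.1) d e,
      (c.closed X hX).lim (mem_of_superset b fun _ h => h.2) (e T C hT)⟩⟩ (fun _ h => h.1) hP).2

/-- averaging along a finite family -/
noncomputable def Av {ι : Type*} [Fintype ι] (m : ι → N) (S : N →ₗ[ℂ] N) : N →ₗ[ℂ] N :=
  ∑ i, LinearMap.mulRight ℂ (m i) ∘ₗ S ∘ₗ LinearMap.mulRight ℂ (star (m i))

lemma Av_apply {ι : Type*} [Fintype ι] (m : ι → N) (S : N →ₗ[ℂ] N) (x : N) :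
    Av m S x = ∑ i, S (x * star (m i)) * m i := by simp [Av]

lemma adm_Av {ι : Type*} [Fintype ι] (m : ι → N)
    (h : ∀ X ∈ 𝒯, ∀ S C, Bd S C → S ∈ X → Av m S ∈ X) : Adm Bd 𝒯 (Av m) :=
  ⟨fun _ _ _ _ _ _ => by ext; simp [Av_apply, add_mul, sum_add_distrib],
    fun _ _ _ _ => by ext; simp [Av_apply, mul_sum, mul_assoc],
    fun _ _ _ _ => by ext; simp [Av_apply, mul_assoc], h⟩

lemma Av_id {ι : Type*} [Fintype ι] {m : ι → N} (h : ∑ i, star (m i) * m i = 1) :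
    Av m LinearMap.id = LinearMap.id := by
  ext; simp [Av_apply, mul_assoc, ← mul_sum, h]

lemma wcl_id (W : WS ρ 𝒮) : WCl ρ {LinearMap.id} := fun l S _ h1 h2 =>
  LinearMap.ext fun x => (h2 x).eq W (WL.const x) (h1.mono fun T hT => by rw [hT]; rfl)

/-- a functional with the properties needed to integrate cocycles -/
structure Mean (Bd : (N →ₗ[ℂ] N) → ℝ → Prop) (z : N) (R : (N →ₗ[ℂ] N) → N) : Prop where
  add : ∀ S C S' C', Bd S C → Bd S' C' → R (S + S') = R S + R S'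
  left : ∀ S C b, Bd S C → R (Lm b S) = b * R S
  right : ∀ S C b, Bd S C → R (Rm b S) = R S * b
  id : R LinearMap.id = z
  le : ∀ S C, Bd S C → ‖R S‖ ≤ C

lemma mean_of (c : Cls ρ Bd 𝒯) {P : (N →ₗ[ℂ] N) → N →ₗ[ℂ] N} (hP : Adm Bd 𝒯 P) {z : N}
    (hz : Cen z) (h : ∀ S C, Bd S C → ∀ b, z * P S b = z * P S 1 * b) :
    Mean Bd z fun S => z * P S 1 := by
  refine ⟨fun S C S' C' a b => by rw [hP.add S C S' C' a b, LinearMap.add_apply, mul_add],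
    fun S C b a => by rw [hP.left S C b a, Lm_apply, ← mul_assoc, (hz.2 b).eq, mul_assoc],
    fun S C b a => by rw [hP.right S C b a, Rm_apply, mul_one, h S C a], ?_, fun S C a => ?_⟩
  · obtain ⟨C, hC⟩ := c.id
    rw [hP.test _ c.mem_id _ C hC rfl, LinearMap.id_apply, mul_one]
  · exact (norm_mul_le_right hz.1.norm_le).trans ((c.le _ _ (hP.bd c a) 1).trans
      (mul_le_of_le_one_right (c.nonneg S C a) norm_one_le))

end Vale.Agent.P082
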