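import Vale.Agent.P104.Glue

/-! The reversal estimate. -/

open scoped InnerProductSpace ComplexConjugate BigOperators ComplexOrder
open Finset

set_option linter.unusedSectionVars false

namespace Vale.Agent.P082

open Vale.Agent.P104

lemma sin_bound {z : ℂ} (hz : ‖z‖ = 1) {L : ℕ} (hL : 0 < L) :
    (L : ℝ)⁻¹ * ‖∑ k ∈ range L, (z ^ (k + 1) - conj z ^ (k + 1))‖ ≤
      20 * (2 * L * ‖z - 1‖ / (1 + 2 * L * ‖z - 1‖) - L * ‖z - 1‖ / (1 + L * ‖z - 1‖)) := by
  have hL' : (0 : ℝ) < L := by exact_mod_cast hL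
  set d := ‖z - 1‖ with hd
  have hd0 : 0 ≤ d := norm_nonneg _
  have h1 : ∀ k : ℕ, ‖z ^ k - 1‖ ≤ k * d := fun k => by
    induction k with
    | zero => simp
    | succ k ih =>
      have : z ^ (k + 1) - 1 = z * (z ^ k - 1) + (z - 1) := by ring
      rw [this]
      refine (norm_add_le _ _).trans ?_
      rw [norm_mul, hz]; push_cast; linarith
  have h2 : ‖∑ k ∈ range L, (z ^ (k + 1) - conj z ^ (k + 1))‖ ≤ L * (2 * (L * d)) := by
    refine (norm_sum_le _ _).trans ((sum_le_card_nsmul _ _ (2 * (L * d)) fun k hk => ?_).trans_eq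
      (by simp))
    have e : z ^ (k + 1) - conj z ^ (k + 1) = (z ^ (k + 1) - 1) - conj (z ^ (k + 1) - 1) := by
      simp
    have hk' : ((k + 1 : ℕ) : ℝ) ≤ L := by exact_mod_cast mem_range.1 hk
    have := (h1 (k + 1)).trans (mul_le_mul_of_nonneg_right hk' hd0)
    rw [e]
    refine (norm_sub_le _ _).trans ?_
    rw [RCLike.norm_conj]; linarith
  have h3 : ‖∑ k ∈ range L, z ^ (k + 1)‖ * d ≤ 2 := by
    rw [hd, ← norm_mul]
    have : (∑ k ∈ range L, z ^ (k + 1)) * (z - 1) = z * (z ^ L - 1) := by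
      simp only [pow_succ', ← mul_sum, mul_assoc, geom_sum_mul]
    rw [this, norm_mul, hz, one_mul]
    refine (norm_sub_le _ _).trans ?_
    rw [norm_pow, hz]; norm_num
  have h4 : ‖∑ k ∈ range L, (z ^ (k + 1) - conj z ^ (k + 1))‖ * d ≤ 4 := by
    rw [sum_sub_distrib]
    simp only [← map_pow, ← map_sum]
    have := norm_sub_le (∑ k ∈ range L, z ^ (k + 1)) (conj (∑ k ∈ range L, z ^ (k + 1)))
    rw [RCLike.norm_conj] at this
    nlinarith
  set y := (L : ℝ)⁻¹ * ‖∑ k ∈ range L, (z ^ (k + 1) - conj z ^ (k + 1))‖ with hy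
  have hy0 : 0 ≤ y := by positivity
  have h5 : y ≤ 2 * (L * d) := by rw [hy, inv_mul_le_iff₀ hL']; exact h2
  have h6 : y * (L * d) ≤ 4 := by
    rw [hy]; refine le_trans (le_of_eq ?_) h4; field_simp
  rw [mul_assoc 2]
  set x := (L : ℝ) * d
  have hx : 0 ≤ x := by positivity
  have h7 : y ≤ 3 := by nlinarith
  have : 2 * x / (1 + 2 * x) - x / (1 + x) = x / ((1 + 2 * x) * (1 + x)) := by
    field_simp; ring
  rw [this, ← mul_div_assoc, le_div_iff₀ (by positivity)]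
  nlinarith [mul_le_mul_of_nonneg_right h7 hx, mul_le_mul_of_nonneg_right h6 hx]

lemma exists_weights {ε : ℝ} (hε : 0 < ε) : ∃ (ι : Type) (_ : Fintype ι) (w : ι → ℝ) (n : ι → ℕ),
    (∀ i, 0 ≤ w i) ∧ ∑ i, w i = 1 ∧
      ∀ z : ℂ, ‖z‖ = 1 → ‖∑ i, (w i : ℂ) * (z ^ (n i + 1) - conj z ^ (n i + 1))‖ ≤ ε := by
  obtain ⟨K, hK⟩ := exists_nat_gt (20 / ε)
  have hK0 : (0 : ℝ) < K := lt_trans (by positivity) hK
  refine ⟨(Σ i : Fin K, Fin (2 ^ (i : ℕ))), inferInstance,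
    fun i => (K : ℝ)⁻¹ * ((2 ^ (i.1 : ℕ) : ℕ) : ℝ)⁻¹, fun i => i.2, fun i => by positivity, ?_,
    fun z hz => ?_⟩
  · rw [Fintype.sum_sigma]
    simp [mul_left_comm, hK0.ne']
  · rw [Fintype.sum_sigma]
    let F : ℕ → ℝ := fun i => ((2 ^ i : ℕ) : ℝ) * ‖z - 1‖ / (1 + ((2 ^ i : ℕ) : ℝ) * ‖z - 1‖)
    refine (norm_sum_le _ _).trans ((sum_le_sum (g := fun i : Fin K =>
      (K : ℝ)⁻¹ * (20 * (F (i + 1) - F i))) fun i _ => ?_).trans ?_)
    · simp only
      rw [← mul_sum, norm_mul, Complex.norm_real, Real.norm_of_nonneg (by positivity), mul_assoc,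
        Fin.sum_univ_eq_sum_range (fun k => z ^ (k + 1) - conj z ^ (k + 1))]
      refine mul_le_mul_of_nonneg_left ((sin_bound hz (Nat.two_pow_pos _)).trans_eq ?_)
        (by positivity)
      simp only [F, pow_succ', Nat.cast_mul, Nat.cast_ofNat]
    · rw [← mul_sum, ← mul_sum, Fin.sum_univ_eq_sum_range (fun k => F (k + 1) - F k),
        sum_range_sub]
      have h1 : F K ≤ 1 := by
        simp only [F]; rw [div_le_one (by positivity)]; linarith
      have h2 : 0 ≤ F 0 := by positivity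
      rw [div_lt_iff₀ hε] at hK
      rw [inv_mul_le_iff₀ hK0]
      linarith

variable {N : Type*} [CStarAlgebra N] [PartialOrder N] [StarOrderedRing N]

lemma norm_poly {ι : Type*} [Fintype ι] {w : ι → ℝ} {n : ι → ℕ} {ε : ℝ} (hε : 0 ≤ ε)
    (h : ∀ z : ℂ, ‖z‖ = 1 → ‖∑ i, (w i : ℂ) * (z ^ n i - conj z ^ n i)‖ ≤ ε) {V : N}
    (hV : V ∈ unitary N) : ‖∑ i, (w i : ℂ) • (V ^ n i - star V ^ n i)‖ ≤ ε := by
  have : IsStarNormal V := isStarNormal_of_mem_unitary hV
  have e : ∑ i, (w i : ℂ) • (V ^ n i - star V ^ n i)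
      = cfc (fun z : ℂ => ∑ i, (w i : ℂ) * (z ^ n i - star z ^ n i)) V := by
    rw [← sum_fn, cfc_sum _ V]
    refine sum_congr rfl fun i _ => ?_
    rw [cfc_const_mul _ _ V, cfc_sub _ _ V, cfc_pow_id V, cfc_pow _ _ V, cfc_star_id (a := V)]
  rw [e]
  exact norm_cfc_le hε fun z hz => h z (spectrum.norm_eq_one_of_unitary hV hz)

lemma fejer {Ω : Type*} [Fintype Ω] {θ : Ω → Unit → ℂ} {R : ℕ} (P : Phase θ (2 * R)) (Y : N)
    (g : N →ₗ[ℂ] ℂ) {a b : ℕ} (ha : a ≤ R) (hb : b ≤ R) :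
    𝔼 ω, conj (θ ω () ^ a) * θ ω () ^ b * g (star (∑ j ∈ range R, (θ ω () • Y) ^ j) *
      ∑ j ∈ range R, (θ ω () • Y) ^ j) =
      ∑ j ∈ range R, ∑ l ∈ range R, if j + a = l + b then g (star (Y ^ j) * Y ^ l) else 0 := by
  simp only [star_sum, sum_mul_sum]
  simp only [smul_pow, star_smul, smul_mul_smul_comm, map_sum, map_smul,
    mul_sum, expect_sum_comm, smul_eq_mul, ← mul_assoc, ← expect_mul]
  refine sum_congr rfl fun j hj => sum_congr rfl fun l hl => ?_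
  have := P.ker (fun _ => j + a) (fun _ => l + b) (fun _ => by have := mem_range.1 hj; omega)
    (fun _ => by have := mem_range.1 hl; omega)
  simp only [univ_unique, prod_singleton, funext_iff, forall_const] at this
  rw [← boole_mul, ← this]
  congr 1
  exact expect_congr rfl fun ω _ => by simp only [pow_add, map_mul, RCLike.star_def]; ring

lemma count_lt (R m : ℕ) (c : ℂ) :
    ∑ j ∈ range R, (if j + m ∈ range R then c else 0) = ((R - m : ℕ) : ℂ) * c := by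
  rw [← sum_filter, sum_const, nsmul_eq_mul]
  congr 2
  rw [← card_range (R - m)]
  congr 1
  ext j
  simp only [mem_filter, mem_range]
  omega

theorem reversal {τ : N →ₚ[ℂ] ℂ} (hτ : IsTr τ) {ι : Type*} [Fintype ι] {w : ι → ℝ} {n : ι → ℕ}
    {ε : ℝ} (hε : 0 ≤ ε) (hw : ∀ i, 0 ≤ w i)
    (h : ∀ z : ℂ, ‖z‖ = 1 → ‖∑ i, (w i : ℂ) * (z ^ n i - conj z ^ n i)‖ ≤ ε) {Y : N}
    (hY : Y ∈ unitary N) (T : N →ₗ[ℂ] N) {C : ℝ} (hC : 0 ≤ C) (hT : ∀ x, ‖T x‖ ≤ C * ‖x‖) :
    ‖∑ i, (w i : ℂ) * (τ (star (Y ^ n i) * T (Y ^ n i)) - τ (Y ^ n i * T (star (Y ^ n i))))‖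
      ≤ ε * C := by
  set A := fun i => τ (star (Y ^ n i) * T (Y ^ n i)) - τ (Y ^ n i * T (star (Y ^ n i))) with hA
  have main : ∀ R : ℕ, 0 < R → (∀ i, n i ≤ R) →
      ‖∑ i, (w i : ℂ) * (((R - n i : ℕ) : ℂ) * A i)‖ ≤ R * (ε * C) := by
    intro R hR hn
    have : NeZero (2 * R) := ⟨by omega⟩
    have P := phase_zmod Unit (2 * R)
    set θ : (Unit → ZMod (2 * R)) → Unit → ℂ := fun ω s => ZMod.stdAddChar (ω s)
    let k := fun ω => ∑ j ∈ range R, (θ ω () • Y) ^ j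
    let g : N → N →ₗ[ℂ] ℂ := fun z => (τ : N →ₗ[ℂ] ℂ) ∘ₗ LinearMap.mulRight ℂ z
    have hg : ∀ z x, g z x = τ (x * z) := fun z x => rfl
    have u1 : ∀ j, star (Y ^ j) * Y ^ j = 1 := fun j => (pow_mem hY j).1
    have e1 : ∀ z m, m ≤ R → 𝔼 ω, θ ω () ^ m * τ (star (k ω) * k ω * z)
        = ((R - m : ℕ) : ℂ) * τ (star (Y ^ m) * z) := fun z m hm => by
      have := fejer P Y (g z) (Nat.zero_le R) hm
      simp only [pow_zero, map_one, one_mul, add_zero, hg] at this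
      rw [this, sum_comm, ← count_lt]
      refine sum_congr rfl fun l _ => ?_
      rw [sum_ite_eq', pow_add, star_mul, mul_assoc (star _), u1, mul_one]
    have e2 : ∀ z m, m ≤ R → 𝔼 ω, conj (θ ω ()) ^ m * τ (star (k ω) * k ω * z)
        = ((R - m : ℕ) : ℂ) * τ (Y ^ m * z) := fun z m hm => by
      have := fejer P Y (g z) hm (Nat.zero_le R)
      simp only [pow_zero, mul_one, add_zero, hg, map_pow] at this
      rw [this, ← count_lt]
      refine sum_congr rfl fun l _ => ?_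
      rw [sum_ite_eq, pow_add, ← mul_assoc, u1, one_mul]
    have e3 : ∑ i, (w i : ℂ) * (((R - n i : ℕ) : ℂ) * A i) = 𝔼 ω, τ (star (k ω) * k ω *
        T (∑ i, (w i : ℂ) • ((θ ω () • Y) ^ n i - star (θ ω () • Y) ^ n i))) := by
      simp only [map_sum, map_smul, map_sub, mul_sum, mul_smul_comm, mul_sub, smul_pow, star_smul,
        smul_eq_mul, expect_sum_comm, expect_sub_distrib, ← mul_expect, RCLike.star_def,
        e1 _ _ (hn _), e2 _ _ (hn _), hA, star_pow]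
    have e4 := e1 1 0 (Nat.zero_le R)
    simp only [pow_zero, one_mul, mul_one, star_one, hτ.one, Nat.sub_zero] at e4
    have e5 : 𝔼 ω, ‖L2 τ (star (k ω))‖ ^ 2 = R := by
      simp only [hτ.L2_star, L2_sq, tr_apply, ← Complex.re_expect, e4, Complex.natCast_re]
    rw [e3, ← e5, expect_mul]
    refine (RCLike.norm_expect_le (K := ℂ)).trans (expect_le_expect fun ω _ => ?_)
    rw [mul_assoc, hτ.comm, mul_assoc, ← star_star (k ω), ← inner_L2, star_star]
    refine (norm_inner_le_norm _ _).trans ?_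
    rw [sq, mul_assoc]
    gcongr
    refine (L2_mul_left _ _).trans ?_
    rw [mul_comm]
    gcongr
    refine (hT _).trans ?_
    rw [mul_comm]
    gcongr
    refine norm_poly hε h ?_
    have h1 : conj (θ ω ()) * θ ω () = 1 := by rw [Complex.conj_mul', P.norm]; simp
    constructor
    · rw [star_smul, smul_mul_smul_comm, hY.1, RCLike.star_def, h1, one_smul]
    · rw [star_smul, smul_mul_smul_comm, hY.2, RCLike.star_def, mul_comm, h1, one_smul]
  set B := ∑ i, w i * (n i * ‖A i‖)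
  have hB : 0 ≤ B := sum_nonneg fun i _ => mul_nonneg (hw i) (by positivity)
  refine le_of_forall_pos_le_add fun δ hδ => ?_
  obtain ⟨R, hR⟩ := exists_nat_gt (B / δ + ∑ i, (n i : ℝ))
  have hs : 0 ≤ ∑ i, (n i : ℝ) := by positivity
  have hR0 : (0 : ℝ) < R := lt_of_le_of_lt (by positivity) hR
  have hn : ∀ i, n i ≤ R := fun i => by
    have := single_le_sum (f := fun i => (n i : ℝ)) (fun _ _ => by positivity) (mem_univ i)
    have h2 : 0 ≤ B / δ := by positivity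
    exact_mod_cast (by linarith : (n i : ℝ) ≤ R)
  have h1 := main R (by exact_mod_cast hR0) hn
  have h2 : (R : ℂ) * ∑ i, (w i : ℂ) * A i = ∑ i, (w i : ℂ) * (((R - n i : ℕ) : ℂ) * A i)
      + ∑ i, (w i : ℂ) * (n i * A i) := by
    rw [mul_sum, ← sum_add_distrib]
    exact sum_congr rfl fun i _ => by rw [Nat.cast_sub (hn i)]; ring
  have h3 : ‖∑ i, (w i : ℂ) * (n i * A i)‖ ≤ B := (norm_sum_le _ _).trans_eq
    (sum_congr rfl fun i _ => by simp [abs_of_nonneg (hw i)])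
  have h4 := congrArg norm h2
  rw [norm_mul, Complex.norm_natCast] at h4
  have h5 := h4.trans_le ((norm_add_le _ _).trans (add_le_add h1 h3))
  have h6 : B ≤ R * δ := by
    rw [← div_le_iff₀ hδ]; linarith
  refine le_of_mul_le_mul_left ?_ hR0
  linarith

end Vale.Agent.P082
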