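import Vale.Agent.P082.Dec
import Vale.Agent.P082.Rev

/-! Chains built from matrix units. -/

open scoped InnerProductSpace ComplexConjugate BigOperators ComplexOrder
open Finset

set_option linter.unusedSectionVars false

namespace Vale.Agent.P082

open Vale.Agent.P104

variable {N : Type*} [CStarAlgebra N] [PartialOrder N] [StarOrderedRing N]
variable {S : Type} [Fintype S] [DecidableEq S] [Nonempty S] {q : N} {g : S → N}

/-- diagonal matrix units -/
def QQ (g : S → N) (s : S) : N := g s * star (g s)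

lemma part_QQ (F : Frame0 q g) : Part (QQ g) :=
  ⟨⟨fun s => (F.pi s).rng, fun s t hst => by
    rw [QQ, QQ, mul_assoc, ← mul_assoc _ (g t), F.orth, if_neg hst, zero_mul, mul_zero]⟩, F.sum⟩

lemma unit_mul (F : Frame0 q g) (s t s' t' : S) :
    g s * star (g t) * (g s' * star (g t')) = if t = s' then g s * star (g t') else 0 := by
  rw [mul_assoc, ← mul_assoc _ (g s'), F.orth]
  split_ifs
  · rw [F.e_mul]
  · simp

/-- the layer of a unitary -/
def lay (Q : S → N) (k : Bool × unitary N) (σ : Bool × S) : N :=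
  if σ.1 = k.1 then k.2 * Q σ.2 else 0

lemma sum_lay {M : Type*} [AddCommMonoid M] (Q : S → N) (k : Bool × unitary N)
    (f : Bool × S → N → M) (hf : ∀ σ, f σ 0 = 0) :
    ∑ σ, f σ (lay Q k σ) = ∑ s, f (k.1, s) (k.2 * Q s) := by
  obtain ⟨b, Z⟩ := k
  cases b <;> simp [Fintype.sum_prod_type, lay, hf]

variable {Q : S → N}

lemma Ps_lay (h : Part Q) (k : Bool × unitary N) (X : N) :
    Ps (lay Q k) X = k.2 * dg Q X * star (k.2 : N) := by
  rw [Ps, sum_lay Q k (fun _ y => y * X * star y) (by simp)]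
  simp only [dg, mul_sum, sum_mul, star_mul, (h.proj _).isSelfAdjoint.star_eq, mul_assoc]

lemma Ph_lay (h : Part Q) (k : Bool × unitary N) (X : N) :
    Ph (lay Q k) X = dg Q (star (k.2 : N) * X * k.2) := by
  rw [Ph, sum_lay Q k (fun _ y => star y * X * y) (by simp)]
  simp only [dg, star_mul, (h.proj _).isSelfAdjoint.star_eq, mul_assoc]

lemma dg_one (h : Part Q) : dg Q 1 = 1 := by
  simp only [dg, mul_one, (h.proj _).isIdempotentElem.eq, h.sum]

lemma dg_Q (h : Part Q) (s : S) : dg Q (Q s) = Q s := by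
  simp [dg, h.toOrth.mul]

lemma sum_smul_lay (k : Bool × unitary N) (θ : Bool × S → ℂ) :
    ∑ σ, θ σ • lay Q k σ = k.2 * Dq Q fun s => θ (k.1, s) := by
  rw [sum_lay Q k (fun σ y => θ σ • y) (by simp)]
  simp only [Dq, mul_sum, mul_smul_comm]

lemma Dq_unit (h : Part Q) {c : S → ℂ} (hc : ∀ s, ‖c s‖ = 1) : Dq Q c ∈ unitary N := by
  constructor
  · rw [h.star_Dq, h.Dq_mul_Dq]
    simp [Dq, Complex.conj_mul', hc, h.sum]
  · rw [h.star_Dq, h.Dq_mul_Dq]
    simp [Dq, Complex.mul_conj', hc, h.sum]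

lemma lay_lay (h : Part Q) (k : Bool × unitary N) : Lay (lay Q k) := by
  refine ⟨fun σ => ?_, ?_, ?_, fun θ hθ => ?_⟩
  · rw [lay]
    split_ifs
    · rw [PI, star_mul, mul_assoc, mul_assoc, mul_assoc, ← mul_assoc (star _) (k.2 : N), k.2.2.1,
        one_mul, (h.proj _).isSelfAdjoint.star_eq, (h.proj _).isIdempotentElem.eq,
        (h.proj _).isIdempotentElem.eq]
    · simp [PI]
  · rw [Ps_lay h, dg_one h, mul_one, k.2.2.2]
  · rw [Ph_lay h, mul_one, k.2.2.1, dg_one h]
  · rw [sum_smul_lay]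
    exact mul_mem k.2.2 (Dq_unit h fun s => hθ _)

lemma Oc_lay (k : Bool × unitary N) : ∑ σ, Oc (lay Q k σ) = (∑ s, Oc (Q s)) * Oc (k.2 : N) := by
  rw [sum_lay Q k (fun _ y => Oc y) (by simp [Oc])]
  simp only [Oc_mul, sum_mul]

/-- a unitary with flat matrix -/
def Had (g : S → N) (H : unitary N) : Prop := ∃ c : S → S → ℂ,
  (∀ s t, conj (c s t) * c s t = (Fintype.card S : ℂ)⁻¹) ∧
    ∀ s t, QQ g s * H * QQ g t = c s t • (g s * star (g t))

lemma Had.star {H : unitary N} (h : Had g H) : Had g (star H) := by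
  obtain ⟨c, h1, h2⟩ := h
  refine ⟨fun s t => conj (c t s), fun s t => by rw [← h1 t s, RCLike.conj_conj, mul_comm],
    fun s t => ?_⟩
  simpa [QQ, mul_assoc] using congrArg Star.star (h2 t s)

/-- the element with a given scalar matrix -/
def mat (g : S → N) (a : S → S → ℂ) : N := ∑ s, ∑ t, a s t • (g s * star (g t))

lemma mat_mul (F : Frame0 q g) (a b : S → S → ℂ) :
    mat g a * mat g b = mat g fun s t => ∑ l, a s l * b l t := by
  simp only [mat, sum_mul]
  refine sum_congr rfl fun s _ => ?_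
  simp only [sum_smul]
  conv_rhs => rw [sum_comm]
  refine sum_congr rfl fun l _ => ?_
  simp only [mul_sum, smul_mul_smul_comm, unit_mul F]
  rw [sum_eq_single l (fun b _ hb => by simp [hb.symm]) (by simp)]
  simp

lemma star_mat (a : S → S → ℂ) : star (mat g a) = mat g fun s t => conj (a t s) := by
  simp only [mat, star_sum, star_smul, star_mul, star_star, RCLike.star_def]
  exact sum_comm

lemma exists_had (F : Frame0 q g) : ∃ H, Had g H := by
  obtain ⟨h, h1, h2, h3⟩ := exists_hadamard S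
  have hn : (0 : ℝ) < Fintype.card S := by exact_mod_cast Fintype.card_pos
  set r : ℝ := (√(Fintype.card S : ℝ))⁻¹ with hr
  have hrr : (r : ℂ) * r = (Fintype.card S : ℂ)⁻¹ := by
    rw [← Complex.ofReal_mul, hr, ← mul_inv, Real.mul_self_sqrt hn.le]; simp
  have hn' : (Fintype.card S : ℂ) ≠ 0 := by exact_mod_cast Fintype.card_ne_zero
  have key : mat g (fun s t => (r : ℂ) * r * if s = t then (Fintype.card S : ℂ) else 0) = 1 := by
    simp [mat, hrr, hn', F.sum]
  refine ⟨⟨mat g fun s t => r * h s t, ?_, ?_⟩, fun s t => r * h s t, fun s t => ?_,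
    fun s t => ?_⟩
  · rw [star_mat, mat_mul F, ← key]
    simp only [← h2, mul_sum, map_mul, Complex.conj_ofReal, mul_mul_mul_comm]
  · rw [star_mat, mat_mul F, ← key]
    simp only [← h3, mul_sum, map_mul, Complex.conj_ofReal, mul_mul_mul_comm]
  · rw [map_mul, Complex.conj_ofReal, mul_mul_mul_comm, hrr, Complex.conj_mul', h1]; simp
  · simp [QQ, mat, mul_sum, sum_mul, unit_mul F]

/-- averaging over the matrix units -/
noncomputable def eOp (g : S → N) : EE N :=
  (Fintype.card S : ℂ)⁻¹ • ∑ s, ∑ t, Oc (g s * star (g t))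

lemma Oc_smul (c : ℂ) (v : N) : Oc (c • v) = (conj c * c) • Oc v := by
  simp only [Oc, star_smul, map_smul, smul_mul_smul_comm, RCLike.star_def]

lemma Had.eOp {H : unitary N} (h : Had g H) :
    (∑ s, Oc (QQ g s)) * Oc (H : N) * (∑ s, Oc (QQ g s)) = eOp g := by
  obtain ⟨c, h1, h2⟩ := h
  simp only [sum_mul, mul_sum, ← Oc_mul, ← mul_assoc, h2, Oc_smul, h1, P082.eOp, smul_sum]

lemma eOp_unit (F : Frame0 q g) (a b : S) :
    eOp g * Lm (g a * star (g b)) = eOp g * Rm (g a * star (g b)) := by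
  ext T y
  simp only [eOp, Module.End.mul_apply, LinearMap.smul_apply, LinearMap.sum_apply, Oc_apply,
    Lm_apply, Rm_apply, star_mul, star_star, ← mul_assoc _ _ (T _), unit_mul F,
    ← mul_assoc _ _ y]
  congr 1
  rw [sum_eq_single a (fun s _ hs => by simp [hs]) (by simp), eq_comm,
    sum_eq_single b (fun s _ hs => by simp [hs.symm]) (by simp)]
  simp

lemma Rm_mul (x y : N) : Rm x * Rm y = Rm (y * x) := by ext; simp [mul_assoc]

lemma Rm_one : Rm (1 : N) = 1 := by ext; simp

lemma eOp_eOp (F : Frame0 q g) : eOp g * eOp g = eOp g := by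
  have : ∀ s t, eOp g * Oc (g s * star (g t)) = eOp g * Rm (QQ g s) := fun s t => by
    rw [Oc, star_mul, star_star, ← mul_assoc, eOp_unit F, mul_assoc, Rm_mul, unit_mul F,
      if_pos rfl, QQ]
  nth_rw 2 [eOp]
  simp only [mul_smul_comm, mul_sum, this, sum_const, card_univ, ← smul_sum]
  rw [← mul_sum, ← map_sum, (part_QQ F).sum, Rm_one, mul_one, ← Nat.cast_smul_eq_nsmul ℂ,
    inv_smul_smul₀ (by exact_mod_cast Fintype.card_ne_zero)]

/-- the flattening map -/
noncomputable def Fm (g : S → N) (X : N) : N := Ps g ((Fintype.card S : ℝ)⁻¹ • Ph g X)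

lemma Had.dg {H : unitary N} (F : Frame0 q g) (h : Had g H) (X : N) :
    dg (QQ g) (H * dg (QQ g) X * Star.star (H : N)) = Fm g X := by
  obtain ⟨c, h1, h2⟩ := h
  simp only [P104.dg, Fm, Ps, Ph, mul_sum, sum_mul, smul_sum]
  refine sum_congr rfl fun s _ => sum_congr rfl fun t _ => ?_
  have := congrArg Star.star (h2 s t)
  rw [star_mul, star_mul, ((part_QQ F).proj _).isSelfAdjoint.star_eq,
    ((part_QQ F).proj _).isSelfAdjoint.star_eq] at this
  calc _ = QQ g s * H * QQ g t * X * (QQ g t * (Star.star (H : N) * QQ g s)) := by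
        simp only [mul_assoc]
    _ = _ := by
      rw [this, h2, star_smul, smul_mul_assoc, smul_mul_smul_comm, RCLike.star_def, mul_comm, h1,
        ← Complex.coe_smul]
      simp [mul_assoc]

/-- flat unitaries -/
def Fl (g : S → N) (η : ℝ) (W : unitary N) : Prop := ∀ s,
  Fm g (W * QQ g s * star (W : N)) ≤ η • 1 ∧ Fm g (star (W : N) * QQ g s * W) ≤ η • 1

variable {η : ℝ} {H : unitary N}

lemma Fl.star {W : unitary N} (h : Fl g η W) : Fl g η (star W) := fun s => by
  simpa using (h s).symm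

lemma conj_le_smul (Z : unitary N) {X : N} (h : X ≤ η • 1) : Z * X * star (Z : N) ≤ η • 1 := by
  simpa [Z.2.2] using star_right_conjugate_le_conjugate h (Z : N)

lemma dg_le_smul (hQ : Part Q) {X : N} (h : X ≤ η • 1) : dg Q X ≤ η • 1 := by
  have := Ps_mono (lay Q (true, 1)) h
  rw [Ps_smul, (lay_lay hQ _).l, Ps_lay hQ] at this
  simpa using this

lemma rel_of (hQ : Part Q) (hη : 0 ≤ η) {k k' : Bool × unitary N} (h0 : k.1 ≠ k'.1)
    (h1 : ∀ s, dg Q (k.2 * dg Q (k'.2 * Q s * star (k'.2 : N)) * star (k.2 : N)) ≤ η • 1)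
    (h2 : ∀ s, dg Q (star (k'.2 : N) * dg Q (star (k.2 : N) * Q s * k.2) * k'.2) ≤ η • 1) :
    Rel (lay Q) Prod.fst η k k' := by
  have n0 : (0 : N) ≤ η • 1 := smul_nonneg hη zero_le_one
  refine ⟨h0, fun k0 σ => ?_, fun k0 σ => ?_⟩
  · rw [Ps_lay hQ, Ps_lay hQ, lay]
    refine conj_le_smul _ ?_
    split_ifs
    · rw [star_mul, mul_assoc _ (Q _), ← mul_assoc (Q _), (hQ.proj _).isSelfAdjoint.star_eq,
        (hQ.proj _).isIdempotentElem.eq, ← mul_assoc]
      exact h1 _
    · simpa [dg] using n0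
  · rw [Ph_lay hQ, Ph_lay hQ, lay]
    split_ifs
    · rw [star_mul, mul_assoc (star (Q _)), ← mul_assoc (star (k0.2 : N)), k0.2.2.1, one_mul,
        (hQ.proj _).isSelfAdjoint.star_eq, (hQ.proj _).isIdempotentElem.eq]
      exact h2 _
    · simpa [dg] using n0

/-- the layers of a list of unitaries -/
def blk (b : Bool) (H : unitary N) : List (unitary N) → List (Bool × unitary N)
  | [] => []
  | w :: l => (b, w) :: (!b, H) :: blk b H l

lemma blk_chain (F : Frame0 q g) (hη : 0 ≤ η) (hH : Had g H) (h1 : Fl g η 1) (b : Bool)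
    (l : List (unitary N)) (hl : ∀ w ∈ l, Fl g η w) :
    (blk b H l).IsChain (Rel (lay (QQ g)) Prod.fst η) := by
  have hQ := part_QQ F
  have a1 : ∀ s, dg (QQ g) (H * QQ g s * star (H : N)) ≤ η • 1 := fun s => by
    rw [← dg_Q hQ s, hH.dg F]; simpa using (h1 s).1
  have a2 : ∀ s, dg (QQ g) (star (H : N) * QQ g s * H) ≤ η • 1 := fun s => by
    have := hH.star.dg F (QQ g s)
    rw [dg_Q hQ s, Unitary.coe_star, star_star] at this
    rw [this]; simpa using (h1 s).1
  induction l with
  | nil => exact List.isChain_nil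
  | cons w l ih =>
    have hw := hl w List.mem_cons_self
    refine List.isChain_cons_cons.2 ⟨rel_of hQ hη (by simp)
      (fun s => dg_le_smul hQ (conj_le_smul _ (a1 s))) fun s => ?_, List.isChain_cons.2
        ⟨?_, ih fun w hw => hl w (List.mem_cons_of_mem _ hw)⟩⟩
    · have := hH.star.dg F (star (w : N) * QQ g s * w)
      rw [Unitary.coe_star, star_star] at this
      rw [this]; exact (hw s).2
    · rcases l with _ | ⟨w', l⟩
      · simp [blk]
      · rintro _ ⟨⟩
        refine rel_of hQ hη (by simp) (fun s => ?_) fun s => dg_le_smul hQ ?_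
        · rw [hH.dg F]; exact (hl w' (by simp) s).1
        · simpa using conj_le_smul (star w') (a2 s)

/-- the chain with a repeated random unitary -/
def vch (D : N) (l : List (unitary N)) : N := (l.map fun w => (w : N) * D).prod

/-- the chain with independent averaging -/
noncomputable def IM (g : S → N) : List (unitary N) → EE N
  | [] => 1
  | w :: l => IM g l * eOp g * Oc (w : N)

/-- the random unitary -/
noncomputable def DD (g : S → N) (b : Bool) (H : unitary N) (θ : Bool × S → ℂ) : N :=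
  Dq (QQ g) (fun s => θ (b, s)) * H * Dq (QQ g) fun s => θ (!b, s)

lemma vch_cons (D : N) (w : unitary N) (l : List (unitary N)) :
    vch D (w :: l) = w * D * vch D l := by simp [vch]

lemma vch_append (D : N) (l l' : List (unitary N)) : vch D (l ++ l') = vch D l * vch D l' := by
  simp [vch]

lemma IM_append (l l' : List (unitary N)) : IM g (l ++ l') = IM g l' * IM g l := by
  induction l with
  | nil => simp [IM]
  | cons w l ih => simp only [List.cons_append, IM, ih, mul_assoc]

lemma prd_blk (b : Bool) (θ : Bool × S → ℂ) (l : List (unitary N)) :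
    prd (lay (QQ g)) θ (blk b H l) = vch (DD g b H θ) l := by
  induction l with
  | nil => rfl
  | cons w l ih => simp only [blk, prd_cons, ih, vch_cons, sum_smul_lay, DD, mul_assoc]

lemma Ind_blk (hH : Had g H) (b : Bool) (l : List (unitary N)) :
    Ind (lay (QQ g)) (blk b H l) = IM g l := by
  induction l with
  | nil => rfl
  | cons w l ih => simp only [blk, Ind, ih, IM, Oc_lay, ← hH.eOp, mul_assoc]

lemma blk_append (b : Bool) (l l' : List (unitary N)) :
    blk b H (l ++ l') = blk b H l ++ blk b H l' := by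
  induction l with
  | nil => rfl
  | cons w l ih => simp only [List.cons_append, blk, ih]

lemma blk_length (b : Bool) (l : List (unitary N)) : (blk b H l).length = 2 * l.length := by
  induction l with
  | nil => rfl
  | cons w l ih => simp only [blk, List.length_cons, ih]; ring

variable {Ω : Type} [Fintype Ω] [Nonempty Ω] {θ : Ω → Bool × S → ℂ} {n : ℕ} {τ : N →ₚ[ℂ] ℂ}

lemma Mix.im (F : Frame0 q g) (l : List (unitary N)) : Mix (IM g l) := by
  obtain ⟨H, hH⟩ := exists_had F
  exact Ind_blk hH true l ▸ Mix.ind (phase_zmod _ 2) one_lt_two (lay_lay (part_QQ F)) _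

lemma Mix.eOp (F : Frame0 q g) : Mix (eOp g) := by
  simpa [IM, Oc_one] using Mix.im F [1]

theorem decor_blk (hτ : IsTr τ) (F : Frame0 q g) (hη : 0 ≤ η) (hH : Had g H) (h1 : Fl g η 1)
    (P : Phase θ n) {γ : ℝ} (hγ : 0 < γ) (hγη : (n : ℝ) ^ n * (4 * n * η) ≤ γ ^ 2) (b : Bool)
    (l : List (unitary N)) (hl : ∀ w ∈ l, Fl g η w) {W : unitary N} (hW : Fl g η W)
    (hn : 2 * l.length < n) :
    Near τ (n * γ) (eOp g * Oc (W : N) * av fun ω => Oc (vch (DD g b H (θ ω)) l))
      (IM g (l ++ [W])) := by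
  have := decor hτ (lay_lay (part_QQ F)) P hη (ty := Prod.fst) (fun k k' σ h => by
    by_cases h' : σ.1 = k.1
    · exact Or.inr (if_neg fun h'' => h (h''.symm.trans h'))
    · exact Or.inl (if_neg h')) (k1 := (b, W)) (k2 := (!b, H)) hγ hγη (blk b H l) (by
      have := blk_chain F hη hH h1 b (l ++ [W]) (by
        simp only [List.mem_append, List.mem_singleton]
        rintro w (hw | rfl)
        exacts [hl w hw, hW])
      rwa [blk_append] at this) (by rwa [blk_length])
  change Near τ _ (Ind _ (blk b H [W]) * _) (Ind _ (_ ++ blk b H [W])) at this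
  rw [← blk_append, Ind_blk hH, Ind_blk hH, IM, IM, one_mul, Cor] at this
  simp only [prd_blk] at this
  refine this.mono ?_
  rw [blk_length]
  gcongr

end Vale.Agent.P082
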