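import Vale.Agent.P082.Avg

/-! A mean on completely bounded maps. -/

open scoped InnerProductSpace ComplexConjugate BigOperators ComplexOrder
open Finset Filter Topology

set_option linter.unusedSectionVars false

namespace Vale.Agent.P082

open Vale.Agent.P104

variable {N : Type*} [CStarAlgebra N] [PartialOrder N] [StarOrderedRing N]
variable {H : Type*} [NormedAddCommGroup H] [InnerProductSpace ℂ H] [CompleteSpace H]
variable {ρ : N →⋆ₐ[ℂ] (H →L[ℂ] H)} {𝒮 : Set (H →L[ℂ] H)}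

/-- matrix bound -/
def MB (ρ : N →⋆ₐ[ℂ] (H →L[ℂ] H)) {K L : Type} [Fintype K] [Fintype L] (x : K → L → N) (r : ℝ)
    (q : H → ℝ) : Prop :=
  ∀ η : L → H, ∑ k, ‖∑ l, ρ (x k l) (η l)‖ ^ 2 ≤ r * ∑ l, q (η l)

/-- complete boundedness with a majorant -/
def CBq (ρ : N →⋆ₐ[ℂ] (H →L[ℂ] H)) (S : N →ₗ[ℂ] N) (q : H → ℝ) : Prop :=
  ∀ (K L : Type) [Fintype K] [Fintype L] (x : K → L → N) (r : ℝ), 0 ≤ r →
    MB ρ x r (fun η => ‖η‖ ^ 2) → MB ρ (fun k l => S (x k l)) r q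

/-- complete boundedness -/
def CB (ρ : N →⋆ₐ[ℂ] (H →L[ℂ] H)) (S : N →ₗ[ℂ] N) (C : ℝ) : Prop :=
  0 ≤ C ∧ CBq ρ S fun ξ => C ^ 2 * ‖ξ‖ ^ 2

variable {S : N →ₗ[ℂ] N} {q q' : H → ℝ}

lemma CBq.mono (h : CBq ρ S q) (hq : ∀ ξ, q ξ ≤ q' ξ) : CBq ρ S q' :=
  fun K L _ _ x r hr hx η => (h K L x r hr hx η).trans (by gcongr; exact hq _)

lemma MB.lim {I : Type*} {l : Filter I} [l.NeBot] {K L : Type} [Fintype K] [Fintype L]
    {f : I → K → L → N} {x : K → L → N} {p : I → H → ℝ} {r : ℝ}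
    (h : ∀ᶠ i in l, MB ρ (f i) r (p i)) (hS : ∀ a b, WL ρ l (fun i => f i a b) (x a b))
    (hq : ∀ ξ, Tendsto (fun i => p i ξ) l (𝓝 (q ξ))) : MB ρ x r q := fun η => by
  let y := fun k => ∑ l, ρ (x k l) (η l)
  have h1 : Tendsto (fun i => ∑ k, (2 * (⟪∑ l, ρ (f i k l) (η l), y k⟫_ℂ).re - ‖y k‖ ^ 2)) l
      (𝓝 (∑ k, (2 * (⟪y k, y k⟫_ℂ).re - ‖y k‖ ^ 2))) := by
    refine tendsto_finsetSum _ fun k _ => Tendsto.sub_const (Tendsto.const_mul _
      ((Complex.continuous_re.tendsto _).comp ?_)) _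
    change Tendsto _ _ (𝓝 ⟪∑ l, ρ (x k l) (η l), y k⟫_ℂ)
    simp only [sum_inner]
    exact tendsto_finsetSum _ fun l _ => hS _ _ _ _
  simp only [← norm_sq_re, two_mul, add_sub_cancel_right] at h1
  refine le_of_tendsto_of_tendsto h1 ((tendsto_finsetSum _ fun l _ => hq (η l)).const_mul r)
    (h.mono fun i hi => le_trans (sum_le_sum fun k _ => ?_) (hi η))
  have := norm_sub_sq (𝕜 := ℂ) (∑ l, ρ (f i k l) (η l)) (y k)
  simp only [RCLike.re_to_complex] at this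
  nlinarith [sq_nonneg ‖∑ l, ρ (f i k l) (η l) - y k‖]

lemma CBq.lim {I : Type*} {l : Filter I} [l.NeBot] {f : I → N →ₗ[ℂ] N} {p : I → H → ℝ}
    (h : ∀ᶠ i in l, CBq ρ (f i) (p i)) (hS : ∀ x, WL ρ l (fun i => f i x) (S x))
    (hq : ∀ ξ, Tendsto (fun i => p i ξ) l (𝓝 (q ξ))) : CBq ρ S q := fun K L _ _ x r hr hx =>
  MB.lim (h.mono fun _ hi => hi K L x r hr hx) (fun _ _ => hS _) hq

lemma sum_rho_le {ι : Type*} [Fintype ι] {m : ι → N} (hm : ∑ i, star (m i) * m i ≤ 1) (ξ : H) :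
    ∑ i, ‖ρ (m i) ξ‖ ^ 2 ≤ ‖ξ‖ ^ 2 := by
  simp only [vs_sq, ← map_sum]
  refine (vs_mono ξ hm).trans_eq ?_
  simpa using (vs_sq (ρ := ρ) 1 ξ).symm

lemma sum_rho_sq {ι : Type*} [Fintype ι] {m : ι → N} (hm : ∑ i, star (m i) * m i = 1) (ξ : H) :
    ∑ i, ‖ρ (m i) ξ‖ ^ 2 = ‖ξ‖ ^ 2 := by
  simp only [vs_sq, ← map_sum, hm]
  simpa using (vs_sq (ρ := ρ) 1 ξ).symm

lemma row_le {ι : Type*} [Fintype ι] {m : ι → N} (hm : ∑ i, star (m i) * m i ≤ 1) (η : ι → H) :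
    ‖∑ i, ρ (star (m i)) (η i)‖ ^ 2 ≤ ∑ i, ‖η i‖ ^ 2 := by
  set v := ∑ i, ρ (star (m i)) (η i) with hv
  have h1 : ‖v‖ ^ 2 ≤ ∑ i, (‖η i‖ ^ 2 + ‖ρ (m i) v‖ ^ 2) / 2 := by
    rw [norm_sq_re]
    nth_rw 1 [hv]
    rw [sum_inner, Complex.re_sum]
    refine sum_le_sum fun i _ => ?_
    rw [rho_inner, star_star]
    refine (Complex.re_le_norm _).trans ((norm_inner_le_norm _ _).trans ?_)
    nlinarith [sq_nonneg (‖η i‖ - ‖ρ (m i) v‖)]
  rw [← sum_div, sum_add_distrib] at h1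
  linarith [sum_rho_le (ρ := ρ) hm v]

lemma CBq.av (h : CBq ρ S q) {ι : Type} [Fintype ι] {m : ι → N} (hm : ∑ i, star (m i) * m i = 1) :
    CBq ρ (Av m S) fun ξ => ∑ i, q (ρ (m i) ξ) := fun K L _ _ x r hr hx ξ => by
  have := h K (L × ι) (fun k p => x k p.1 * star (m p.2)) r hr (fun η => by
    simp only [Fintype.sum_prod_type, rho_mul, ← map_sum]
    exact (hx _).trans (by gcongr; exact row_le hm.le _)) fun p => ρ (m p.2) (ξ p.1)
  simpa only [Fintype.sum_prod_type, Av_apply, map_sum, _root_.sum_apply, rho_mul] using this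

/-- the quadratic majorant -/
noncomputable def qz (ρ : N →⋆ₐ[ℂ] (H →L[ℂ] H)) (C t : ℝ) (z : N) (ξ : H) : ℝ :=
  C * ‖ξ‖ ^ 2 - t * ‖ρ z ξ‖ ^ 2

lemma qz_sum {ι : Type*} [Fintype ι] {m : ι → N} (hm : ∑ i, star (m i) * m i = 1) {z : N}
    (hz : Cen z) (C t : ℝ) (ξ : H) : ∑ i, qz ρ C t z (ρ (m i) ξ) = qz ρ C t z ξ := by
  simp only [qz, sum_sub_distrib, ← mul_sum, sum_rho_sq hm, ← rho_mul, (hz.2 _).eq]
  simp only [rho_mul, sum_rho_sq hm]

lemma ite_rho (p : Prop) [Decidable p] (a : N) (η : H) :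
    ρ (if p then a else 0) η = if p then ρ a η else 0 := by split_ifs <;> simp

lemma CBq.half {C t : ℝ} {z : N} (hz : Cen z) (h : CBq ρ S (qz ρ C t z)) {u : N}
    (hu : u ∈ unitary N) {a : N} (ha : ‖a‖ ≤ 1) : ∃ m : Bool → N, ∑ i, star (m i) * m i = 1 ∧
    ∀ (K L : Type) [Fintype K] [Fintype L] (x : K → L → N), MB ρ x 1 (fun η => ‖η‖ ^ 2) →
      MB ρ (fun k l => Av m S (x k l)) 1
        fun ξ => qz ρ C t z ξ - ‖ρ (S (a * star u) * u - S a) ξ‖ ^ 2 / 4 := by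
  classical
  have hr : ((√(1 / 2) : ℝ) : ℂ) * (√(1 / 2) : ℝ) = 2⁻¹ := by
    rw [← Complex.ofReal_mul, Real.mul_self_sqrt (by norm_num)]; simp
  refine ⟨fun b => ((√(1 / 2) : ℝ) : ℂ) • cond b u 1, ?_, fun K L _ _ x hx ξ => ?_⟩
  · simp only [Fintype.sum_bool, star_smul, smul_mul_smul_comm, RCLike.star_def,
      Complex.conj_ofReal, hr, cond_true, cond_false, hu.1, star_one, mul_one]
    module
  have := h (K ⊕ L) (L ⊕ L) (Sum.elim (fun k => Sum.elim (x k) fun l => x k l * star u)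
    fun j => Sum.elim (fun l => if l = j then -a else 0) fun l => if l = j then a * star u else 0)
    2 zero_le_two (fun η => by
      simp only [Fintype.sum_sum_type, Sum.elim_inl, Sum.elim_inr, rho_mul, ite_rho, sum_ite_eq',
        mem_univ, if_true]
      simp only [← sum_add_distrib (f := fun l => ρ (x _ l) _), ← map_add]
      refine (add_le_add (hx _) le_rfl).trans ?_
      rw [one_mul, ← sum_add_distrib, ← sum_add_distrib, mul_sum]
      refine sum_le_sum fun l _ => ?_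
      have a1 := parallelogram_law_with_norm ℂ (ρ (star u) (η (.inr l))) (η (.inl l))
      have a2 := pow_le_pow_left₀ (norm_nonneg _) (rho_contr (ρ := ρ) (norm_unit_le
        (Unitary.star_mem hu).1) (η (.inr l))) 2
      have a3 := pow_le_pow_left₀ (norm_nonneg _) (rho_contr (ρ := ρ) ha
        (ρ (star u) (η (.inr l)) - η (.inl l))) 2
      rw [map_neg, _root_.neg_apply, neg_add_eq_sub, ← map_sub, add_comm (η _)]
      nlinarith) (Sum.elim ξ fun l => ρ u (ξ l))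
  have e1 : ∀ l, qz ρ C t z (ρ u (ξ l)) = qz ρ C t z (ξ l) := fun l => by
    simpa using qz_sum (m := fun _ : Unit => u) (by simpa using hu.1) hz C t (ξ l)
  simp only [Fintype.sum_sum_type, Sum.elim_inl, Sum.elim_inr, ← rho_mul, apply_ite S, map_zero,
    ite_mul, zero_mul, ite_rho, sum_ite_eq', mem_univ, if_true, e1, map_neg, _root_.neg_apply,
    neg_add_eq_sub] at this
  have e2 : ∀ k, ‖∑ l, ρ (Av (fun b => ((√(1 / 2) : ℝ) : ℂ) • cond b u 1) S (x k l)) (ξ l)‖ ^ 2 =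
      ‖∑ l, ρ (S (x k l)) (ξ l) + ∑ l, ρ (S (x k l * star u) * u) (ξ l)‖ ^ 2 / 4 := fun k => by
    simp only [Av_apply, Fintype.sum_bool, star_smul, mul_smul_comm, map_smul, smul_mul_assoc,
      smul_smul, RCLike.star_def, Complex.conj_ofReal, hr, cond_true, cond_false, star_one,
      mul_one, _root_.smul_apply, ← smul_sum, norm_smul, map_add,
      _root_.add_apply, sum_add_distrib, add_comm, norm_inv, Complex.norm_ofNat]
    ring
  simp only [e2, ← sum_div, sum_sub_distrib, map_sub, _root_.sub_apply]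
  linarith

lemma CBq.of_one (h : ∀ (K L : Type) [Fintype K] [Fintype L] (x : K → L → N),
    MB ρ x 1 (fun η => ‖η‖ ^ 2) → MB ρ (fun k l => S (x k l)) 1 q) : CBq ρ S q := by
  have key : ∀ (K L : Type) [Fintype K] [Fintype L] (x : K → L → N) (r : ℝ), 0 < r →
      MB ρ x r (fun η => ‖η‖ ^ 2) → MB ρ (fun k l => S (x k l)) r q := fun K L _ _ x r hr hx η => by
    have e : ∀ (y : K → L → N) (η : L → H), ∑ k, ‖∑ l, ρ ((((√r)⁻¹ : ℝ) : ℂ) • y k l) (η l)‖ ^ 2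
        = r⁻¹ * ∑ k, ‖∑ l, ρ (y k l) (η l)‖ ^ 2 := fun y η => by
      simp only [map_smul, _root_.smul_apply, ← smul_sum, norm_smul, mul_pow,
        Complex.norm_real, Real.norm_eq_abs, sq_abs, inv_pow, Real.sq_sqrt hr.le, mul_sum]
    have := h K L (fun k l => (((√r)⁻¹ : ℝ) : ℂ) • x k l) (fun η => by
      rw [e, inv_mul_le_iff₀ hr, one_mul]; exact hx η) η
    simp only [map_smul S] at this
    rwa [e, inv_mul_le_iff₀ hr, one_mul] at this
  intro K L _ _ x r hr hx η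
  refine ge_of_tendsto (f := fun s : ℝ => s * ∑ l, q (η l)) (x := 𝓝[>] r)
    ((tendsto_id.mul_const _).mono_left nhdsWithin_le_nhds) ?_
  filter_upwards [self_mem_nhdsWithin] with s hs
  exact key K L x s (hr.trans_lt hs) (fun η => (hx η).trans
    (mul_le_mul_of_nonneg_right (le_of_lt hs) (by positivity))) η

/-- closed sets invariant under all averages -/
def TCB (ρ : N →⋆ₐ[ℂ] (H →L[ℂ] H)) : Set (Set (N →ₗ[ℂ] N)) := {X | WCl ρ X ∧
  ∀ (ι : Type) [Fintype ι] (m : ι → N), ∑ i, star (m i) * m i = 1 → ∀ S ∈ X, Av m S ∈ X}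

lemma qz_mem {z : N} (hz : Cen z) (C t : ℝ) : {S | CBq ρ S (qz ρ C t z)} ∈ TCB ρ :=
  ⟨fun _ _ _ h1 h2 => CBq.lim h1 h2 fun _ => tendsto_const_nhds,
    fun _ _ _ hm _ hS => (CBq.av hS hm).mono fun ξ => (qz_sum hm hz C t ξ).le⟩

lemma cb_iff {C : ℝ} : CBq ρ S (fun ξ => C * ‖ξ‖ ^ 2) ↔ ∀ z, CBq ρ S (qz ρ C 0 z) :=
  ⟨fun h z => h.mono fun ξ => by simp [qz], fun h => (h 0).mono fun ξ => by simp [qz]⟩

lemma cls_cb (W : WS ρ 𝒮) : Cls ρ (CB ρ) (TCB ρ) := by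
  refine ⟨fun S C h x => ?_, fun S C h => h.1, fun C => ⟨fun l S _ h1 h2 => ⟨h1.exists.elim
    fun _ h => h.1, CBq.lim (h1.mono fun _ h => h.2) h2 fun _ => tendsto_const_nhds⟩,
    fun ι _ m hm S hS => ⟨hS.1, cb_iff.2 fun z => ?_⟩⟩, fun X hX => hX.1,
    fun S C S' C' h h' => ⟨2 * (C + C'), by linarith [h.1, h'.1], fun K L _ _ x r hr hx η => ?_⟩,
    fun S C b h => ⟨‖b‖ * C, mul_nonneg (norm_nonneg b) h.1, fun K L _ _ x r hr hx η => ?_⟩,
    fun S C b h => ⟨‖b‖ * C, mul_nonneg (norm_nonneg b) h.1, fun K L _ _ x r hr hx η => ?_⟩,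
    ⟨1, zero_le_one, fun K L _ _ x r hr hx η => by simpa using hx η⟩,
    wcl_id W, fun ι _ m hm S hS => by rw [hS]; exact Av_id hm⟩
  · have h0 := h.1
    rw [← NonUnitalStarAlgHom.norm_map ρ W.inj (S x)]
    refine (ρ (S x)).opNorm_le_bound (by positivity) fun ξ =>
      (sq_le_sq₀ (norm_nonneg _) (by positivity)).1 ?_
    have := h.2 Unit Unit (fun _ _ => x) (‖x‖ ^ 2) (sq_nonneg _) (fun η => by
      simpa [← mul_pow] using pow_le_pow_left₀ (norm_nonneg _) (rho_le x _) 2) fun _ => ξ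
    simp only [univ_unique, sum_singleton] at this
    exact this.trans_eq (by ring)
  · exact ((qz_mem cen_zero (C ^ 2) 0).2 ι m hm S (cb_iff.1 hS.2 0)).mono fun ξ => by simp [qz]
  · have a1 := h.2 K L x r hr hx η
    have a2 := h'.2 K L x r hr hx η
    simp only [LinearMap.add_apply, map_add, _root_.add_apply, sum_add_distrib]
    refine (sum_le_sum fun k _ => norm_add_sq_le _ _).trans ?_
    simp only [sum_add_distrib, ← mul_sum] at a1 a2 ⊢
    have : 0 ≤ r * ∑ l, ‖η l‖ ^ 2 := by positivity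
    nlinarith [mul_nonneg (mul_nonneg h.1 h'.1) this, mul_nonneg (sq_nonneg C) this,
      mul_nonneg (sq_nonneg C') this]
  · have a1 := mul_le_mul_of_nonneg_left (h.2 K L x r hr hx η) (sq_nonneg ‖b‖)
    simp only [Lm_apply, rho_mul, ← map_sum]
    refine (sum_le_sum fun k _ => pow_le_pow_left₀ (norm_nonneg _) (rho_le _ _) 2).trans ?_
    simp only [mul_pow, ← mul_sum, mul_assoc] at a1 ⊢
    linarith
  · have a1 := h.2 K L (fun k l => b * x k l) (‖b‖ ^ 2 * r) (by positivity) (fun η => by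
      simp only [rho_mul, ← map_sum]
      refine (sum_le_sum fun k _ => pow_le_pow_left₀ (norm_nonneg _) (rho_le _ _) 2).trans ?_
      simp only [mul_pow, ← mul_sum, mul_assoc]
      exact mul_le_mul_of_nonneg_left (hx η) (sq_nonneg _)) η
    simp only [Rm_apply, mul_pow, ← mul_sum, mul_assoc] at a1 ⊢
    linarith

lemma cb_drop (W : WS ρ 𝒮) {C0 : ℝ} (hS : CB ρ S C0) {u a : N} (hu : u ∈ unitary N) (ha : ‖a‖ ≤ 1)
    (h0 : S (a * star u) * u - S a ≠ 0) : ∃ z δ, Cen z ∧ z ≠ 0 ∧ 0 < δ ∧ ∀ C t,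
      CBq ρ S (qz ρ C t z) → ∃ A, Adm (CB ρ) (TCB ρ) A ∧ CBq ρ (A S) (qz ρ C (t + δ) z) := by
  classical
  set c := S (a * star u) * u - S a
  have hn : 0 < ‖star c * c‖ := by rw [← norm_sq_eq]; exact pow_pos (norm_pos_iff.2 h0) 2
  obtain ⟨e, he, -, h1, h2⟩ := W.spec _ (IsSelfAdjoint.star_mul_self c) (‖star c * c‖ / 2)
  have he0 : e ≠ 0 := fun h => by
    rw [h, sub_zero, one_mul, mul_one] at h2
    have := norm_le_of_le (half_pos hn).le (star_mul_self_nonneg c) h2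
    linarith
  obtain ⟨z, hz, h3, h4⟩ := W.cenSupp e
  obtain ⟨s, a1, a2, a3⟩ := W.exhaust he (IsStarProjection.one N) hz h3 h4
  rw [one_mul] at a3
  refine ⟨z, ‖star c * c‖ / 2 / 4, hz, fun h => he0 (by rw [← h3, h, zero_mul]), by positivity,
    fun C t h => ?_⟩
  obtain ⟨m0, hm0, h5⟩ := h.half hz hu ha
  have h6 := CBq.of_one h5
  let g : (F : Finset s) → Fin F.card → N := fun F i => (F.equivFin.symm i).1.1
  let m : (F : Finset s) → Option (Fin F.card) → N := fun F o =>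
    o.elim (1 - ∑ i, g F i * star (g F i)) fun i => star (g F i)
  have hm : ∀ F, ∑ o, star (m F o) * m F o = 1 := fun F => by
    have hO : Orth fun i => g F i * star (g F i) := ⟨fun i => (a1 _ (Subtype.prop _)).1.rng,
      fun i j hij => by
        rw [mul_assoc, ← mul_assoc (star _), a2 (Subtype.prop _) (Subtype.prop _)
          (Subtype.coe_ne_coe.2 (Subtype.coe_ne_coe.2 (F.equivFin.symm.injective.ne hij))),
          zero_mul, mul_zero]⟩
    simp only [Fintype.sum_option, m, Option.elim, star_star,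
      hO.sum_proj.one_sub.isSelfAdjoint.star_eq, hO.sum_proj.one_sub.isIdempotentElem.eq,
      sub_add_cancel]
  have hA : ∀ F, Adm (CB ρ) (TCB ρ) (Av (m F) ∘ Av m0) := fun F =>
    (adm_Av _ fun X hX S _ _ h => hX.2 _ _ (hm F) S h).comp (cls_cb W)
      (adm_Av _ fun X hX S _ _ h => hX.2 _ _ hm0 S h)
  obtain ⟨A, b1, b2⟩ := Adm.lim W (cls_cb W) (Ultrafilter.of atTop) (Eventually.of_forall hA)
  refine ⟨A, b1, CBq.lim (p := fun (F : Finset s) ξ => qz ρ C t z ξ - ‖star c * c‖ / 2 / 4 *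
    ∑ i ∈ F, vs ρ ξ ((i : N) * star (i : N))) (Eventually.of_forall fun F =>
      (h6.av (hm F)).mono fun ξ => ?_) (b2 S C0 hS) fun ξ => ?_⟩
  · rw [sum_sub_distrib, qz_sum (hm F) hz, Fintype.sum_option, ← sum_coe_sort F,
      ← F.equivFin.symm.sum_comp, mul_sum]
    refine sub_le_sub_left (le_add_of_nonneg_of_le (by positivity) (sum_le_sum fun i _ => ?_)) _
    have d1 := vs_mono (ρ := ρ) ξ (star_right_conjugate_le_conjugate h1 (g F i))
    have d2 : g F i * e = g F i := (a1 _ (Subtype.prop _)).2.1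
    rw [mul_smul_comm, smul_mul_assoc, map_smul, d2, ← mul_assoc, ← mul_assoc, d2, mul_assoc _ e,
      mul_star_eq he d2, smul_eq_mul] at d1
    simp only [m, Option.elim, ← rho_mul, vs_sq, star_mul, star_star]
    simp only [mul_assoc] at d1 ⊢
    linarith
  · have := ((a3.hasSum_vs ξ).const_mul (‖star c * c‖ / 2 / 4)).const_sub (qz ρ C t z ξ)
    refine (this.mono_left (Ultrafilter.of_le _)).trans_eq ?_
    simp only [qz, vs_sq, hz.1.isSelfAdjoint.star_eq, hz.1.isIdempotentElem.eq]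
    ring_nf

theorem mean_cb (W : WS ρ 𝒮) : ∃ R, Mean (CB ρ) 1 R := by
  obtain ⟨P, hP, hm⟩ := exists_min W (cls_cb W)
  refine ⟨_, mean_of (cls_cb W) hP cen_one fun T C hT b => ?_⟩
  have hS := hP.bd (cls_cb W) hT
  have key : ∀ u ∈ unitary N, ∀ a, ‖a‖ ≤ 1 → P T (a * star u) * u = P T a := fun u hu a ha => by
    by_contra h0
    obtain ⟨z, δ, hz, hz0, hδ, h⟩ := cb_drop W hS hu ha (sub_ne_zero.2 h0)
    have : ∀ n : ℕ, CBq ρ (P T) (qz ρ (C ^ 2) (n * δ) z) := fun n => by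
      induction n with
      | zero => simpa using cb_iff.1 hS.2 z
      | succ n ih =>
        obtain ⟨A, hA, h'⟩ := h _ _ ih
        rw [Nat.cast_succ, add_one_mul]
        exact hm T C hT _ (qz_mem hz _ _) A hA h'
    obtain ⟨ξ, hξ⟩ : ∃ ξ, ρ z ξ ≠ 0 := by
      by_contra! h1
      exact hz0 (W.ext (by simpa using h1))
    obtain ⟨n, hn⟩ := exists_nat_gt (C ^ 2 * ‖ξ‖ ^ 2 / (δ * ‖ρ z ξ‖ ^ 2))
    have h2 := this n Empty Unit (fun _ _ => 0) 1 zero_le_one (fun η => by simp) fun _ => ξ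
    rw [div_lt_iff₀ (by positivity)] at hn
    simp [qz] at h2
    linarith
  obtain ⟨u, k, rfl, -⟩ := CStarAlgebra.exists_sum_four_unitary b
  simp only [one_mul, map_sum, map_smul, mul_sum, mul_smul_comm]
  refine sum_congr rfl fun i _ => ?_
  have := key _ (u i).2 _ (norm_unit_le (u i).2.1)
  rw [(u i).2.2] at this
  rw [this]

end Vale.Agent.P082
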