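import Vale.Agent.P082.Avg

/-! Cochains as functions of lists. -/

open scoped InnerProductSpace ComplexConjugate BigOperators ComplexOrder
open Finset Filter Topology

set_option linter.unusedSectionVars false

namespace Vale.Agent.P082

open Vale.Agent.P104

variable {N : Type*} [CStarAlgebra N] [PartialOrder N] [StarOrderedRing N]

/-- fixing the first variable -/
noncomputable def sh (x : N) : (List N → N) →ₗ[N] (List N → N) := LinearMap.funLeft N N (List.cons x)

@[simp] lemma sh_apply (x : N) (χ : List N → N) (l : List N) : sh x χ l = χ (x :: l) := rfl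

/-- the inner part of the coboundary -/
noncomputable def DL : List N → (List N → N) →ₗ[N] N
  | [] => 0
  | [x] => LinearMap.toSpanSingleton N N x ∘ₗ LinearMap.proj []
  | x :: y :: r => LinearMap.proj (x * y :: r) - DL (y :: r) ∘ₗ sh x

@[simp] lemma DL_nil (χ : List N → N) : DL [] χ = 0 := rfl

@[simp] lemma DL_one (x : N) (χ : List N → N) : DL [x] χ = χ [] * x := rfl

@[simp] lemma DL_two (x y : N) (r : List N) (χ : List N → N) :
    DL (x :: y :: r) χ = χ (x * y :: r) - DL (y :: r) (sh x χ) := rfl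

/-- multiplying the first variable -/
def mh (y : N) (χ : List N → N) : List N → N
  | [] => 0
  | w :: l => χ (y * w :: l)

lemma sh_DL (x y : N) (χ : List N → N) :
    sh y (sh x fun l => DL l χ) = sh y (mh x χ - fun l => DL l (sh x χ)) := rfl

lemma DL_DL (x y : N) (r : List N) (χ : List N → N) : DL (x :: y :: r) (fun l => DL l χ) = 0 := by
  induction r generalizing x y χ with
  | nil => simp [mul_assoc]
  | cons w r ih =>
    have := ih y w (sh x χ)
    rw [DL_two] at this
    rw [DL_two, DL_two y, sh_DL, map_sub, map_sub, ← sub_eq_zero.1 this]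
    have e : sh y (mh x χ) = sh (x * y) χ := rfl
    simp only [DL_two, sh_apply, mul_assoc, e]
    abel

/-- the coboundary -/
noncomputable def cob (χ : List N → N) : List N → N
  | [] => 0
  | x :: r => x * χ r - DL (x :: r) χ

/-- cocycles -/
def Coc (χ : List N → N) : Prop := ∀ x r, x * χ r = DL (x :: r) χ

lemma coc_cob (χ : List N → N) : Coc (cob χ) := by
  rintro x (_ | ⟨y, r⟩)
  · simp [cob]
  · have := DL_DL x y r χ
    have e : sh x (cob χ) = x • χ - sh x fun l => DL l χ := rfl
    rw [DL_two] at this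
    rw [DL_two, e, map_sub, map_smul, ← sub_eq_zero.1 this]
    simp only [cob, mul_sub, smul_eq_mul, mul_assoc]
    abel

/-- multilinearity -/
def Lin (χ : List N → N) : Prop := ∀ r r', IsLinearMap ℂ fun x => χ (r ++ x :: r')

/-- product of the norms -/
noncomputable def nrm (l : List N) : ℝ := (l.map norm).prod

/-- boundedness -/
def Bnd (C : ℕ → ℝ) (χ : List N → N) : Prop := ∀ l, ‖χ l‖ ≤ C l.length * nrm l

@[simp] lemma nrm_nil : nrm ([] : List N) = 1 := rfl

@[simp] lemma nrm_cons (x : N) (l : List N) : nrm (x :: l) = ‖x‖ * nrm l := by simp [nrm]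

lemma nrm_append (l l' : List N) : nrm (l ++ l') = nrm l * nrm l' := by simp [nrm]

lemma nrm_nonneg (l : List N) : 0 ≤ nrm l := by
  induction l with
  | nil => simp
  | cons x l ih => rw [nrm_cons]; positivity

lemma Lin.sh {χ : List N → N} (h : Lin χ) (x : N) : Lin (sh x χ) := fun r r' => h (x :: r) r'

lemma Lin.head {χ : List N → N} (h : Lin χ) : IsLinearMap ℂ fun x => P082.sh x χ :=
  ⟨fun x y => funext fun l => (h [] l).map_add x y, fun c x => funext fun l => (h [] l).map_smul c x⟩

lemma Bnd.sh {C : ℕ → ℝ} {χ : List N → N} (h : Bnd C χ) (x : N) :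
    Bnd (fun n => C (n + 1) * ‖x‖) (sh x χ) := fun l => by
  simpa [mul_assoc] using h (x :: l)

open Classical in
/-- the last variable -/
noncomputable def last (χ : List N → N) (r : List N) : N →ₗ[ℂ] N :=
  if h : IsLinearMap ℂ fun x => χ (r ++ [x]) then IsLinearMap.mk' _ h else 0

lemma Lin.last {χ : List N → N} (h : Lin χ) (r : List N) (x : N) : last χ r x = χ (r ++ [x]) := by
  rw [P082.last, dif_pos (h r [])]; rfl

variable {H : Type*} [NormedAddCommGroup H] [InnerProductSpace ℂ H] [CompleteSpace H]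
variable {ρ : N →⋆ₐ[ℂ] (H →L[ℂ] H)} {𝒮 : Set (H →L[ℂ] H)}
variable {Bd : (N →ₗ[ℂ] N) → ℝ → Prop} {𝒯 : Set (Set (N →ₗ[ℂ] N))} {z : N} {R : (N →ₗ[ℂ] N) → N}

lemma mean_DL (c : Cls ρ Bd 𝒯) (hR : Mean Bd z R) (r : List N) (x : N) {χ : List N → N}
    (h : Lin χ) (hb : ∀ r, ∃ C, Bd (last χ r) C) :
    ∃ S C, Bd S C ∧ (∀ y, S y = DL (x :: (r ++ [y])) χ) ∧
      R S = DL (x :: r) (fun l => R (last χ l)) + (-1) ^ (r.length + 1) * (χ (x :: r) * z) := by
  induction r generalizing x χ with
  | nil =>
    obtain ⟨C, h1⟩ := hb []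
    obtain ⟨C', h2⟩ := c.id
    obtain ⟨C1, h3⟩ := c.right _ _ x h1
    obtain ⟨C2, h4⟩ := c.left _ _ (-χ [x]) h2
    obtain ⟨C3, h5⟩ := c.add _ _ _ _ h3 h4
    refine ⟨_, _, h5, fun y => by simp [h.last, sub_eq_add_neg], ?_⟩
    rw [hR.add _ _ _ _ h3 h4, hR.right _ _ _ h1, hR.left _ _ _ h2, hR.id]
    simp
  | cons w r ih =>
    obtain ⟨S, C, h1, h2, h3⟩ := ih w (h.sh x) fun r => hb (x :: r)
    obtain ⟨C1, h4⟩ := hb (x * w :: r)
    obtain ⟨C2, h5⟩ := c.left _ _ (-1) h1
    obtain ⟨C3, h6⟩ := c.add _ _ _ _ h4 h5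
    refine ⟨_, _, h6, fun y => by simp [h.last, h2, sub_eq_add_neg], ?_⟩
    rw [hR.add _ _ _ _ h4 h5, hR.left _ _ _ h1, h3, DL_two, List.length_cons, pow_succ' _ (_ + 1)]
    have e : (sh x fun l => R (last χ l)) = fun l => R (last (sh x χ) l) := rfl
    rw [e, sh_apply]
    noncomm_ring

theorem integrate (c : Cls ρ Bd 𝒯) (hR : Mean Bd z R) {φ : List N → N} (h : Lin φ) {C : ℕ → ℝ}
    (hb : ∀ r, Bd (last φ r) (C r.length * nrm r)) (hc : Coc φ) :
    ∃ ψ, Lin ψ ∧ Bnd C ψ ∧ ∀ x r, cob ψ (x :: r) = (-1) ^ (r.length + 1) * (φ (x :: r) * z) := by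
  refine ⟨fun l => R (last φ l), fun r r' => ⟨fun x y => ?_, fun a x => ?_⟩,
    fun l => hR.le _ _ (hb l), fun x r => ?_⟩
  · beta_reduce
    rw [← hR.add _ _ _ _ (hb _) (hb _)]
    refine congrArg R (LinearMap.ext fun w => ?_)
    simpa [h.last] using (h r (r' ++ [w])).map_add x y
  · have := hR.left _ _ (a • 1) (hb (r ++ x :: r'))
    rw [smul_one_mul] at this
    beta_reduce
    rw [← this]
    refine congrArg R (LinearMap.ext fun w => ?_)
    simpa [h.last] using (h r (r' ++ [w])).map_smul a x
  · obtain ⟨S, C', h1, h2, h3⟩ := mean_DL c hR r x h fun r => ⟨_, hb r⟩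
    have : S = Lm x (last φ r) := by ext y; rw [h2, ← hc, Lm_apply, h.last]
    rw [this, hR.left _ _ _ (hb r)] at h3
    rw [cob, h3, add_sub_cancel_left]

lemma DL_lim {I : Type*} {f : Filter I} {χ : I → List N → N} {φ : List N → N}
    (h : ∀ l, WL ρ f (fun i => χ i l) (φ l)) (l : List N) :
    WL ρ f (fun i => DL l (χ i)) (DL l φ) := by
  induction l generalizing χ φ with
  | nil => exact WL.const 0
  | cons x l ih =>
    rcases l with _ | ⟨y, l⟩
    · exact (h []).mul_right x
    · exact (h _).sub (ih fun l => h (x :: l))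

lemma Lin.lim (W : WS ρ 𝒮) {I : Type*} {f : Filter I} [f.NeBot] {χ : I → List N → N}
    {φ : List N → N} (h : ∀ x l, WL ρ f (fun i => χ i (x :: l)) (φ (x :: l)))
    (hl : ∀ i, Lin (χ i)) : Lin φ := fun r r' => by
  have : ∀ x, WL ρ f (fun i => χ i (r ++ x :: r')) (φ (r ++ x :: r')) := fun x => by
    cases r <;> exact h _ _
  exact ⟨fun x y => (this _).eq W ((this x).add (this y))
      (Eventually.of_forall fun i => (hl i r r').map_add x y),
    fun a x => (this _).eq W ((this x).smul a)
      (Eventually.of_forall fun i => (hl i r r').map_smul a x)⟩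

variable {ι : Type*} [Fintype ι] [Nonempty ι]

/-- the averaged cochain -/
noncomputable def FL (u : ι → N) : List N → N → (List N → N) →ₗ[N] N
  | [], t => LinearMap.toSpanSingleton N N t ∘ₗ LinearMap.proj []
  | x :: r, t => av fun s => FL u r (u s) ∘ₗ sh (t * x * star (u s))

/-- the homotopy -/
noncomputable def KL (u : ι → N) : List N → N → (List N → N) →ₗ[N] N
  | [], t => LinearMap.proj [t]
  | x :: r, t => LinearMap.proj (t :: x :: r) - av fun s => KL u r (u s) ∘ₗ sh (t * x * star (u s))

variable {u : ι → N}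

@[simp] lemma FL_nil (t : N) (χ : List N → N) : FL u [] t χ = χ [] * t := rfl

lemma FL_cons (x : N) (r : List N) (t : N) (χ : List N → N) :
    FL u (x :: r) t χ = av fun s => FL u r (u s) (sh (t * x * star (u s)) χ) := by
  simp [FL, av]

@[simp] lemma KL_nil (t : N) (χ : List N → N) : KL u [] t χ = χ [t] := rfl

lemma KL_cons (x : N) (r : List N) (t : N) (χ : List N → N) : KL u (x :: r) t χ =
    χ (t :: x :: r) - av fun s => KL u r (u s) (sh (t * x * star (u s)) χ) := by
  simp [KL, av]

lemma KL_congr {χ χ' : List N → N} (h : ∀ x, sh x χ = sh x χ') (r : List N) (t : N) :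
    KL u r t χ = KL u r t χ' := by
  cases r with
  | nil => exact congrFun (h t) []
  | cons x r => simp only [KL_cons, h]; congr 1; exact congrFun (h t) _

lemma KL_mh (y : N) (χ : List N → N) (r : List N) (t : N) :
    KL u r t (mh y χ) = KL u r (y * t) χ := by
  cases r with
  | nil => rfl
  | cons x r => simp only [KL_cons, mul_assoc]; rfl

lemma map_av' {M : Type*} [AddCommGroup M] [Module ℂ M] [Module N M] [IsScalarTower ℂ N M]
    (g : M →ₗ[N] N) (f : ι → M) : g (av f) = av fun s => g (f s) := map_av (g.restrictScalars ℂ) f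

lemma av_fun {α : Type*} (f : ι → α → N) : (fun a => av fun s => f s a) = av f := by
  ext a; simp [av]

lemma av_add {M : Type*} [AddCommGroup M] [Module ℂ M] (f g : ι → M) :
    (av fun s => f s + g s) = av f + av g := by
  simp only [av, sum_add_distrib, smul_add]

lemma homotopy (hz : Cen z) (hu : ∀ s, star (u s) * u s = z) (r : List N) {t : N} (ht : t * z = t)
    (χ : List N → N) :
    KL u r t (fun l => DL l χ) = FL u r t χ - DL r fun l => KL u l t χ := by
  have hu' : ∀ s, u s * z = u s := fun s => by rw [← hu s, (PI.of_src (hu s ▸ hz.1)).mul_src]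
  induction r generalizing t χ with
  | nil => simp
  | cons x r ih =>
    have e1 : ∀ s, KL u r (u s) (sh (t * x * star (u s)) fun l => DL l χ) = KL u r (t * x) χ -
        (FL u r (u s) (sh (t * x * star (u s)) χ) -
          DL r fun l => KL u l (u s) (sh (t * x * star (u s)) χ)) := fun s => by
      rw [KL_congr (fun y => sh_DL _ y χ), map_sub, KL_mh, ih (hu' s), mul_assoc, hu,
        mul_assoc, ← (hz.2 x).eq, ← mul_assoc, ht]
    rw [KL_cons, FL_cons]
    simp only [e1, av_sub, av_const]
    rcases r with _ | ⟨w, r⟩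
    · simp [av_const]
    · have e2 : (sh x fun l => KL u l t χ) = sh x (sh t χ) -
          av fun s l => KL u l (u s) (sh (t * x * star (u s)) χ) := by
        rw [← av_fun]
        ext l
        simp [KL_cons]
      rw [DL_two x w r fun l => KL u l t χ, e2, map_sub, map_av']
      simp only [KL_cons _ r, DL_two, sh_apply, mul_assoc]
      abel

lemma KL_coc {φ : List N → N} (hc : Coc φ) (x : N) (r : List N) (t : N) :
    KL u (x :: r) t (fun l => DL l φ)
      = t * φ (x :: r) - t * x * av fun s => star (u s) * KL u r (u s) φ := by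
  have e : ∀ y, (sh y fun l => DL l φ) = y • φ := fun y => funext fun l => (hc y l).symm
  rw [KL_cons, ← hc, ← LinearMap.mulLeft_apply ℂ (t * x), map_av]
  simp only [e, map_smul, smul_eq_mul, LinearMap.mulLeft_apply, mul_assoc]

theorem homotopy_coc (hz : Cen z) (hu : ∀ s, star (u s) * u s = z) {φ : List N → N} (hc : Coc φ)
    (x : N) (r : List N) : cob (fun l => av fun s => star (u s) * KL u l (u s) φ) (x :: r)
      = z * φ (x :: r) - av fun s => star (u s) * FL u (x :: r) (u s) φ := by
  have hu' : ∀ s, u s * z = u s := fun s => by rw [← hu s, (PI.of_src (hu s ▸ hz.1)).mul_src]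
  have e1 : ∀ s, star (u s) * FL u (x :: r) (u s) φ = z * φ (x :: r) - z * x *
      (av fun s => star (u s) * KL u r (u s) φ) +
        DL (x :: r) fun l => star (u s) * KL u l (u s) φ := fun s => by
    have := homotopy hz hu (x :: r) (hu' s) φ
    rw [KL_coc hc, eq_sub_iff_add_eq] at this
    rw [← this, mul_add, mul_sub, ← mul_assoc, ← mul_assoc, ← mul_assoc, hu]
    congr 1
    exact ((DL (x :: r)).map_smul (star (u s)) _).symm
  have e2 : z * av (fun s => star (u s) * KL u r (u s) φ)
      = av fun s => star (u s) * KL u r (u s) φ := by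
    rw [← LinearMap.mulLeft_apply ℂ z, map_av]
    simp only [LinearMap.mulLeft_apply, ← mul_assoc, mul_star_eq hz.1 (hu' _)]
  simp only [e1, av_add, av_sub, av_const]
  rw [cob, av_fun, map_av', (hz.2 x).eq, mul_assoc x, e2]
  abel

lemma isLin_av {M : Type*} [AddCommGroup M] [Module ℂ M] {f : ι → N → M}
    (h : ∀ s, IsLinearMap ℂ (f s)) : IsLinearMap ℂ fun x => av fun s => f s x :=
  ⟨fun x y => by simp only [av, (h _).map_add, sum_add_distrib, smul_add],
    fun c x => by simp only [av, (h _).map_smul, ← smul_sum, smul_comm c]⟩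

lemma isLin_sh {χ : List N → N} (h : Lin χ) (g : (List N → N) →ₗ[N] N) (a b : N) :
    IsLinearMap ℂ fun x => g (sh (a * x * b) χ) :=
  ⟨fun x y => by rw [mul_add, add_mul, h.head.map_add, map_add],
    fun c x => by rw [mul_smul_comm, smul_mul_assoc, h.head.map_smul, g.map_smul_of_tower]⟩

lemma lin_FL {χ : List N → N} (h : Lin χ) (t : N) : Lin fun l => FL u l t χ := fun r r' => by
  induction r generalizing t χ with
  | nil => simpa only [List.nil_append, FL_cons] using isLin_av fun s => isLin_sh h _ _ _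
  | cons a r ih => simpa only [List.cons_append, FL_cons] using isLin_av fun s => ih (h.sh _) _

lemma isLin_sub {f g : N → N} (h : IsLinearMap ℂ f) (h' : IsLinearMap ℂ g) :
    IsLinearMap ℂ fun x => f x - g x :=
  ⟨fun x y => by rw [h.map_add, h'.map_add]; abel,
    fun c x => by rw [h.map_smul, h'.map_smul, smul_sub]⟩

lemma lin_KL {χ : List N → N} (h : Lin χ) (t : N) : Lin fun l => KL u l t χ := fun r r' => by
  induction r generalizing t χ with
  | nil =>
    simpa only [List.nil_append, List.cons_append, KL_cons] using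
      isLin_sub (h [t] r') (isLin_av fun s => isLin_sh h _ _ _)
  | cons a r ih =>
    simpa only [List.cons_append, KL_cons] using
      isLin_sub (h (t :: a :: r) r') (isLin_av fun s => ih (h.sh _) _)

lemma Lin.mul {χ : List N → N} (h : Lin χ) (a : N) : Lin fun l => a * χ l := fun r r' =>
  ⟨fun x y => by beta_reduce; rw [(h r r').map_add, mul_add],
    fun c x => by beta_reduce; rw [(h r r').map_smul, mul_smul_comm]⟩

lemma Lin.av {χ : ι → List N → N} (h : ∀ s, Lin (χ s)) : Lin fun l => av fun s => χ s l :=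
  fun r r' => isLin_av fun s => h s r r'

lemma bnd_FL (hu : ∀ s, ‖u s‖ ≤ 1) {C : ℕ → ℝ} (hC : ∀ n, 0 ≤ C n) {χ : List N → N}
    (h : Bnd C χ) (r : List N) (t : N) : ‖FL u r t χ‖ ≤ C r.length * (‖t‖ * nrm r) := by
  induction r generalizing C t χ with
  | nil => simpa using (norm_mul_le _ _).trans (mul_le_mul_of_nonneg_right (h []) (norm_nonneg t))
  | cons x r ih =>
    have := nrm_nonneg r
    have := hC (r.length + 1)
    rw [FL_cons, nrm_cons, List.length_cons]
    refine norm_av_le (by positivity) fun s => (ih (fun n => mul_nonneg (hC _) (norm_nonneg _))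
      (h.sh _) _).trans ?_
    have a1 : ‖t * x * star (u s)‖ ≤ ‖t‖ * ‖x‖ :=
      (norm_mul_le_left (by simpa using hu s)).trans (norm_mul_le _ _)
    calc _ ≤ C (r.length + 1) * (‖t‖ * ‖x‖) * (1 * nrm r) := by gcongr; exact hu s
      _ = _ := by ring

lemma bnd_KL (hu : ∀ s, ‖u s‖ ≤ 1) {C : ℕ → ℝ} (hC : ∀ n, 0 ≤ C n) {χ : List N → N}
    (h : Bnd C χ) (r : List N) (t : N) :
    ‖KL u r t χ‖ ≤ (r.length + 1) * C (r.length + 1) * (‖t‖ * nrm r) := by
  induction r generalizing C t χ with
  | nil => simpa using h [t]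
  | cons x r ih =>
    have := nrm_nonneg r
    have := hC (r.length + 1 + 1)
    rw [KL_cons, List.length_cons, Nat.cast_succ, add_mul _ 1, add_mul, add_comm, one_mul]
    refine (norm_sub_le _ _).trans (add_le_add (by simpa using h (t :: x :: r)) ?_)
    rw [nrm_cons]
    refine norm_av_le (by positivity) fun s => (ih (fun n => mul_nonneg (hC _) (norm_nonneg _))
      (h.sh _) _).trans ?_
    have a1 : ‖t * x * star (u s)‖ ≤ ‖t‖ * ‖x‖ :=
      (norm_mul_le_left (by simpa using hu s)).trans (norm_mul_le _ _)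
    calc _ ≤ (r.length + 1) * (C (r.length + 1 + 1) * (‖t‖ * ‖x‖)) * (1 * nrm r) := by
          gcongr; exact hu s
      _ = _ := by ring

end Vale.Agent.P082
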