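import Mathlib

/-! The Hochschild differential. -/

namespace Vale.Agent.P082

/-- The Hochschild differential of an `n`-cochain `f` on a ring `A` with values in `A`. -/
def hoch {A : Type*} [Ring A] {n : ℕ} (f : (Fin n → A) → A) (a : Fin (n + 1) → A) : A :=
  a 0 * f (Fin.tail a)
    + ∑ j : Fin n, (-1) ^ ((j : ℕ) + 1) * f (Fin.contractNth j.castSucc (· * ·) a)
    + (-1) ^ (n + 1) * (f (Fin.init a) * a (Fin.last n))

end Vale.Agent.P082
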