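import Vale.Agent.P082.Main
import Vale.Agent.P082.Defs

/-! Vanishing of the cohomology, for multilinear maps. -/

open scoped InnerProductSpace ComplexConjugate BigOperators ComplexOrder
open Finset Filter Topology

set_option linter.unusedSectionVars false

namespace Vale.Agent.P082

open Vale.Agent.P104

variable {N : Type*} [CStarAlgebra N] [PartialOrder N] [StarOrderedRing N]
variable {H : Type*} [NormedAddCommGroup H] [InnerProductSpace ℂ H] [CompleteSpace H]
variable {ρ : N →⋆ₐ[ℂ] (H →L[ℂ] H)} {𝒮 : Set (H →L[ℂ] H)}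

lemma DL_ofFn {n : ℕ} (χ : List N → N) (a : Fin (n + 1) → N) : DL (List.ofFn a) χ =
    -(∑ j : Fin n, (-1) ^ ((j : ℕ) + 1) * χ (List.ofFn (Fin.contractNth j.castSucc (· * ·) a))
      + (-1) ^ (n + 1) * (χ (List.ofFn (Fin.init a)) * a (Fin.last n))) := by
  induction n generalizing χ with
  | zero => simp
  | succ n ih =>
    have e0 : List.ofFn (Fin.contractNth (Fin.castSucc 0) (· * ·) a)
        = a 0 * a 1 :: List.ofFn fun i : Fin n => a i.succ.succ := by
      simp [List.ofFn_succ, Fin.contractNth]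
    have e1 : ∀ j : Fin n, List.ofFn (Fin.contractNth j.succ.castSucc (· * ·) a)
        = a 0 :: List.ofFn (Fin.contractNth j.castSucc (· * ·) (Fin.tail a)) := fun j => by
      simp [List.ofFn_succ, Fin.contractNth, Fin.tail, funext_iff]
    have e2 : List.ofFn (Fin.init a) = a 0 :: List.ofFn (Fin.init (Fin.tail a)) := by
      simp [List.ofFn_succ, Fin.init, Fin.tail, funext_iff]
    have e3 : List.ofFn (Fin.tail a) = a 1 :: List.ofFn fun i : Fin n => a i.succ.succ := by
      simp [List.ofFn_succ, Fin.tail]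
    have e4 : List.ofFn a = a 0 :: a 1 :: List.ofFn fun i : Fin n => a i.succ.succ := by
      simp [List.ofFn_succ]
    rw [e4, DL_two, ← e3, ih, Fin.sum_univ_succ, e0, e2]
    simp only [e1, sh_apply, Fin.val_succ, pow_succ' _ (_ + 1), neg_mul, one_mul, sum_neg_distrib,
      Fin.val_zero, zero_add, pow_one, Fin.tail, Fin.succ_last]
    abel

lemma hoch_ofFn {n : ℕ} (χ : List N → N) (a : Fin (n + 1) → N) :
    hoch (fun b => χ (List.ofFn b)) a = cob χ (a 0 :: List.ofFn (Fin.tail a)) := by
  have := DL_ofFn χ a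
  rw [List.ofFn_succ] at this
  rw [hoch, cob, add_assoc, sub_eq_add_neg]
  exact congrArg _ (neg_eq_iff_eq_neg.2 this).symm

lemma DL_zero {χ : List N → N} (x : N) (r : List N) (h : ∀ l, l.length = r.length → χ l = 0) :
    DL (x :: r) χ = 0 := by
  induction r generalizing x χ with
  | nil => simp [h [] rfl]
  | cons y r ih =>
    rw [DL_two, h (x * y :: r) rfl, ih (χ := sh x χ) y fun l hl => h (x :: l) (congrArg (· + 1) hl), sub_zero]

lemma Lin.update {n : ℕ} {χ : List N → N} (h : Lin χ) (a : Fin n → N) (i : Fin n) :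
    IsLinearMap ℂ fun x => χ (List.ofFn (Function.update a i x)) := by
  induction n generalizing χ with
  | zero => exact i.elim0
  | succ n ih =>
    cases i using Fin.cases with
    | zero => simpa [List.ofFn_succ, Function.update_of_ne] using h [] (List.ofFn fun j => a j.succ)
    | succ i =>
      simpa [List.ofFn_succ, Function.update_of_ne (Fin.succ_ne_zero _).symm, ← Fin.tail_def]
        using ih (h.sh (a 0)) (Fin.tail a) i

lemma nrm_ofFn {n : ℕ} (a : Fin n → N) : nrm (List.ofFn a) = ∏ i, ‖a i‖ := by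
  rw [nrm, List.map_ofFn, List.prod_ofFn]; rfl

theorem vanish_mult (W : WS ρ 𝒮) (k : ℕ) (f : MultilinearMap ℂ (fun _ : Fin (k + 1) => N) N)
    (hb : ∃ C : ℝ, ∀ a, ‖f a‖ ≤ C * ∏ i, ‖a i‖) (hf : ∀ a, hoch f a = 0) :
    ∃ g : MultilinearMap ℂ (fun _ : Fin k => N) N,
      (∃ C : ℝ, ∀ a, ‖g a‖ ≤ C * ∏ i, ‖a i‖) ∧ ∀ a, hoch g a = f a := by
  obtain ⟨C, hb⟩ := hb
  let φ : List N → N := fun l => if l.length = k + 1 then f fun i => l.getD i 0 else 0
  have h1 : ∀ a, φ (List.ofFn a) = f a := fun a => by simp [φ, -List.ofFn_succ, Fin.is_le]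
  have h2 : ∀ l, l.length ≠ k + 1 → φ l = 0 := fun l h => if_neg h
  have h3 : ∀ {n} (l : List N), l.length = n → ∃ a : Fin n → N, l = List.ofFn a := by
    rintro _ l rfl
    exact ⟨l.get, (List.ofFn_get l).symm⟩
  have h4 : Lin φ := fun r r' => by
    by_cases h : r.length + r'.length = k
    · have e : ∀ x, φ (r ++ x :: r') = f (Function.update (fun i => (r ++ 0 :: r').getD i 0)
          ⟨r.length, by omega⟩ x) := fun x => by
        simp only [φ]
        rw [if_pos (by simp; omega)]
        congr 1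
        ext i
        rcases eq_or_ne i ⟨r.length, by omega⟩ with rfl | hi
        · simp
        · have : (i : ℕ) ≠ r.length := fun h => hi (Fin.ext h)
          simp only [Function.update_of_ne hi, List.getD_eq_getElem?_getD, List.getElem?_append,
            List.getElem?_cons]
          split_ifs <;> first | rfl | omega
      simp only [e]
      exact ⟨f.map_update_add _ _, f.map_update_smul _ _⟩
    · have e : ∀ x, φ (r ++ x :: r') = 0 := fun x => h2 _ (by simp; omega)
      simp only [e]
      exact (0 : N →ₗ[ℂ] N).isLinear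
  have h5 : Bnd (fun _ => |C|) φ := fun l => by
    by_cases h : l.length = k + 1
    · obtain ⟨a, rfl⟩ := h3 l h
      rw [h1, nrm_ofFn]
      exact (hb a).trans (by gcongr; exact le_abs_self C)
    · rw [h2 l h, norm_zero]
      exact mul_nonneg (abs_nonneg C) (nrm_nonneg l)
  have h6 : Coc φ := fun x r => by
    by_cases h : r.length = k + 1
    · obtain ⟨a, rfl⟩ := h3 r h
      have := hoch_ofFn φ (Fin.cons x a)
      simp only [h1, Fin.cons_zero, Fin.tail_cons, cob] at this
      rw [h1]
      exact sub_eq_zero.1 (this.symm.trans (hf _))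
    · rw [h2 r h, mul_zero, DL_zero x r fun l hl => h2 l (hl ▸ h)]
  obtain ⟨g, C', a1, a2, a3⟩ := vanish W h4 (fun _ => abs_nonneg C) h5 h6 k
  refine ⟨MultilinearMap.mk' (fun a => g (List.ofFn a)) (fun a i => (a1.update a i).map_add)
    fun a i => (a1.update a i).map_smul, ⟨C' k, fun a => ?_⟩, fun a => ?_⟩
  · simpa [nrm_ofFn] using a2 (List.ofFn a)
  · refine (hoch_ofFn g a).trans ?_
    rw [a3 _ _ List.length_ofFn, ← h1, List.ofFn_succ]
    rfl

end Vale.Agent.P082
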