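import Vale.Agent.P082.Path

/-! Decorrelation of random chains. -/

open scoped InnerProductSpace ComplexConjugate BigOperators ComplexOrder
open Finset

set_option linter.unusedSectionVars false

namespace Vale.Agent.P082

open Vale.Agent.P104

section Av
variable {Ω M M' : Type*} [Fintype Ω] [AddCommGroup M] [Module ℂ M] [AddCommGroup M'] [Module ℂ M']

/-- uniform average -/
noncomputable def av (f : Ω → M) : M := (Fintype.card Ω : ℂ)⁻¹ • ∑ ω, f ω

lemma map_av {F : Type*} [FunLike F M M'] [LinearMapClass F ℂ M M'] (g : F) (f : Ω → M) :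
    g (av f) = av fun ω => g (f ω) := by simp only [av, map_smul, map_sum]

lemma av_eq (f : Ω → ℂ) : av f = 𝔼 ω, f ω := by
  rw [av, Fintype.expect_eq_sum_div_card, smul_eq_mul, div_eq_inv_mul]

lemma av_const [Nonempty Ω] (a : M) : av (fun _ : Ω => a) = a := by
  rw [av, sum_const, card_univ, ← Nat.cast_smul_eq_nsmul ℂ, inv_smul_smul₀]
  exact_mod_cast Fintype.card_ne_zero

lemma av_sum {ι : Type*} (s : Finset ι) (f : Ω → ι → M) :
    av (fun ω => ∑ i ∈ s, f ω i) = ∑ i ∈ s, av fun ω => f ω i := by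
  simp only [av, ← smul_sum]; rw [sum_comm]

lemma av_smul_const (f : Ω → ℂ) (a : M) : av (fun ω => f ω • a) = (𝔼 ω, f ω) • a := by
  rw [← av_eq, av, av, ← sum_smul, smul_smul, smul_eq_mul]

lemma av_sub (f g : Ω → M) : av (fun ω => f ω - g ω) = av f - av g := by
  simp only [av, sum_sub_distrib, smul_sub]

lemma av_bil {ι : Type*} [Fintype ι] [DecidableEq ι] {ξ : Ω → ι → ℂ}
    (h : ∀ i j, 𝔼 ω, conj (ξ ω i) * ξ ω j = if i = j then 1 else 0) (B : ι → ι → M) :
    av (fun ω => ∑ i, ∑ j, (conj (ξ ω i) * ξ ω j) • B i j) = ∑ i, B i i := by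
  simp [av_sum, av_smul_const, h]

lemma norm_av_le {M : Type*} [SeminormedAddCommGroup M] [NormedSpace ℂ M] {f : Ω → M} {C : ℝ}
    (hC : 0 ≤ C) (h : ∀ ω, ‖f ω‖ ≤ C) : ‖av f‖ ≤ C := by
  rw [av, norm_smul, norm_inv, Complex.norm_natCast]
  exact inv_mul_le_of_le_mul₀ (by positivity) hC ((norm_sum_le _ _).trans
    ((sum_le_card_nsmul _ _ C fun ω _ => h ω).trans_eq (by simp)))

end Av

variable {N : Type*} [CStarAlgebra N] [PartialOrder N] [StarOrderedRing N]

/-- operators on linear maps -/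
abbrev EE (N : Type*) [CStarAlgebra N] := Module.End ℂ (N →ₗ[ℂ] N)

/-- multiplication of the values -/
noncomputable def Lm : N →ₗ[ℂ] EE N :=
  LinearMap.mk₂ ℂ (fun x T => LinearMap.mulLeft ℂ x ∘ₗ T) (fun _ _ _ => by ext; simp [add_mul])
    (fun _ _ _ => by ext; simp) (fun _ _ _ => by ext; simp [mul_add]) (fun _ _ _ => by ext; simp)

/-- multiplication of the argument -/
noncomputable def Rm : N →ₗ[ℂ] EE N :=
  LinearMap.mk₂ ℂ (fun x T => T ∘ₗ LinearMap.mulLeft ℂ x) (fun _ _ _ => by ext; simp [add_mul])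
    (fun _ _ _ => by ext; simp) (fun _ _ _ => by ext; simp) (fun _ _ _ => by ext; simp)

@[simp] lemma Lm_apply (x : N) (T : N →ₗ[ℂ] N) (a : N) : Lm x T a = x * T a := rfl

@[simp] lemma Rm_apply (x : N) (T : N →ₗ[ℂ] N) (a : N) : Rm x T a = T (x * a) := rfl

/-- the conjugation operator -/
noncomputable def Oc (v : N) : EE N := Lm (star v) * Rm v

@[simp] lemma Oc_apply (v : N) (T : N →ₗ[ℂ] N) (a : N) : Oc v T a = star v * T (v * a) := rfl

lemma Oc_mul (v w : N) : Oc (v * w) = Oc w * Oc v := by ext; simp [mul_assoc]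

lemma Oc_one : Oc (1 : N) = 1 := by ext; simp

/-- contractions -/
def Bd1 (T : N →ₗ[ℂ] N) : Prop := ∀ x, ‖T x‖ ≤ ‖x‖

/-- mixtures of unitary conjugations -/
def Mix (π : EE N) : Prop := ∃ (ι : Type) (_ : Fintype ι) (w : ι → ℝ) (u : ι → N),
  (∀ i, 0 ≤ w i) ∧ ∑ i, w i = 1 ∧ (∀ i, u i ∈ unitary N) ∧ π = ∑ i, (w i : ℂ) • Oc (u i)

lemma Mix.oc {v : N} (hv : v ∈ unitary N) : Mix (Oc v) :=
  ⟨Unit, inferInstance, fun _ => 1, fun _ => v, by simp, by simp, fun _ => hv, by simp⟩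

lemma Mix.one : Mix (1 : EE N) := Oc_one (N := N) ▸ Mix.oc (one_mem _)

lemma Mix.mul {π σ : EE N} (h : Mix π) (h' : Mix σ) : Mix (π * σ) := by
  obtain ⟨ι, _, w, u, a1, a2, a3, rfl⟩ := h
  obtain ⟨κ, _, w', u', b1, b2, b3, rfl⟩ := h'
  refine ⟨ι × κ, inferInstance, fun p => w p.1 * w' p.2, fun p => u' p.2 * u p.1,
    fun p => mul_nonneg (a1 _) (b1 _), ?_, fun p => mul_mem (b3 _) (a3 _), ?_⟩
  · rw [Fintype.sum_prod_type, ← sum_mul_sum, a2, b2, one_mul]
  · simp only [Fintype.sum_prod_type, sum_mul_sum, smul_mul_smul_comm, Oc_mul, Complex.ofReal_mul]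

lemma Mix.sum {ι : Type} [Fintype ι] {w : ι → ℝ} (h1 : ∀ i, 0 ≤ w i) (h2 : ∑ i, w i = 1)
    {π : ι → EE N} (h : ∀ i, Mix (π i)) : Mix (∑ i, (w i : ℂ) • π i) := by
  choose κ hκ w' u a1 a2 a3 a4 using h
  refine ⟨Σ i, κ i, inferInstance, fun p => w p.1 * w' p.1 p.2, fun p => u p.1 p.2,
    fun p => mul_nonneg (h1 _) (a1 _ _), ?_, fun p => a3 _ _, ?_⟩
  · simp only [Fintype.sum_sigma, ← mul_sum, a2, mul_one, h2]
  · simp only [Fintype.sum_sigma, a4, smul_sum, smul_smul, Complex.ofReal_mul]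

lemma Mix.av {Ω : Type} [Fintype Ω] [Nonempty Ω] {π : Ω → EE N} (h : ∀ i, Mix (π i)) :
    Mix (av π) := by
  have := Mix.sum (w := fun _ : Ω => (Fintype.card Ω : ℝ)⁻¹) (fun _ => by positivity) (by simp) h
  simpa [P082.av, smul_sum] using this

lemma Mix.con {π : EE N} (h : Mix π) {T : N →ₗ[ℂ] N} (hT : Bd1 T) : Bd1 (π T) := by
  obtain ⟨ι, _, w, u, a1, a2, a3, rfl⟩ := h
  intro x
  simp only [LinearMap.sum_apply, LinearMap.smul_apply, Oc_apply]
  refine (norm_sum_le _ _).trans ((sum_le_sum (g := fun i => w i * ‖x‖) fun i _ => ?_).trans_eq ?_)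
  · rw [norm_smul, Complex.norm_real, Real.norm_of_nonneg (a1 i)]
    have := norm_unit_le (a3 i).1
    exact mul_le_mul_of_nonneg_left ((norm_mul_le_right (by rwa [norm_star])).trans
      ((hT _).trans (norm_mul_le_right this))) (a1 i)
  · rw [← sum_mul, a2, one_mul]

variable {τ : N →ₚ[ℂ] ℂ}

/-- closeness of two operators -/
def Near (τ : N →ₚ[ℂ] ℂ) (ε : ℝ) (π σ : EE N) : Prop :=
  ∀ T, Bd1 T → ‖τ (π T 1) - τ (σ T 1)‖ ≤ ε

namespace Near
variable {ε ε' : ℝ} {π σ χ : EE N}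

lemma refl (π : EE N) : Near τ 0 π π := fun _ _ => by simp

lemma symm (h : Near τ ε π σ) : Near τ ε σ π := fun T hT => by
  rw [norm_sub_rev]; exact h T hT

lemma trans (h : Near τ ε π σ) (h' : Near τ ε' σ χ) : Near τ (ε + ε') π χ := fun T hT =>
  (norm_sub_le_norm_sub_add_norm_sub _ _ _).trans (add_le_add (h T hT) (h' T hT))

lemma mono (h : Near τ ε π σ) (h' : ε ≤ ε') : Near τ ε' π σ := fun T hT => (h T hT).trans h'

lemma mul (h : Near τ ε π σ) (h' : Mix χ) : Near τ ε (π * χ) (σ * χ) := fun _ hT =>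
  h _ (h'.con hT)

lemma sum {ι : Type*} [Fintype ι] {w : ι → ℝ} (h1 : ∀ i, 0 ≤ w i) (h2 : ∑ i, w i = 1)
    {π σ : ι → EE N} (h : ∀ i, Near τ ε (π i) (σ i)) :
    Near τ ε (∑ i, (w i : ℂ) • π i) (∑ i, (w i : ℂ) • σ i) := fun T hT => by
  simp only [LinearMap.sum_apply, LinearMap.smul_apply, map_sum, map_smul, ← sum_sub_distrib,
    ← smul_sub]
  refine (norm_sum_le _ _).trans ((sum_le_sum (g := fun i => w i * ε) fun i _ => ?_).trans_eq ?_)
  · rw [norm_smul, Complex.norm_real, Real.norm_of_nonneg (h1 i)]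
    exact mul_le_mul_of_nonneg_left (h i T hT) (h1 i)
  · rw [← sum_mul, h2, one_mul]

end Near

variable {A κ : Type*} [Fintype A] [DecidableEq A] {x : κ → A → N}

/-- the independent chain -/
noncomputable def Ind (x : κ → A → N) : List κ → EE N
  | [] => 1
  | k :: c => Ind x c * ∑ a, Oc (x k a)

lemma Ind_append (c l : List κ) : Ind x (c ++ l) = Ind x l * Ind x c := by
  induction c with
  | nil => simp [Ind]
  | cons k c ih => simp only [List.cons_append, Ind, ih, mul_assoc]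

lemma Ind_apply (c : List κ) (T : N →ₗ[ℂ] N) (a : N) :
    Ind x c T a = ∑ y, star (pth x c y) * T (pth x c y * a) := by
  induction c generalizing T with
  | nil => simp [Ind, pth]
  | cons k c ih =>
    rw [Ind, Module.End.mul_apply, ih, sum_pth, sum_comm]
    simp only [LinearMap.sum_apply, Oc_apply, pth_cons, mul_sum, star_mul, mul_assoc]

variable {Ω : Type} [Fintype Ω] [Nonempty Ω] {θ : Ω → A → ℂ} {n : ℕ}

lemma av_Oc (P : Phase θ n) (hn : 1 < n) (y : A → N) :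
    av (fun ω => Oc (∑ a, θ ω a • y a)) = ∑ a, Oc (y a) := by
  simp only [Oc, star_sum, star_smul, map_sum, map_smul, sum_mul_sum, smul_mul_smul_comm,
    RCLike.star_def]
  exact av_bil (P.ker1 hn) _

lemma Mix.lay (P : Phase θ n) (hn : 1 < n) {y : A → N} (h : Lay y) : Mix (∑ a, Oc (y a)) :=
  av_Oc P hn y ▸ Mix.av fun ω => Mix.oc (h.con _ (P.norm ω))

lemma Mix.ind (P : Phase θ n) (hn : 1 < n) (hL : ∀ k, Lay (x k)) (c : List κ) : Mix (Ind x c) := by
  induction c with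
  | nil => exact Mix.one
  | cons k c ih => exact ih.mul (Mix.lay P hn (hL k))

/-- the correlated chain -/
noncomputable def Cor (x : κ → A → N) (θ : Ω → A → ℂ) (c : List κ) : EE N :=
  av fun ω => Oc (prd x (θ ω) c)

lemma Cor_apply (c : List κ) (T : N →ₗ[ℂ] N) (a : N) :
    Cor x θ c T a = av fun ω => star (prd x (θ ω) c) * T (prd x (θ ω) c * a) := by
  simp [Cor, av, LinearMap.sum_apply]

variable {ty : κ → Bool} {η : ℝ}

lemma sum_kill (θ : A → ℂ) (σ : A) (k : κ) :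
    ∑ a, θ a • kill σ x k a + θ σ • x k σ = ∑ a, θ a • x k a := by
  rw [← sum_erase_add _ _ (mem_univ σ), ← sum_erase_add _ _ (mem_univ σ)]
  simp only [kill, if_true, smul_zero, add_zero]
  congr 1
  exact sum_congr rfl fun a ha => by rw [if_neg (ne_of_mem_erase ha)]

lemma step_bound (hτ : IsTr τ) (hL : ∀ k, Lay (x k)) (P : Phase θ n) (hη : 0 ≤ η)
    (hty : ∀ k k' σ, ty k' ≠ ty k → x k σ = 0 ∨ x k' σ = 0) {k k1 k2 : κ} {c : List κ}
    (hc : (k :: c ++ [k1, k2]).IsChain (Rel x ty η)) (hn : c.length + 1 < n)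
    {T : N →ₗ[ℂ] N} (hT : Bd1 T) (σ : A) :
    ∑ i, 𝔼 ω, ‖L2 τ (star (x k σ) * T ((∑ a, θ ω a • kill σ x k a) *
      (prd x (θ ω) c - prd (kill σ x) (θ ω) c) * pth x [k1, k2] i))‖ ^ 2
      ≤ (n : ℝ) ^ n * (4 * n * η) * ‖L2 τ (x k σ)‖ ^ 2 := by
  by_cases h0 : x k σ = 0
  · simp [h0]
  let J : N →ₗ[ℂ] τ.PreGNS := L2 τ ∘ₗ LinearMap.mulLeft ℂ (star (x k σ)) ∘ₗ T
  have hJ : ∀ a, ‖J a‖ ≤ ‖L2 τ (x k σ)‖ * ‖a‖ := fun a => by
    refine (hτ.L2_mul_right _ _).trans ?_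
    rw [hτ.L2_star, mul_comm]
    gcongr
    exact hT a
  let m : (Fin [k1, k2].length → A) × (Fin (c.length + 1) → A) → N := fun q =>
    kill σ x k (q.2 0) * dif σ x c (Fin.tail q.2) * pth x [k1, k2] q.1
  have e1 : ∀ i ω, L2 τ (star (x k σ) * T ((∑ a, θ ω a • kill σ x k a) *
      (prd x (θ ω) c - prd (kill σ x) (θ ω) c) * pth x [k1, k2] i))
      = ∑ y, chi (fun s => θ ω s * 1) y • J (m (i, y)) := fun i ω => by
    change J _ = _
    simp only [← map_smul, ← map_sum, mul_one]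
    congr 1
    simp only [prd_eq, ← sum_sub_distrib, ← smul_sub, sum_mul_sum]
    simp only [sum_mul, sum_paths, chi_cons, mul_smul, mul_smul_comm, smul_mul_assoc, m,
      Fin.cons_zero, Fin.tail_cons, dif]
    exact sum_congr rfl fun _ _ => sum_congr rfl fun _ _ => smul_comm _ _ _
  simp only [e1]
  refine (sum_le_sum fun i _ => paths_upper P hn _ _ (by simp)).trans ?_
  rw [← mul_sum, mul_assoc, ← Fintype.sum_prod_type (f := fun q => ‖J (m q)‖ ^ 2)]
  refine mul_le_mul (pow_self_le hn) ((gro J (norm_nonneg _) hJ m).trans ?_) (by positivity)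
    (by positivity)
  have hcn : (c.length : ℝ) * η ≤ n * η := by gcongr; omega
  have b1 : ‖∑ q, star (m q) * m q‖ ≤ c.length * η := by
    refine norm_le_of_le (by positivity) (sum_nonneg fun _ _ => star_mul_self_nonneg _) ?_
    refine le_trans (le_of_eq ?_) (right_small hL σ c hc.tail (Ph_nonneg (kill σ x k) zero_le_one)
      ((Ph_kill_le σ k zero_le_one).trans_eq (hL k).r))
    simp only [Fintype.sum_prod_type, sum_paths, m, Fin.cons_zero, Fin.tail_cons, Ph, mul_sum,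
      sum_mul, star_mul, mul_assoc, one_mul]
    exact sum_congr rfl fun i _ => sum_comm
  have b2 : ‖∑ q, m q * star (m q)‖ ≤ c.length * η := by
    refine norm_le_of_le (by positivity) (sum_nonneg fun _ _ => mul_star_self_nonneg _) ?_
    have hc' : (k :: c).IsChain (Rel x ty η) := hc.left_of_append
    refine le_trans (le_of_eq ?_) ((Ps_kill_le σ k (Ps_nonneg _ zero_le_one)).trans
      (left_small hL hη (b := ty k) (fun k' h => (hty k k' σ h).resolve_left h0) c hc'.tail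
        (fun k' hk => (hc'.rel_head? hk).ne.symm) k))
    conv_rhs => rw [← Ps_pth_one hL [k1, k2]]
    rw [Fintype.sum_prod_type_right]
    simp only [sum_paths (r := c.length), m, Fin.cons_zero, Fin.tail_cons, Ps, mul_sum,
      sum_mul, star_mul, mul_assoc, one_mul]
  nlinarith [mul_le_mul_of_nonneg_left (add_le_add (b1.trans hcn) (b2.trans hcn))
    (sq_nonneg ‖L2 τ (x k σ)‖)]

theorem step (hτ : IsTr τ) (hL : ∀ k, Lay (x k)) (P : Phase θ n) (hη : 0 ≤ η)
    (hty : ∀ k k' σ, ty k' ≠ ty k → x k σ = 0 ∨ x k' σ = 0) {k k1 k2 : κ} {c : List κ}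
    (hc : (k :: c ++ [k1, k2]).IsChain (Rel x ty η)) (hn : c.length + 1 < n) {γ : ℝ} (hγ : 0 < γ)
    (hγη : (n : ℝ) ^ n * (4 * n * η) ≤ γ ^ 2) :
    Near τ γ (Ind x [k1, k2] * Cor x θ (k :: c))
      (Ind x [k1, k2] * Cor x θ c * ∑ a, Oc (x k a)) := by
  intro T hT
  set p := pth x [k1, k2] with hp
  let U := fun ω => prd x (θ ω) c
  let U' := fun σ ω => prd (kill σ x) (θ ω) c
  let Θ := fun σ ω => ∑ a, θ ω a • kill σ x k a
  let J : A → N →ₗ[ℂ] τ.PreGNS := fun σ => L2 τ ∘ₗ LinearMap.mulLeft ℂ (star (x k σ)) ∘ₗ T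
  let a := fun i σ ω => L2 τ (θ ω σ • (star (x k σ) * x k σ * U ω * p i))
  have hθ : ∀ ω s, θ ω s * conj (θ ω s) = 1 := fun ω s => by rw [Complex.mul_conj', P.norm]; simp
  have hπ : ∀ σ y, star (x k σ) * (x k σ * (star (x k σ) * y)) = star (x k σ) * y := fun σ y => by
    have := ((hL k).pi σ).adj
    rw [PI, star_star] at this
    rw [← mul_assoc, ← mul_assoc, this]
  have e1 : τ ((Ind x [k1, k2] * Cor x θ (k :: c)) T 1) -
      τ ((Ind x [k1, k2] * Cor x θ c * ∑ a, Oc (x k a)) T 1) =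
      ∑ i, ∑ σ, 𝔼 ω, ⟪a i σ ω, J σ (Θ σ ω * U ω * p i)⟫_ℂ := by
    simp only [Module.End.mul_apply, Ind_apply, Cor_apply, mul_one, map_sum τ, ← sum_sub_distrib,
      ← av_eq, ← av_sum]
    rw [av_sum]
    refine sum_congr rfl fun i _ => ?_
    rw [← LinearMap.mulLeft_apply ℂ, ← LinearMap.mulLeft_apply ℂ (star _) (av _), map_av, map_av,
      map_av, map_av, ← av_sub]
    congr 1
    ext ω
    simp only [LinearMap.mulLeft_apply, LinearMap.sum_apply, Oc_apply, prd_cons, star_mul]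
    rw [star_sum, mul_sum, sum_mul, mul_sum, map_sum τ, mul_sum, mul_sum, map_sum τ,
      ← sum_sub_distrib]
    refine sum_congr rfl fun σ _ => ?_
    change _ = ⟪L2 τ _, L2 τ (star (x k σ) * T (Θ σ ω * U ω * p i))⟫_ℂ
    rw [inner_L2, ← sum_kill (θ ω) σ k]
    simp only [U, Θ, hp, add_mul, map_add, mul_add, star_smul, smul_mul_assoc, mul_smul_comm, map_smul,
      smul_smul, RCLike.star_def, hθ, one_smul, mul_assoc, add_sub_cancel_right,
      star_mul, star_star, hπ]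
  have e2 : ∀ i σ, 𝔼 ω, ⟪a i σ ω, J σ (Θ σ ω * U' σ ω * p i)⟫_ℂ = 0 := fun i σ => by
    have := paths_cross P hn (fun y => L2 τ ((if y 0 = σ then star (x k σ) * x k σ else 0) *
      pth x c (Fin.tail y) * p i)) (fun y => J σ (pth (kill σ x) (k :: c) y * p i))
      (fun y z hyz => by
        by_cases hy : y 0 = σ
        · rw [pth_kill σ (k :: c) z ((mult_ne_zero z σ).1 (hyz ▸ (mult_ne_zero y σ).2 ⟨0, hy⟩))]
          simp
        · simp [hy])
    rw [← this]
    refine expect_congr rfl fun ω _ => ?_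
    congr 1
    · simp only [a, U, prd_eq, sum_paths (r := c.length), chi_cons, Fin.cons_zero, Fin.tail_cons]
      rw [sum_eq_single σ (fun b _ hb => by simp [hb]) (by simp)]
      simp only [if_true, mul_sum, sum_mul, smul_sum, map_sum, map_smul, mul_smul_comm,
        smul_mul_assoc, mul_smul]
    · simp only [Θ, U']
      rw [← prd_cons, prd_eq]
      simp only [sum_mul, map_sum, smul_mul_assoc, map_smul]
      rfl
  have e3 : ∀ i σ, 𝔼 ω, ⟪a i σ ω, J σ (Θ σ ω * U ω * p i)⟫_ℂ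
      = 𝔼 ω, ⟪a i σ ω, J σ (Θ σ ω * (U ω - U' σ ω) * p i)⟫_ℂ := fun i σ => by
    simp only [mul_sub, sub_mul, map_sub, inner_sub_right, expect_sub_distrib, e2, sub_zero]
  have e4 : ∀ ω, ∑ i, ∑ σ, ‖a i σ ω‖ ^ 2 = 1 := fun ω => by
    have h1 : ∀ i σ, ‖a i σ ω‖ ^ 2 = tr τ (star (p i) * (star (U ω) *
        (star (x k σ) * 1 * x k σ) * U ω) * p i) := fun i σ => by
      simp only [a, map_smul, norm_smul, P.norm, one_mul, L2_sq, star_mul, star_star, mul_one]
      conv_rhs => rw [← ((hL k).pi σ).src.isIdempotentElem.eq]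
      simp only [mul_assoc]
    have h2 := (hL k).r
    have h3 := Ph_pth_one hL [k1, k2]
    rw [Ph] at h2 h3
    simp only [h1, ← map_sum, ← sum_mul, ← mul_sum, h2]
    simp only [mul_one, (prd_unit hL (P.norm ω) c).1, U] at h3 ⊢
    rw [h3, hτ.tr_one]
  have e5 : ∑ σ, ‖L2 τ (x k σ)‖ ^ 2 = 1 := by
    have h2 := (hL k).r
    simp only [Ph, mul_one] at h2
    simp only [L2_sq, ← map_sum, h2, hτ.tr_one]
  have e6 : ∑ i, ∑ σ, 𝔼 ω, ‖J σ (Θ σ ω * (U ω - U' σ ω) * p i)‖ ^ 2 ≤ γ ^ 2 := by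
    rw [sum_comm]
    refine (sum_le_sum fun σ _ => step_bound hτ hL P hη hty hc hn hT σ).trans ?_
    rw [← mul_sum, e5, mul_one]
    exact hγη
  rw [e1]
  simp only [e3]
  calc _ ≤ ∑ i, ∑ σ, 𝔼 ω, (γ / 2 * ‖a i σ ω‖ ^ 2 +
        ‖J σ (Θ σ ω * (U ω - U' σ ω) * p i)‖ ^ 2 / (2 * γ)) :=
        (norm_sum_le _ _).trans (sum_le_sum fun i _ => (norm_sum_le _ _).trans
          (sum_le_sum fun σ _ => (RCLike.norm_expect_le (K := ℂ)).trans (expect_le_expect
            fun ω _ => (norm_inner_le_norm _ _).trans (mul_le_amgm _ _ hγ))))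
    _ = γ / 2 * 𝔼 ω, ∑ i, ∑ σ, ‖a i σ ω‖ ^ 2 +
        (∑ i, ∑ σ, 𝔼 ω, ‖J σ (Θ σ ω * (U ω - U' σ ω) * p i)‖ ^ 2) / (2 * γ) := by
        simp only [expect_add_distrib, ← mul_expect, ← expect_div, sum_add_distrib, ← mul_sum,
          ← sum_div, expect_sum_comm]
    _ ≤ γ / 2 * 1 + γ ^ 2 / (2 * γ) := by
        simp only [e4, Fintype.expect_const]
        gcongr
    _ = γ := by field_simp; ring

theorem decor (hτ : IsTr τ) (hL : ∀ k, Lay (x k)) (P : Phase θ n) (hη : 0 ≤ η)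
    (hty : ∀ k k' σ, ty k' ≠ ty k → x k σ = 0 ∨ x k' σ = 0) {k1 k2 : κ} {γ : ℝ} (hγ : 0 < γ)
    (hγη : (n : ℝ) ^ n * (4 * n * η) ≤ γ ^ 2) (c : List κ)
    (hc : (c ++ [k1, k2]).IsChain (Rel x ty η)) (hn : c.length < n) :
    Near τ (c.length * γ) (Ind x [k1, k2] * Cor x θ c) (Ind x (c ++ [k1, k2])) := by
  induction c with
  | nil => simpa [Cor, prd, Oc_one, av_const] using Near.refl _
  | cons k c ih =>
    have hn' : c.length + 1 < n := hn
    refine ((step hτ hL P hη hty hc hn' hγ hγη).trans ((ih hc.tail (by omega)).mul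
      (Mix.lay P (by omega) (hL k)))).mono (le_of_eq ?_)
    rw [List.length_cons]; push_cast; ring

end Vale.Agent.P082
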