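import Vale.Agent.P082.Blk

/-! Approximate diagonals for continuous finite algebras. -/

open scoped InnerProductSpace ComplexConjugate BigOperators ComplexOrder
open Finset

set_option linter.unusedSectionVars false

namespace Vale.Agent.P082

open Vale.Agent.P104

variable {N : Type*} [CStarAlgebra N] [PartialOrder N] [StarOrderedRing N]
variable {S : Type} [Fintype S] [DecidableEq S] [Nonempty S] {q : N} {g : S → N}
variable {η : ℝ} {H : unitary N} {τ : N →ₚ[ℂ] ℂ}

lemma Near.av {Ω : Type} [Fintype Ω] [Nonempty Ω] {ε : ℝ} {π σ : Ω → EE N}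
    (h : ∀ i, Near τ ε (π i) (σ i)) : Near τ ε (av π) (av σ) := by
  have := Near.sum (w := fun _ : Ω => (Fintype.card Ω : ℝ)⁻¹) (fun _ => by positivity) (by simp) h
  simpa [P082.av, smul_sum] using this

lemma sum_mul_av {Ω ι : Type*} [Fintype Ω] [Fintype ι] (w : ι → ℂ) (μ : ι → EE N)
    (f : ι → Ω → EE N) :
    ∑ i, w i • (μ i * av (f i)) = av fun ω => ∑ i, w i • (μ i * f i ω) := by
  simp only [av_sum]
  simp only [av, mul_smul_comm, mul_sum, smul_sum, smul_smul, mul_comm]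

section
variable {ι : Type} [Fintype ι] {w : ι → ℝ} {m : ι → ℕ} {ε : ℝ}

lemma rev_near (hτ : IsTr τ) (hε : 0 ≤ ε) (hw : ∀ i, 0 ≤ w i)
    (h : ∀ z : ℂ, ‖z‖ = 1 → ‖∑ i, (w i : ℂ) * (z ^ m i - conj z ^ m i)‖ ≤ ε) {μ : EE N}
    (hμ : Mix μ) {V Y : N} (hV : V ∈ unitary N) (hY : Y ∈ unitary N) :
    Near τ ε (∑ i, (w i : ℂ) • (μ * Oc (V * Y ^ m i)))
      (∑ i, (w i : ℂ) • (μ * Oc (V * star (Y ^ m i)))) := by
  obtain ⟨κ, _, w', u, a1, a2, a3, rfl⟩ := hμ
  simp only [sum_mul, smul_mul_assoc, smul_sum, ← Oc_mul]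
  rw [sum_comm, sum_comm (s := univ (α := ι))]
  simp only [smul_comm (w _ : ℂ), ← smul_sum]
  refine Near.sum a1 a2 fun j T hT => ?_
  have b1 := norm_unit_le hV.1
  have b2 := norm_unit_le (a3 j).1
  have := reversal hτ hε hw h hY (LinearMap.mulLeft ℂ (star V) ∘ₗ
    LinearMap.mulRight ℂ (star (u j)) ∘ₗ T ∘ₗ LinearMap.mulLeft ℂ V ∘ₗ LinearMap.mulRight ℂ (u j))
    zero_le_one fun y => by
      rw [one_mul]
      exact (norm_mul_le_right (by rwa [norm_star])).trans ((norm_mul_le_left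
        (by rwa [norm_star])).trans ((hT _).trans ((norm_mul_le_right b1).trans
          (norm_mul_le_left b2))))
  rw [mul_one] at this
  refine le_trans (le_of_eq ?_) this
  simp only [LinearMap.sum_apply, LinearMap.smul_apply, map_sum, map_smul, ← sum_sub_distrib,
    Oc_apply, smul_eq_mul, ← mul_sub, LinearMap.comp_apply, LinearMap.mulLeft_apply,
    LinearMap.mulRight_apply, mul_one, star_mul, star_star, mul_assoc, hτ.comm (star (u j))]

/-- repetition of a list -/
def rep {α : Type*} (l : List α) : ℕ → List α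
  | 0 => []
  | k + 1 => rep l k ++ l

lemma vch_rep (D : N) (l : List (unitary N)) (k : ℕ) : vch D (rep l k) = vch D l ^ k := by
  induction k with
  | zero => simp [rep, vch]
  | succ k ih => rw [rep, vch_append, ih, pow_succ]

lemma length_rep {α : Type*} (l : List α) (k : ℕ) : (rep l k).length = k * l.length := by
  induction k with
  | zero => simp [rep]
  | succ k ih => rw [rep, List.length_append, ih]; ring

lemma mem_rep {α : Type*} {l : List α} {a : α} {k : ℕ} (h : a ∈ rep l k) : a ∈ l := by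
  induction k with
  | zero => simp [rep] at h
  | succ k ih => exact (List.mem_append.1 h).elim ih id

lemma vch_unit {D : N} (hD : D ∈ unitary N) (l : List (unitary N)) : vch D l ∈ unitary N := by
  induction l with
  | nil => exact one_mem _
  | cons w l ih => rw [vch_cons]; exact mul_mem (mul_mem w.2 hD) ih

lemma star_vch (D : N) (w : unitary N) (l : List (unitary N)) :
    star (vch D (w :: l)) = vch (star D) (1 :: (l.map star).reverse) * (star w : unitary N) := by
  induction l generalizing w with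
  | nil => simp [vch]
  | cons a l ih =>
    rw [vch_cons, star_mul, ih, List.map_cons, List.reverse_cons, ← List.cons_append, vch_append]
    simp [vch, mul_assoc]

lemma star_DD (F : Frame0 q g) (b : Bool) (θ : Bool × S → ℂ) :
    star (DD g b H θ) = DD g (!b) (star H) fun σ => conj (θ σ) := by
  simp [DD, (part_QQ F).star_Dq, mul_assoc]

variable {Ω : Type} [Fintype Ω] [Nonempty Ω] {θ : Ω → Bool × S → ℂ} {n : ℕ}

lemma absorb (hτ : IsTr τ) (F : Frame0 q g) (hη : 0 ≤ η) (h1 : Fl g η 1)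
    (P : Phase θ n) {γ : ℝ} (hγ : 0 < γ) (hγη : (n : ℝ) ^ n * (4 * n * η) ≤ γ ^ 2) (hε : 0 ≤ ε)
    (hw : ∀ i, 0 ≤ w i) (hw1 : ∑ i, w i = 1)
    (h : ∀ z : ℂ, ‖z‖ = 1 → ‖∑ i, (w i : ℂ) * (z ^ (m i + 1) - conj z ^ (m i + 1))‖ ≤ ε)
    {l1 l2 : List (unitary N)} (h2 : l2 ≠ []) (hl : ∀ w ∈ l2 ++ l1, Fl g η w)
    (hn : ∀ i, 2 * ((m i + 2) * (l2 ++ l1).length) < n) :
    Near τ (2 * (2 * (n * γ) + ε))
      ((∑ i, (w i : ℂ) • IM g (rep (l2 ++ l1) (m i + 1) ++ [1])) * IM g l1 * eOp g)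
      ((∑ i, (w i : ℂ) • IM g (rep (l2 ++ l1) (m i + 1) ++ [1])) * IM g l1) := by
  obtain ⟨H, hH⟩ := exists_had F
  have hD : ∀ ω, DD g true H (θ ω) ∈ unitary N := fun ω => mul_mem (mul_mem
    (Dq_unit (part_QQ F) fun _ => P.norm _ _) H.2) (Dq_unit (part_QQ F) fun _ => P.norm _ _)
  have hne : ∀ i, ∃ a l, rep (l2 ++ l1) (m i) ++ l2 = a :: l := fun i =>
    List.exists_cons_of_ne_nil (by simp [h2])
  choose a l hal using hne
  have hmem : ∀ i, ∀ x ∈ a i :: l i, Fl g η x := fun i x hx => by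
    rw [← hal, List.mem_append] at hx
    exact hl x (hx.elim mem_rep (List.mem_append_left _))
  have s1 := Near.sum hw hw1 fun i => (decor_blk hτ F hη hH h1 P hγ hγη true
    (l1 ++ rep (l2 ++ l1) (m i + 1)) (fun x hx => hl x ((List.mem_append.1 hx).elim
      (List.mem_append_right _) mem_rep)) h1 (by
        have := hn i
        simp only [List.length_append, length_rep] at this ⊢
        nlinarith)).symm
  have s3 := Near.sum hw hw1 fun i => decor_blk hτ F hη hH.star h1 P.cnj hγ hγη false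
    (1 :: ((l i).map star).reverse) (by
      simp only [List.mem_cons, List.mem_reverse, List.mem_map]
      rintro _ (rfl | ⟨x, hx, rfl⟩)
      exacts [h1, (hmem i x (List.mem_cons_of_mem _ hx)).star])
      (hmem i _ List.mem_cons_self).star (by
        have := hn i
        have h3 := congrArg List.length (hal i)
        simp only [List.length_append, length_rep, List.length_cons, List.length_reverse,
          List.length_map] at this h3 ⊢
        nlinarith)
  have s2 := Near.av (Ω := Ω) fun ω => rev_near hτ hε hw h (Mix.eOp F) (vch_unit (hD ω) l1)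
    (vch_unit (hD ω) (l2 ++ l1))
  have e1 : ∀ i ω, vch (DD g true H (θ ω)) l1 * star (vch (DD g true H (θ ω)) (l2 ++ l1) ^ (m i + 1))
      = vch (DD g false (star H) fun σ => conj (θ ω σ)) (1 :: ((l i).map star).reverse) *
        (star (a i) : unitary N) := fun i ω => by
    have := star_vch (DD g true H (θ ω)) (a i) (l i)
    rw [star_DD F, ← hal, vch_append, vch_rep] at this
    rw [pow_succ, star_mul, vch_append (l := l2) (l' := l1), star_mul, ← mul_assoc, ← mul_assoc,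
      (vch_unit (hD ω) l1).2, one_mul, ← star_mul, ← vch_append, this]
    rfl
  simp only [e1, Oc_mul _ (star (a _) : unitary N).1, ← mul_assoc] at s2
  simp only [← vch_rep, ← vch_append] at s2
  rw [← sum_mul_av, ← sum_mul_av] at s2
  simp only [OneMemClass.coe_one, Oc_one, mul_one, List.append_assoc, IM_append l1,
    ← smul_mul_assoc, ← sum_mul] at s1
  simp only [smul_mul_assoc] at s1
  have s5 := (s1.trans s2).trans s3
  have s6 := s5.mul (Mix.eOp F)
  have e2 : (∑ i, (w i : ℂ) • IM g (1 :: ((l i).map star).reverse ++ [star (a i)])) * eOp g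
      = ∑ i, (w i : ℂ) • IM g (1 :: ((l i).map star).reverse ++ [star (a i)]) := by
    simp only [List.cons_append, IM, OneMemClass.coe_one, Oc_one, mul_one, sum_mul,
      smul_mul_assoc, mul_assoc, eOp_eOp F]
  rw [e2] at s6
  exact (s6.trans s5.symm).mono (le_of_eq (by ring))

lemma absorb_all (F : Frame0 q g) {π : EE N} {δ : ℝ} (hδ : 0 ≤ δ) {ws : List (unitary N)}
    (h : ∀ l1 l2, l2 ≠ [] → l2 ++ l1 = ws → Near τ δ (π * IM g l1 * eOp g) (π * IM g l1))
    {l1 l2 : List (unitary N)} (h2 : l2 ≠ []) (hl : l2 ++ l1 = ws) :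
    Near τ ((2 * ws.length + 1) * δ) (π * Oc (l1.prod : unitary N).1 * eOp g)
      (π * Oc (l1.prod : unitary N).1) := by
  have key : ∀ l1 l2, l2 ++ l1 = ws →
      Near τ (l1.length * δ) (π * IM g l1) (π * Oc (l1.prod : unitary N).1) := fun l1 => by
    induction l1 with
    | nil => intro _ _; simpa [IM, Oc_one] using Near.refl _
    | cons a l1 ih =>
      intro l2 hl
      have h3 : l2 ++ [a] ++ l1 = ws := by simpa using hl
      have := ((h l1 _ (by simp) h3).trans (ih _ h3)).mul (Mix.oc a.2)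
      simp only [IM, List.prod_cons, Submonoid.coe_mul, Oc_mul, ← mul_assoc, List.length_cons]
      exact this.mono (le_of_eq (by push_cast; ring))
  have a1 := key l1 l2 hl
  refine (((a1.symm.mul (Mix.eOp F)).trans (h l1 l2 h2 hl)).trans a1).mono ?_
  have : (l1.length : ℝ) ≤ ws.length := by rw [← hl]; simp
  nlinarith

end

lemma exists_list {G : Type*} [Group G] (Vs : List G) :
    ∃ ws : List G, ∀ V ∈ Vs, ∃ l1 l2, l2 ≠ [] ∧ l2 ++ l1 = ws ∧ l1.prod = V := by
  induction Vs with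
  | nil => exact ⟨[], by simp⟩
  | cons V Vs ih =>
    obtain ⟨ws, h⟩ := ih
    refine ⟨1 :: (V * ws.prod⁻¹) :: ws, fun x hx => ?_⟩
    rcases List.mem_cons.1 hx with rfl | hx
    · exact ⟨(x * ws.prod⁻¹) :: ws, [1], by simp, rfl, by simp⟩
    · obtain ⟨l1, l2, -, h2, h3⟩ := h x hx
      exact ⟨l1, 1 :: (V * ws.prod⁻¹) :: l2, by simp, by simp [h2], h3⟩

variable {d : Type} [Fintype d] [DecidableEq d] {e : N} {v : d → N}

lemma exists_flat_family (V : VNP N) (T : IsTr τ) (H : Half N) (F : Frame e v) {ι : Type*}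
    [Fintype ι] (Z : ι → unitary N) (hη : 0 < η) :
    ∃ U : UF v, ∀ i t, ‖U.E (star (Z i : N) * U.Q t * Z i)‖ ≤ η := by
  classical
  obtain ⟨m, hm⟩ := exists_nat_gt (3 * (Fintype.card d : ℝ) ^ 3 / η)
  obtain ⟨U0, hU0⟩ := UF.exists_large H F m
  have hd := F.card_pos
  have hn0 := U0.card_pos
  have hX : ∀ i, ∀ q : N, IsStarProjection q → 0 ≤ star (Z i : N) * q * Z i := fun i q hq =>
    star_left_conjugate_nonneg hq.nonneg _
  have htr : ∀ i, ∀ q c : N, Cen c → tr τ (star (Z i : N) * q * Z i * c) = tr τ (q * c) :=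
    fun i q c hc => by
      rw [mul_assoc, mul_assoc, T.tr_comm, ← (hc.2 _).eq, mul_assoc, mul_assoc, (Z i).2.2, mul_one]
  obtain ⟨U, hU, hy⟩ := UF.steps_all V T H F univ
    (y := fun t : ι × U0.S => dgm v (∑ a, star (v a) * (star (Z t.1 : N) * U0.Q t.2 * Z t.1) * v a))
    (fun t => sum_nonneg fun b _ => star_right_conjugate_nonneg (sum_nonneg fun a _ =>
      star_left_conjugate_nonneg (hX _ _ (U0.orth.proj t.2)) _) _)
    (fun t => F.dgm_mem _) (div_pos hd hn0) (fun t c hc => by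
      rw [T.tr_dgm F _ hc, htr _ _ _ hc, UF.Q, ← T.tr_src _ hc, U0.fr.self, U0.tr_q T hc]
      exact le_of_eq (by ring)) U0
  refine ⟨U, fun i t => ?_⟩
  obtain ⟨t0, ht0⟩ := hU.le t
  refine (CStarAlgebra.norm_le_norm_of_nonneg_of_le (U.E_nonneg (hX _ _ (U.orth.proj t)))
    (U.E_mono (star_left_conjugate_le_conjugate ht0 _))).trans ?_
  refine (norm_le_diag F (U.E_nonneg (hX _ _ (U0.orth.proj t0)))).trans ?_
  rw [← U.E_dgm]
  refine (mul_le_mul_of_nonneg_left (hy (i, t0) (mem_univ _)) (sq_nonneg _)).trans ?_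
  rw [div_lt_iff₀ hη] at hm
  have : (m : ℝ) ≤ Fintype.card U0.S := by exact_mod_cast hU0
  rw [mul_div_assoc', mul_div_assoc', div_le_iff₀ hn0]
  nlinarith

lemma exists_flat_frame (V : VNP N) (T : IsTr τ) (H : Half N) (F : Frame e v)
    (ws : List (unitary N)) (hη : 0 < η) :
    ∃ (S : Type) (_ : Fintype S) (_ : DecidableEq S) (_ : Nonempty S) (q : N) (g : S → N),
      Frame0 q g ∧ Fl g η 1 ∧ (∀ w ∈ ws, Fl g η w) ∧
      ∀ a b, eOp g * Lm (v a * star (v b)) = eOp g * Rm (v a * star (v b)) := by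
  obtain ⟨U, hU⟩ := exists_flat_family V T H F
    (Sum.elim (1 :: ws).get fun i => star ((1 :: ws).get i)) hη
  obtain ⟨a0, -⟩ := F.base
  have : Nonempty d := ⟨a0⟩
  let g : U.S × d → N := fun p => U.u p.1 * v p.2
  have c1 := fun s => mem_Dg.1 (U.mem s)
  have c2 := fun s => mem_Dg.1 (star_mem (U.mem s))
  have e1 : ∀ s a b, g (s, a) * star (g (s, b)) = U.Q s * (v a * star (v b)) := fun s a b => by
    simp only [g, star_mul, UF.Q, mul_assoc]
    rw [← (c2 s b).2.eq, ← mul_assoc (v a), ← (c2 s a).1.eq, mul_assoc]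
  have hF : Frame0 (U.q * e) g := by
    refine ⟨U.fr.proj.mul F.proj (F.comm U.q_mem), fun p p' => ?_, ?_⟩
    · simp only [g, star_mul, mul_assoc, Prod.ext_iff]
      rw [← mul_assoc (star (U.u _)), U.fr.orth]
      by_cases h : p.1 = p'.1
      · rw [if_pos h, ← mul_assoc, ← (mem_Dg.1 U.q_mem _).2.eq, mul_assoc, F.orth]
        simp [h]
      · simp [h]
    · simp only [Fintype.sum_prod_type, e1, ← mul_sum, F.sum, mul_one, UF.Q, U.fr.sum]
  have hFm : ∀ i p, Fm g (star (Sum.elim (1 :: ws).get (fun i => star ((1 :: ws).get i)) i :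
      unitary N).1 * QQ g p * (Sum.elim (1 :: ws).get (fun i => star ((1 :: ws).get i)) i :
      unitary N).1) ≤ η • 1 := fun i p => by
    set Z := (Sum.elim (1 :: ws).get (fun i => star ((1 :: ws).get i)) i : unitary N)
    have b1 : QQ g p ≤ U.Q p.1 := by
      have := star_right_conjugate_le_conjugate (F.pi p.2).rng.le_one (U.u p.1)
      simpa only [QQ, g, star_mul, mul_assoc, one_mul, UF.Q] using this
    have b2 : U.E (star (Z : N) * QQ g p * Z) ≤ η • 1 := by
      refine (U.E_mono (star_left_conjugate_le_conjugate b1 _)).trans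
        ((U.E_nonneg (star_left_conjugate_nonneg (U.orth.proj _).nonneg _)).isSelfAdjoint
          |>.le_algebraMap_norm_self.trans ?_)
      rw [Algebra.algebraMap_eq_smul_one]
      exact smul_le_smul_of_nonneg_right (hU i p.1) zero_le_one
    have b3 : (Fintype.card (U.S × d) : ℝ)⁻¹ • Ph g (star (Z : N) * QQ g p * Z)
        = (Fintype.card d : ℝ)⁻¹ • Ph v (U.E (star (Z : N) * QQ g p * Z)) := by
      simp only [Ph, UF.E, Fintype.sum_prod_type_right, g, star_mul, mul_smul_comm,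
        smul_mul_assoc, ← smul_sum, smul_smul, mul_sum, sum_mul, mul_assoc, Fintype.card_prod,
        Nat.cast_mul, mul_inv_rev]
    have b4 : (Fintype.card d : ℝ)⁻¹ • Ph v (η • 1) ≤ η • (1 : N) := by
      rw [Ph_smul, smul_comm]
      refine smul_le_smul_of_nonneg_left ?_ hη.le
      simp only [Ph, mul_one, F.self, sum_const, card_univ, ← Nat.cast_smul_eq_nsmul ℝ,
        inv_smul_smul₀ F.card_pos.ne']
      exact F.proj.le_one
    rw [Fm, b3]
    refine (Ps_mono _ ((smul_le_smul_of_nonneg_left (Ph_mono _ b2) (by positivity)).trans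
      b4)).trans_eq ?_
    simp only [Ps_smul]
    simp only [Ps, mul_one, hF.sum]
  have hfl : ∀ w ∈ 1 :: ws, Fl g η w := fun w hw p => by
    obtain ⟨i, rfl⟩ := List.get_of_mem hw
    exact ⟨by simpa using hFm (.inr i) p, hFm (.inl i) p⟩
  refine ⟨U.S × d, inferInstance, inferInstance, inferInstance, _, g, hF,
    hfl 1 List.mem_cons_self, fun w hw => hfl w (List.mem_cons_of_mem _ hw), fun a b => ?_⟩
  have : v a * star (v b) = ∑ s, g (s, a) * star (g (s, b)) := by
    simp only [e1, ← sum_mul, UF.Q, U.fr.sum, one_mul]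
  simp only [this, map_sum, mul_sum, eOp_unit hF]

lemma near_comm {π μ : EE N} {W : unitary N} {δ : ℝ} (key : Near τ δ (π * Oc W.1 * μ) (π * Oc W.1))
    {x : N} (hx : ‖x‖ ≤ 1) (hv : μ * Lm x = μ * Rm x) {T : N →ₗ[ℂ] N} (hT : Bd1 T) :
    ‖τ (π (Lm (star (W : N) * x * W) T) 1) - τ (π (Rm (star (W : N) * x * W) T) 1)‖ ≤ δ + δ := by
  have hT' := (Mix.oc (star W).2).con hT
  have k1 := key (Lm x (Oc (star W).1 T)) fun y => (norm_mul_le_right hx).trans (hT' y)
  have k2 := key (Rm x (Oc (star W).1 T)) fun y => (hT' _).trans (norm_mul_le_right hx)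
  have e1 : Oc W.1 (Lm x (Oc (star W).1 T)) = Lm (star (W : N) * x * W) T := by
    ext y; simp [← mul_assoc, W.2.1]
  have e2 : Oc W.1 (Rm x (Oc (star W).1 T)) = Rm (star (W : N) * x * W) T := by
    ext y; simp [← mul_assoc, W.2.1]
  have e3 : μ (Lm x (Oc (star W).1 T)) = μ (Rm x (Oc (star W).1 T)) := congr($hv _)
  simp only [Module.End.mul_apply, e1, e2, e3] at k1 k2
  rw [norm_sub_rev] at k1
  exact (norm_sub_le_norm_sub_add_norm_sub _ _ _).trans (add_le_add k1 k2)

theorem diag (V : VNP N) (hτ : IsTr τ) (H : Half N) (F : Frame e v) (Vs : List (unitary N))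
    {ε : ℝ} (hε : 0 < ε) : ∃ π, Mix π ∧ ∀ W ∈ Vs, ∀ a b T, Bd1 T →
      ‖τ (π (Lm (star (W : N) * (v a * star (v b)) * W) T) 1)
        - τ (π (Rm (star (W : N) * (v a * star (v b)) * W) T) 1)‖ ≤ ε := by
  obtain ⟨ws, hws⟩ := exists_list Vs
  obtain ⟨δ, hδ0, hδ⟩ : ∃ δ : ℝ, 0 < δ ∧
      (2 * ws.length + 1) * δ + (2 * ws.length + 1) * δ = ε :=
    ⟨ε / (2 * (2 * ws.length + 1)), by positivity, by field_simp; ring⟩
  obtain ⟨ι, _, w, m, hw, hw1, hz⟩ := exists_weights (show 0 < δ / 4 by positivity)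
  obtain ⟨n, hn0, hn⟩ : ∃ n : ℕ, 0 < n ∧ ∀ i, 2 * ((m i + 2) * ws.length) < n :=
    ⟨2 * ((∑ i, m i + 2) * ws.length) + 1, Nat.succ_pos _, fun i => by
      have := single_le_sum (f := m) (fun _ _ => Nat.zero_le _) (mem_univ i)
      rw [Nat.lt_succ_iff]
      gcongr⟩
  have : NeZero n := ⟨hn0.ne'⟩
  obtain ⟨γ, hγ0, hγ⟩ : ∃ γ : ℝ, 0 < γ ∧ 2 * (2 * (n * γ) + δ / 4) = δ :=
    ⟨δ / (8 * n), by positivity, by field_simp; ring⟩
  obtain ⟨η, hη0, hη⟩ : ∃ η : ℝ, 0 < η ∧ (n : ℝ) ^ n * (4 * n * η) ≤ γ ^ 2 :=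
    ⟨γ ^ 2 / ((n : ℝ) ^ n * (4 * n)), by positivity, le_of_eq (by field_simp)⟩
  obtain ⟨S, _, _, _, q, g, hF, h1, hfl, hv⟩ := exists_flat_frame V hτ H F ws hη0
  refine ⟨∑ i, (w i : ℂ) • IM g (rep ws (m i + 1) ++ [1]), Mix.sum hw hw1 fun i => Mix.im hF _,
    fun W hW a b T hT => ?_⟩
  obtain ⟨l1, l2, h2, hl, rfl⟩ := hws W hW
  refine (near_comm (absorb_all hF hδ0.le (fun l1 l2 h2 hl => ?_) h2 hl)
    (norm_mul_le_one (F.pi a).norm_le (F.pi b).adj.norm_le) (hv a b) hT).trans_eq hδ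
  have := absorb hτ hF hη0.le h1 (phase_zmod (Bool × S) n) hγ0 hη
      (show 0 ≤ δ / 4 by positivity) hw hw1 hz h2 (hl ▸ hfl) (hl ▸ hn)
  rwa [hl, hγ] at this

end Vale.Agent.P082
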