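import Vale.Agent.P082.Loc
import Vale.Agent.P082.Avg

/-! A mean on bounded maps over the finite central summand. -/

open scoped InnerProductSpace ComplexConjugate BigOperators ComplexOrder
open Finset Filter Topology

set_option linter.unusedSectionVars false

namespace Vale.Agent.P082

open Vale.Agent.P104

variable {N : Type*} [CStarAlgebra N] [PartialOrder N] [StarOrderedRing N]
variable {H : Type*} [NormedAddCommGroup H] [InnerProductSpace ℂ H] [CompleteSpace H]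
variable {ρ : N →⋆ₐ[ℂ] (H →L[ℂ] H)} {𝒮 : Set (H →L[ℂ] H)}

lemma ab_frame (W : WS ρ 𝒮) {p : N} (hp : IsStarProjection p) (hA : Ab p)
    (hn : ∃ n, ¬Copies 1 p n) : ∃ (z : N) (n : ℕ) (u : Fin (n + 1) → N), Cen z ∧ p * z ≠ 0 ∧
      (∀ i j, star (u i) * u j = if i = j then p * z else 0) ∧ ∑ i, u i * star (u i) = z := by
  classical
  obtain ⟨n, hn'⟩ : ∃ n, Nat.find hn = n + 1 + 1 := by
    have h1 : Nat.find hn ≠ 0 := fun h => Nat.find_spec hn (h ▸ ⟨Fin.elim0, by simp, by simp⟩)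
    have h2 : Nat.find hn ≠ 1 := fun h => Nat.find_spec hn (h ▸ ⟨fun _ => p, by simp, by
      simp [hp.isSelfAdjoint.star_eq, hp.isIdempotentElem.eq, Subsingleton.elim _ (0 : Fin 1)]⟩)
    exact ⟨Nat.find hn - 2, by omega⟩
  obtain ⟨u, -, a2⟩ : Copies 1 p (n + 1) := not_not.1 (Nat.find_min hn (by omega))
  have a3 : ∀ i, PI (u i) := fun i => PI.of_src (by rw [a2, if_pos rfl]; exact hp)
  have hO : Orth fun i => u i * star (u i) := ⟨fun i => (a3 i).rng, fun i j hij => by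
    rw [mul_assoc, ← mul_assoc (star _), a2, if_neg hij, zero_mul, mul_zero]⟩
  have hr := hO.sum_proj.one_sub
  set r := 1 - ∑ i, u i * star (u i) with hrd
  have a4 : ∀ i, u i * p = u i := fun i => by simpa [a2] using (a3 i).mul_src
  have ru : ∀ i, r * u i = 0 := fun i => by simp [hrd, sub_mul, sum_mul, mul_assoc, a2, a4]
  obtain ⟨z, hz, b1, b2⟩ := W.cenSupp r
  have z1 := hz.one_sub
  refine ⟨1 - z, n, fun i => u i * (1 - z), z1, fun h1 => ?_, fun i j => ?_, ?_⟩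
  · obtain ⟨w, c, hw, hc, c1, c2, c3, c4⟩ := W.vnp.comp r p hr hp
    obtain ⟨c', hc', c5⟩ := ab_cen W.vnp hp hA hw.rng (by rw [mul_assoc, star_mul_eq hp c2])
    have c6 : w * (1 - c') = 0 := by
      rw [← hw, ← c5, mul_assoc, mul_assoc, ← (hc'.one_sub.2 w).eq, ← mul_assoc c',
        hc'.1.mul_one_sub_self, zero_mul, mul_zero]
    have c7 := b2 (p * ((1 - c) * (1 - c'))) fun x => by
      rw [mul_assoc p, ((hc.one_sub.mul hc'.one_sub).2 x).eq, mul_assoc, mul_assoc,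
        ((hc.one_sub.mul hc'.one_sub).2 r).eq, ← mul_assoc r, c3, mul_assoc,
        (hc.one_sub.2 _).eq, mul_assoc, ← mul_assoc w, c6]
      simp
    rw [mul_sub, mul_one, sub_eq_zero] at h1
    rw [mul_assoc, ← (hz.2 _).eq, ← mul_assoc, ← h1, (hc.one_sub.2 _).eq, ← mul_assoc,
      mul_sub p, mul_one, c5, sub_mul, sub_eq_zero] at c7
    have c8 : w * star w = p := by
      rw [← mul_one p, ← add_sub_cancel c 1, mul_add, c4, c7, ← mul_add, add_sub_cancel, mul_one]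
    have d1 : ∀ i, w * u i = 0 := fun i => by rw [← c1, mul_assoc, ru, mul_zero]
    refine Nat.find_spec hn (hn' ▸ ⟨Fin.cons (star w) u, fun _ => one_mul _, fun i j => ?_⟩)
    refine Fin.cases (Fin.cases ?_ (fun j => ?_) j) (fun i => Fin.cases ?_ (fun j => ?_) j) i
    · simp [c8]
    · simp [d1, (Fin.succ_ne_zero j).symm]
    · simpa using congrArg star (d1 i)
    · simp [a2]
  · rw [star_mul, z1.1.isSelfAdjoint.star_eq, mul_assoc, ← mul_assoc (star _), a2,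
      (z1.2 _).eq, mul_assoc, z1.1.isIdempotentElem.eq]
    split_ifs <;> simp
  · simp only [star_mul, z1.1.isSelfAdjoint.star_eq, mul_assoc, ← mul_assoc (1 - z),
      z1.1.isIdempotentElem.eq, (z1.2 _).eq]
    simp only [← mul_assoc, ← sum_mul]
    rw [← sub_sub_cancel 1 (∑ i, _), ← hrd, sub_mul, one_mul, ← (z1.2 r).eq, sub_mul, b1, one_mul,
      sub_self, sub_zero]

/-- bounded maps -/
def BN (S : N →ₗ[ℂ] N) (C : ℝ) : Prop := 0 ≤ C ∧ ∀ x, ‖S x‖ ≤ C * ‖x‖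

/-- averaging along unitaries -/
noncomputable def AU {ι : Type} [Fintype ι] (w : ι → ℝ) (u : ι → N) : (N →ₗ[ℂ] N) → N →ₗ[ℂ] N :=
  Av fun i => (√(w i) : ℂ) • star (u i)

lemma AU_apply {ι : Type} [Fintype ι] {w : ι → ℝ} (hw : ∀ i, 0 ≤ w i) (u : ι → N)
    (S : N →ₗ[ℂ] N) (x : N) : AU w u S x = ∑ i, (w i : ℂ) • (S (x * u i) * star (u i)) := by
  simp only [AU, Av_apply, star_smul, star_star, mul_smul_comm, map_smul, smul_mul_assoc, smul_smul,
    RCLike.star_def, Complex.conj_ofReal, ← Complex.ofReal_mul, Real.mul_self_sqrt (hw _)]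

/-- closed sets invariant under unitary averages -/
def TU (ρ : N →⋆ₐ[ℂ] (H →L[ℂ] H)) : Set (Set (N →ₗ[ℂ] N)) := {X | WCl ρ X ∧
  ∀ (ι : Type) [Fintype ι] (w : ι → ℝ) (u : ι → N), (∀ i, 0 ≤ w i) → ∑ i, w i = 1 →
    (∀ i, u i ∈ unitary N) → ∀ S ∈ X, AU w u S ∈ X}

lemma adm_AU {ι : Type} [Fintype ι] {w : ι → ℝ} {u : ι → N} (h1 : ∀ i, 0 ≤ w i)
    (h2 : ∑ i, w i = 1) (h3 : ∀ i, u i ∈ unitary N) : Adm BN (TU ρ) (AU w u) :=
  adm_Av _ fun _ hX S _ _ h => hX.2 ι w u h1 h2 h3 S h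

lemma sum_w {ι : Type} [Fintype ι] {w : ι → ℝ} (h2 : ∑ i, w i = 1) (a : N) :
    ∑ i, (w i : ℂ) • a = a := by
  rw [← sum_smul, ← Complex.ofReal_sum, h2, Complex.ofReal_one, one_smul]

lemma cls_bn (W : WS ρ 𝒮) : Cls ρ BN (TU ρ) := by
  refine ⟨fun S C h => h.2, fun S C h => h.1, fun C => ⟨fun l S _ h1 h2 => ⟨h1.exists.elim
    fun _ h => h.1, fun x => (h2 x).norm_le W (h1.mono fun _ h => h.2 x)⟩,
    fun ι _ w u h1 h2 h3 S hS => ⟨hS.1, fun x => ?_⟩⟩, fun X hX => hX.1,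
    fun S C S' C' h h' => ⟨C + C', add_nonneg h.1 h'.1, fun x => ?_⟩,
    fun S C b h => ⟨‖b‖ * C, mul_nonneg (norm_nonneg b) h.1, fun x => ?_⟩,
    fun S C b h => ⟨C * ‖b‖, mul_nonneg h.1 (norm_nonneg b), fun x => ?_⟩,
    ⟨1, zero_le_one, by simp⟩, wcl_id W, fun ι _ w u h1 h2 h3 S hS => ?_⟩
  · rw [AU_apply h1]
    refine (norm_sum_le _ _).trans ((sum_le_sum (g := fun i => w i * (C * ‖x‖))
      fun i _ => ?_).trans_eq (by rw [← sum_mul, h2, one_mul]))
    rw [norm_smul, Complex.norm_real, Real.norm_of_nonneg (h1 i)]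
    have := norm_unit_le (h3 i).1
    exact mul_le_mul_of_nonneg_left ((norm_mul_le_left (by rwa [norm_star])).trans
      ((hS.2 _).trans (mul_le_mul_of_nonneg_left (norm_mul_le_left this) hS.1))) (h1 i)
  · rw [add_mul]
    exact (norm_add_le _ _).trans (add_le_add (h.2 x) (h'.2 x))
  · rw [mul_assoc]
    exact (norm_mul_le _ _).trans (mul_le_mul_of_nonneg_left (h.2 x) (norm_nonneg b))
  · rw [mul_assoc]
    exact (h.2 _).trans (mul_le_mul_of_nonneg_left (norm_mul_le _ _) h.1)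
  · rw [hS]
    ext x
    simp only [AU_apply h1, LinearMap.id_apply, mul_assoc, (h3 _).2, mul_one, sum_w h2]

lemma zm_mem (W : WS ρ 𝒮) {c : N} (hc : Cen c) : {S : N →ₗ[ℂ] N | ∀ x, S (x * c) = S x * c} ∈ TU ρ :=
  ⟨fun _ _ _ h1 h2 x => (h2 _).eq W ((h2 x).mul_right c) (h1.mono fun _ h => h x),
    fun ι _ w u h1 _ _ S hS x => by
      simp only [AU_apply h1, sum_mul, smul_mul_assoc, mul_assoc, (hc.2 _).eq]
      simp only [← mul_assoc x, hS _, mul_assoc (S _), (hc.2 _).eq]⟩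

lemma mod_mem (W : WS ρ 𝒮) (z : N) :
    {S : N →ₗ[ℂ] N | ∀ x b, z * S (x * b) = z * S x * b} ∈ TU ρ :=
  ⟨fun _ _ _ h1 h2 x b => ((h2 _).mul_left z).eq W (((h2 x).mul_left z).mul_right b)
    (h1.mono fun _ h => h x b), fun ι _ w u h1 h2 h3 S hS x b => by
      have : ∀ x, z * AU w u S x = z * S x := fun x => by
        simp only [AU_apply h1, mul_sum, mul_smul_comm, ← mul_assoc z, hS _,
          mul_assoc _ (u _), (h3 _).2, mul_one, sum_w h2]
      rw [this, this, hS]⟩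

lemma zm_exists {c : N} (hc : Cen c) (S : N →ₗ[ℂ] N) :
    ∃ A, Adm BN (TU ρ) A ∧ ∀ x, A S (x * c) = A S x * c := by
  have cc := hc.1.isIdempotentElem.eq
  have hs : star (1 - (c + c)) = 1 - (c + c) := by simp [hc.1.isSelfAdjoint.star_eq]
  have h1 : (1 - (c + c)) * (1 - (c + c)) = 1 := by
    simp only [mul_sub, sub_mul, mul_add, add_mul, cc, one_mul, mul_one]; abel
  refine ⟨AU (fun _ => 2⁻¹) fun b : Bool => cond b 1 (1 - (c + c)), adm_AU (by simp) (by simp)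
    (by rintro (_ | _); exacts [⟨by rw [cond_false, hs, h1], by rw [cond_false, hs, h1]⟩,
      one_mem _]), fun x => ?_⟩
  simp only [AU_apply (w := fun _ : Bool => 2⁻¹) (by simp), Fintype.sum_bool, cond_true,
    cond_false, hs, star_one, mul_one, mul_sub, mul_add, map_sub, map_add, mul_assoc, cc, add_mul,
    sub_mul, smul_mul_assoc]
  module

variable {N' : Type*} [CStarAlgebra N'] [PartialOrder N'] [StarOrderedRing N']

lemma mod_exists (W : WS ρ 𝒮) {z : N} (hz : Cen z) (lift : N' →⋆ₙₐ[ℂ] N) (cut : N → N')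
    (b1 : lift 1 = z) (b2 : ∀ x, lift (cut x) = z * x) (b3 : Function.Injective lift)
    {τ : N' →ₚ[ℂ] ℂ} (hτ : IsTr τ) (hL : Loc τ)
    (hac : ∀ ξ, ∀ ε > 0, ∃ M ≥ 0, ∀ y, ‖ρ (lift y) ξ‖ ^ 2 ≤ ε * ‖y‖ ^ 2 + M * ‖L2 τ y‖ ^ 2)
    {S : N →ₗ[ℂ] N} {C : ℝ} (hS : BN S C) (hZ : ZM S) :
    ∃ A, Adm BN (TU ρ) A ∧ ∀ x b, z * A S (x * b) = z * A S x * b := by
  classical
  obtain ⟨G, hG, h⟩ := hL.l2 hτ
  choose ι hι w u h1 h2 h3 h4 using fun j : Finset N' × ℕ =>
    h j.1 (1 / ((j.2 : ℝ) + 1)) (by positivity)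
  have zz := hz.1.isIdempotentElem.eq
  have b5 : ∀ y, z * lift y = lift y := fun y => by rw [← b1, ← map_mul lift, one_mul]
  have b6 : ∀ y, lift y * z = lift y := fun y => by rw [← b1, ← map_mul lift, mul_one]
  have b7 : ∀ y, lift y * (1 - z) = 0 := fun y => by rw [mul_sub, b6, mul_one, sub_self]
  have b8 : ∀ y, (1 - z) * lift y = 0 := fun y => by rw [sub_mul, b5, one_mul, sub_self]
  have b9 : ∀ y, star (lift y + (1 - z)) = lift (star y) + (1 - z) := fun y => by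
    rw [star_add, map_star, hz.1.one_sub.isSelfAdjoint.star_eq]
  have b10 : ∀ y y', (lift y + (1 - z)) * (lift y' + (1 - z)) = lift (y * y') + (1 - z) :=
    fun y y' => by rw [add_mul, mul_add, mul_add, b7, b8, hz.1.one_sub.isIdempotentElem.eq,
      map_mul, add_zero, zero_add]
  have hA : ∀ j, Adm BN (TU ρ) (AU (w j) fun i => lift (u j i) + (1 - z)) := fun j =>
    adm_AU (h1 j) (h2 j) fun i => ⟨by rw [b9, b10, (h3 j i).1, b1, add_sub_cancel],
      by rw [b9, b10, (h3 j i).2, b1, add_sub_cancel]⟩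
  obtain ⟨A, a1, a2⟩ := Adm.lim W (cls_bn W) (Ultrafilter.of atTop) (Eventually.of_forall hA)
  have a3 : ∀ x, A S (x * z) = A S x * z := a1.test _ (zm_mem W hz) S C hS (hZ z hz)
  refine ⟨A, a1, fun x b => ?_⟩
  let B : NonUnitalSubalgebra ℂ N' :=
    { carrier := {y | ∀ x, z * A S (x * lift y) = z * A S x * lift y}
      add_mem' := fun ha hb x => by simp only [map_add, mul_add, ha x, hb x]
      zero_mem' := fun x => by simp
      mul_mem' := fun ha hb x => by rw [map_mul lift, ← mul_assoc x, hb, ha, mul_assoc]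
      smul_mem' := fun c _ ha x => by simp only [map_smul, mul_smul_comm, ha x] }
  suffices hB : G ⊆ B by
    have := hG B hB (cut b) x
    rwa [b2, ← mul_assoc (z * _) z b, (hz.2 b).eq, ← mul_assoc x, a3, ← (hz.2 _).eq, ← mul_assoc,
      zz, ← (hz.2 (z * _)).eq, ← mul_assoc, zz] at this
  intro y hy x
  obtain ⟨r, hr0, hr⟩ : ∃ r : ℝ, 0 < r ∧ C * ‖x‖ ≤ r := ⟨C * ‖x‖ + 1, by
    have := hS.1; positivity, by linarith⟩
  have hr' : (r : ℂ) ≠ 0 := by exact_mod_cast hr0.ne'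
  let T : N' →ₗ[ℂ] N' :=
    { toFun := fun a => cut ((r : ℂ)⁻¹ • S (x * lift a))
      map_add' := fun a a' => b3 (by simp only [map_add, b2, mul_add, smul_add])
      map_smul' := fun c a => b3 (by
        simp only [map_smul, b2, mul_smul_comm, RingHom.id_apply, smul_comm c]) }
  have hT : ∀ a, lift (T a) = (r : ℂ)⁻¹ • (z * S (x * lift a)) := fun a => by
    rw [← mul_smul_comm, ← b2]; rfl
  have n1 : ∀ a, ‖lift a‖ = ‖a‖ := NonUnitalStarAlgHom.norm_map lift b3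
  have hT1 : Bd1 T := fun a => by
    rw [← n1, hT, norm_smul, norm_inv, Complex.norm_real, Real.norm_of_nonneg hr0.le,
      inv_mul_le_iff₀ hr0]
    refine (norm_mul_le_right hz.1.norm_le).trans ((hS.2 _).trans ((mul_le_mul_of_nonneg_left
      (norm_mul_le _ _) hS.1).trans ?_))
    rw [n1, ← mul_assoc]
    gcongr
  have hT2 : ZM T := fun c hc a => b3 (by
    have : Cen (lift c) := ⟨hc.1.map lift, fun x => by
      rw [commute_iff_eq, ← b6, mul_assoc, ← b2, ← map_mul lift, (hc.2 _).eq, map_mul, b2,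
        (hz.2 x).eq, mul_assoc, b5, b6]⟩
    rw [map_mul lift, hT, hT, map_mul lift, ← mul_assoc x, hZ _ this, smul_mul_assoc, mul_assoc])
  let D := fun j => ∑ i, (w j i : ℂ) • (T (u j i) * star (u j i) * y - T (y * u j i) * star (u j i))
  have e1 : ∀ j, z * AU (w j) (fun i => lift (u j i) + (1 - z)) S x * lift y -
      z * AU (w j) (fun i => lift (u j i) + (1 - z)) S (x * lift y) = (r : ℂ) • lift (D j) := by
    intro j
    simp only [D, AU_apply (h1 j), map_sum, map_smul, map_sub, map_mul lift, hT, mul_sum, sum_mul,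
      smul_sum, mul_smul_comm, smul_mul_assoc, ← sum_sub_distrib, ← smul_sub, smul_comm (r : ℂ),
      inv_smul_smul₀ hr', b9]
    refine sum_congr rfl fun i _ => ?_
    have c1 : ∀ a b, z * (a * (lift b + (1 - z))) = z * a * lift b := fun a b => by
      rw [← mul_assoc, (hz.2 a).eq, mul_assoc, mul_add, hz.1.mul_one_sub_self, add_zero, mul_assoc]
    have c2 : z * S (x * (lift (u j i) + (1 - z))) = z * S (x * lift (u j i)) := by
      rw [mul_add, map_add, hZ _ hz.one_sub, mul_add, ← mul_assoc, (hz.2 (S x)).eq, mul_assoc,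
        hz.1.mul_one_sub_self, mul_zero, add_zero]
    rw [c1, c1, c2, mul_assoc x, mul_add (lift y), b7, add_zero]
  have e2 : WL ρ (Ultrafilter.of (atTop : Filter (Finset N' × ℕ)) : Filter _) (fun j => lift (D j)) 0 := fun ξ η => by
    simp only [map_zero, _root_.zero_apply]
    refine Tendsto.mono_left (Tendsto.inner ?_ tendsto_const_nhds) (Ultrafilter.of_le _)
    rw [NormedAddGroup.tendsto_nhds_zero]
    intro ε hε
    obtain ⟨M, hM, h5⟩ := hac ξ (ε ^ 2 / 2 / ((2 * ‖y‖) ^ 2 + 1)) (by positivity)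
    obtain ⟨n, hn⟩ := exists_nat_gt (M * (2 * ‖y‖ + 1) / (ε ^ 2 / 2))
    filter_upwards [eventually_ge_atTop ({y}, n)] with j hj
    obtain ⟨d1, d2⟩ := h4 j y (hj.1 (mem_singleton_self y)) hy T hT1 hT2
    refine lt_of_pow_lt_pow_left₀ 2 hε.le ((h5 _).trans_lt ?_)
    have d3 : ε ^ 2 / 2 / ((2 * ‖y‖) ^ 2 + 1) * ‖D j‖ ^ 2 ≤ ε ^ 2 / 2 := by
      rw [div_mul_eq_mul_div, div_le_iff₀ (by positivity)]
      gcongr
      exact (pow_le_pow_left₀ (norm_nonneg _) d1 2).trans (by linarith)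
    have d4 : M * ‖L2 τ (D j)‖ ^ 2 < ε ^ 2 / 2 := by
      refine (mul_le_mul_of_nonneg_left d2 hM).trans_lt ?_
      have : (n : ℝ) ≤ j.2 := by exact_mod_cast hj.2
      rw [div_lt_iff₀ (by positivity)] at hn
      rw [← mul_assoc, mul_one_div, div_lt_iff₀ (by positivity)]
      nlinarith [sq_pos_of_pos hε]
    linarith
  have := ((((a2 S C hS x).mul_left z).mul_right (lift y)).sub
    ((a2 S C hS (x * lift y)).mul_left z)).eq W (e2.smul r) (Eventually.of_forall e1)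
  rw [smul_zero, sub_eq_zero] at this
  exact this.symm

variable {H' : Type*} [NormedAddCommGroup H'] [InnerProductSpace ℂ H'] [CompleteSpace H']

lemma piece0 (W : WS ρ 𝒮) {z : N} (hz : Cen z) (h0 : z ≠ 0)
    (hA : (∀ p, IsStarProjection p → z * p = p → Ab p → p = 0) ∨
      ∃ (p : N) (n : ℕ) (u : Fin (n + 1) → N), IsStarProjection p ∧ Ab p ∧
        (∀ i j, star (u i) * u j = if i = j then p else 0) ∧ ∑ i, u i * star (u i) = z)
    {I : Type*} [Fintype I] {ζ : I → H} {c : ℝ}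
    (a2 : ∀ x, z * x = x → (∀ i, ρ x (ζ i) = 0) → x = 0)
    (a3 : ∀ x, z * x = x → ∑ i, ‖ρ (star x) (ζ i)‖ ^ 2 ≤ c * ∑ i, ‖ρ x (ζ i)‖ ^ 2)
    (ι : H' →L[ℂ] H) (κ : H →L[ℂ] H')
    (h1 : ∀ a, κ (ι a) = a) (h2 : ∀ ζ, ι (κ ζ) = ρ z ζ) (h3 : ∀ a ζ, ⟪ι a, ζ⟫_ℂ = ⟪a, κ ζ⟫_ℂ)
    {ρ' : N' →⋆ₐ[ℂ] (H' →L[ℂ] H')} (hW : WS ρ' {T | ∃ s ∈ 𝒮, T = κ ∘L s ∘L ι})
    {S : N →ₗ[ℂ] N} {C : ℝ} (hS : BN S C) (hZ : ZM S) :
    ∃ A, Adm BN (TU ρ) A ∧ ∀ x b, z * A S (x * b) = z * A S x * b := by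
  obtain ⟨lift, cut, b1, b2, b3, b4⟩ := W.compress hz ι κ h1 h2 h3 hW
  have b5 : ∀ y, z * lift y = lift y := fun y => by rw [← b1, ← map_mul lift, one_mul]
  have b6 : ∀ y ζ, ‖ρ (lift y) ζ‖ = ‖ρ' y (κ ζ)‖ := fun y ζ => by
    rw [b4, ← sq_eq_sq₀ (norm_nonneg _) (norm_nonneg _), norm_sq_re, norm_sq_re, h3, h1]
  have b7 : ∀ x y, lift (cut x * y) = x * lift y := fun x y => by
    rw [map_mul, b2, (hz.2 x).eq, mul_assoc, b5]
  have b8 : ∀ x, star (cut x) = cut (star x) := fun x => b3 (by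
    rw [map_star, b2, b2, star_mul, hz.1.isSelfAdjoint.star_eq, (hz.2 _).eq])
  have b9 : ∀ x y, cut x * cut y = cut (x * y) := fun x y => b3 (by
    rw [b7, b2, b2, ← mul_assoc, ← (hz.2 x).eq, mul_assoc])
  have b11 : ∀ g, IsStarProjection g → IsStarProjection (cut g) := fun g hg =>
    ⟨by rw [IsIdempotentElem, b9, hg.isIdempotentElem.eq],
      by rw [IsSelfAdjoint, b8, hg.isSelfAdjoint.star_eq]⟩
  have : Nontrivial N' := ⟨1, 0, fun h1 => h0 (by rw [← b1, h1, map_zero])⟩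
  obtain ⟨τ, hτ, hac⟩ := hW.exists_trace (fun i => κ (ζ i)) (c := c)
    (fun y hy => b3 (by
      rw [map_zero]
      exact a2 _ (b5 y) fun i => norm_eq_zero.1 (by rw [b6, hy, norm_zero])))
    (fun y => by simpa only [← b6, map_star lift] using a3 _ (b5 y))
  refine mod_exists W hz lift cut b1 b2 b3 hτ ?_ (fun ξ => by simpa only [b6] using hac (κ ξ)) hS hZ
  rcases hA with hA | ⟨p, n, u, hp, hA, c1, c2⟩
  · exact loc_half hW.vnp hτ (hW.half fun p hp hp' => b3 (by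
      rw [map_zero]
      refine hA _ (hp.map lift) (b5 p) fun g hg hgp x => ?_
      have c1 : z * g = g := by rw [← hgp, ← mul_assoc, (hz.2 g).eq, mul_assoc, b5]
      have := congrArg lift (hp' (cut g) (b11 g hg) (b3 (by rw [b7, hgp, b2, c1])) (cut x))
      rwa [b9, b7, map_sub, b2, c1, map_zero] at this))
  · refine loc_ab hW.vnp hτ (p := cut p) (g := fun i => cut (u i))
      ⟨b11 p hp, fun a b => ?_, b3 ?_⟩ fun g hg hgp x => b3 ?_
    · rw [b8, b9, c1]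
      split_ifs
      · rfl
      · exact b3 (by rw [b2, mul_zero, map_zero])
    · simp only [b8, b9, map_sum, b2, ← mul_sum, c2, b1, hz.1.isIdempotentElem.eq]
    · have d1 : ∀ y, lift y * z = lift y := fun y => by rw [← (hz.2 _).eq, b5]
      have d2 := congrArg lift hgp
      rw [map_mul, b2, ← mul_assoc, d1] at d2
      rw [map_mul, map_mul, map_sub, b2, map_zero, ← b5 g, ← mul_sub, ← mul_assoc, mul_assoc _ _ z,
        d1, b5]
      exact hA _ (hg.map lift) d2 _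

lemma piece (W : WS ρ 𝒮) {z : N} (hz : Cen z) (h0 : z ≠ 0)
    (hA : (∀ p, IsStarProjection p → z * p = p → Ab p → p = 0) ∨
      ∃ (p : N) (n : ℕ) (u : Fin (n + 1) → N), IsStarProjection p ∧ Ab p ∧
        (∀ i j, star (u i) * u j = if i = j then p else 0) ∧ ∑ i, u i * star (u i) = z)
    {I : Type*} [Fintype I] {ζ : I → H} {c : ℝ}
    (a2 : ∀ x, z * x = x → (∀ i, ρ x (ζ i) = 0) → x = 0)
    (a3 : ∀ x, z * x = x → ∑ i, ‖ρ (star x) (ζ i)‖ ^ 2 ≤ c * ∑ i, ‖ρ x (ζ i)‖ ^ 2)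
    {S : N →ₗ[ℂ] N} {C : ℝ} (hS : BN S C) (hZ : ZM S) :
    ∃ A, Adm BN (TU ρ) A ∧ ∀ x b, z * A S (x * b) = z * A S x * b := by
  have zz := hz.1.isIdempotentElem.eq
  let M : Submodule ℂ H := (1 - ρ z).ker
  have hM : ∀ a : M, ρ z a = a := fun a => (sub_eq_zero.1 a.2).symm
  let κ : H →L[ℂ] M := (ρ z).codRestrict M fun ζ => by
    change ρ z ζ - ρ z (ρ z ζ) = 0
    rw [← rho_mul, zz, sub_self]
  have h3 : ∀ (a : M) ζ, ⟪M.subtypeL a, ζ⟫_ℂ = ⟪a, κ ζ⟫_ℂ := fun a ζ => by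
    change ⟪(a : H), ζ⟫_ℂ = ⟪(a : H), ρ z ζ⟫_ℂ
    rw [← hz.1.isSelfAdjoint.star_eq, ← rho_inner, hM]
  exact piece0 W hz h0 hA a2 a3 M.subtypeL κ (fun a => Subtype.ext (hM a))
    (fun _ => rfl) h3 (ws_vn (W.cut_star _ _ h3)) hS hZ

theorem mean_fin (W : WS ρ 𝒮) {c : N} (hc : Cen c)
    (hI : ∀ p, IsStarProjection p → p ≠ 0 → c * p = p → ∃ n, ¬Copies 1 p n) :
    ∃ R, Mean BN c R := by
  obtain ⟨P, hP, hm⟩ := exists_min W (cls_bn W)
  refine ⟨_, mean_of (cls_bn W) hP hc fun T C hT b => ?_⟩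
  have hS := hP.bd (cls_bn W) hT
  have hZ : ZM (P T) := fun c hc => by
    obtain ⟨A, h1, h2⟩ := zm_exists (ρ := ρ) hc (P T)
    exact hm T C hT _ (zm_mem W hc) A h1 h2
  by_contra hne
  set d := c * P T b - c * P T 1 * b with hd
  obtain ⟨z1, hz1, e1, e2⟩ := W.cenSupp d
  have e3 : c * z1 = z1 := by
    have := e2 (1 - c) fun x => by
      rw [hd, mul_assoc c, ← mul_sub, (hc.one_sub.2 x).eq, mul_assoc, ← mul_assoc (1 - c),
        hc.1.one_sub_mul_self, zero_mul, mul_zero]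
    rw [sub_mul, one_mul, sub_eq_zero] at this
    exact this.symm
  have key : ∀ z, Cen z → z1 * z = z →
      (∃ A, Adm BN (TU ρ) A ∧ ∀ x b, z * A (P T) (x * b) = z * A (P T) x * b) → z = 0 := by
    rintro z hz h1 ⟨A, h2, h3⟩
    have := hm T C hT _ (mod_mem W z) A h2 h3 1 b
    rw [← h1, (hz1.2 z).eq]
    refine e2 z fun x => ?_
    rw [(hz.2 x).eq, mul_assoc, hd, mul_assoc c, ← mul_sub, ← mul_assoc z, (hz.2 c).eq, mul_assoc,
      mul_sub, ← mul_assoc z, ← this, one_mul, sub_self, mul_zero, mul_zero]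
  have F : Frame0 (1 : N) fun _ : Unit => (1 : N) := ⟨IsStarProjection.one N, by simp, by simp⟩
  obtain ⟨z, hz, c0, c1, n, ζ, r, -, c3, c4⟩ := W.exists_approx F hz1
    (fun h => hne (sub_eq_zero.1 (by rw [← hd, ← e1, h, zero_mul])))
    fun p hp h0 h1 => hI p hp h0 (by rw [← h1, ← mul_assoc, e3])
  by_cases hA : ∀ p, IsStarProjection p → z * p = p → Ab p → p = 0
  · exact c0 (key z hz c1 (piece W hz c0 (Or.inl hA) c3 c4 hS hZ))
  push Not at hA
  obtain ⟨p, hp, d1, hA, d0⟩ := hA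
  obtain ⟨y, k, u, hy, d2, d3, d4⟩ := ab_frame W hp hA
    (hI p hp d0 (by rw [← d1, ← c1, ← mul_assoc, ← mul_assoc, e3]))
  have hpy := hp.mul hy.1 (hy.2 p).symm
  have d5 : z * y = y := by
    have : ∀ i, z * u i = u i := fun i => by
      have h1 : PI (u i) := PI.of_src (by rw [d3, if_pos rfl]; exact hpy)
      rw [← h1.mul_src, d3, if_pos rfl, ← mul_assoc, (hz.2 _).eq, mul_assoc, ← mul_assoc z, d1]
    simp only [← d4, mul_sum, ← mul_assoc, this]
  have d6 : y ≠ 0 := fun h => d2 (by rw [h, mul_zero])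
  refine d6 (key y hy (by rw [← d5, ← mul_assoc, c1]) (piece W hy d6 (Or.inr ⟨_, k, u, hpy,
    fun g hg hgp x => ?_, d3, d4⟩) (fun x hx => c3 x (by rw [← hx, ← mul_assoc, d5]))
    (fun x hx => c4 x (by rw [← hx, ← mul_assoc, d5])) hS hZ))
  have f1 : g * p = g := by
    rw [← hgp, mul_assoc, mul_assoc, (hy.2 p).eq, ← mul_assoc p, hp.isIdempotentElem.eq]
  have f2 : g * y = g := by rw [← hgp, mul_assoc, mul_assoc, hy.1.isIdempotentElem.eq]
  rw [← f2, ← sub_mul, ← mul_assoc, mul_assoc g, (hy.2 x).eq, ← mul_assoc, mul_assoc _ y,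
    (hy.2 _).eq, ← mul_assoc, hA g hg f1 x, zero_mul, zero_mul]

end Vale.Agent.P082
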