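import Vale.Agent.P104.Glue

/-! The little Grothendieck inequality and the reversal estimate. -/

open scoped InnerProductSpace ComplexConjugate BigOperators ComplexOrder ComplexStarModule
open Finset

set_option linter.unusedSectionVars false

namespace Vale.Agent.P082

open Vale.Agent.P104

variable {N : Type*} [CStarAlgebra N] [PartialOrder N] [StarOrderedRing N]
variable {K : Type*} [SeminormedAddCommGroup K] [InnerProductSpace ℂ K]

lemma gro_sa (φ : N →ₗ[ℂ] K) {R δ : ℝ} (hR : 0 ≤ R) (hφ : ∀ x, ‖φ x‖ ≤ R * ‖x‖)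
    (hu : ∀ u ∈ unitary N, ‖φ u‖ ^ 2 ≤ ‖φ 1‖ ^ 2 + δ) {ι : Type*} [Fintype ι] (h : ι → N)
    (hsa : ∀ i, IsSelfAdjoint (h i)) (hn : ∑ i, ‖h i‖ ≤ 1) :
    ∑ i, ‖φ (h i)‖ ^ 2 ≤ δ + 2 * R ^ 2 * ‖∑ i, h i * h i‖ := by
  classical
  obtain ⟨ε, hε1, hε2, hε3⟩ := exists_sign ι
  let a : (ι → ZMod 2) → N := fun ω => ∑ i, ε ω i • h i
  have ha : ∀ ω, IsSelfAdjoint (a ω) := fun ω => by
    simp only [a, IsSelfAdjoint, star_sum, star_smul, RCLike.star_def, hε1, (hsa _).star_eq]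
  have han : ∀ ω, ‖a ω‖ ≤ 1 := fun ω => by
    refine (norm_sum_le _ _).trans ?_
    simpa only [norm_smul, hε2, one_mul] using hn
  let s : (ι → ZMod 2) → N := fun ω => CFC.sqrt (1 - a ω ^ 2)
  have ha2 : ∀ ω, 0 ≤ 1 - a ω ^ 2 := fun ω => by
    rw [sub_nonneg, ← CStarAlgebra.norm_le_one_iff_of_nonneg _ (ha ω).sq_nonneg]
    exact (norm_pow_le' _ two_pos).trans (pow_le_one₀ (norm_nonneg _) (han ω))
  have hs1 : ∀ ω, s ω ≤ 1 := fun ω => by
    rw [← CStarAlgebra.norm_le_one_iff_of_nonneg _ (CFC.sqrt_nonneg _)]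
    refine norm_le_one_of _ ?_
    rw [(CFC.sqrt_nonneg _).star_eq, CFC.sqrt_mul_sqrt_self _ (ha2 ω)]
    exact sub_le_self _ (ha ω).sq_nonneg
  have hs2 : ∀ ω, 1 - s ω ≤ star (a ω) * a ω := fun ω => by
    have := CStarAlgebra.pow_antitone (CFC.sqrt_nonneg (1 - a ω ^ 2)) (hs1 ω) one_le_two
    simp only [pow_one] at this
    rw [CFC.sq_sqrt _ (ha2 ω)] at this
    rw [(ha ω).star_eq, ← sq, sub_le_comm]
    exact this
  have key : ∀ ω, ‖φ (a ω)‖ ^ 2 ≤ δ + 2 * (⟪φ 1, φ (1 - s ω)⟫_ℂ).re := by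
    intro ω
    have hc1 := (ha ω).self_add_I_smul_cfcSqrt_sub_sq_mem_unitary _ (han ω)
    have hc2 : a ω - Complex.I • s ω ∈ unitary N := by
      have := Unitary.star_mem hc1
      have hst : star (s ω) = s ω := (CFC.sqrt_nonneg _).star_eq
      rw [star_add, star_smul, (ha ω).star_eq, hst, RCLike.star_def, Complex.conj_I, neg_smul,
        ← sub_eq_add_neg] at this
      exact this
    have e1 := hu _ hc1
    have e2 := hu _ hc2
    rw [map_add, map_smul] at e1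
    rw [map_sub, map_smul] at e2
    have e3 := parallelogram_law_with_norm ℂ (φ (a ω)) (Complex.I • φ (s ω))
    have e4 : φ (s ω) = φ 1 - φ (1 - s ω) := by rw [← map_sub, sub_sub_cancel]
    have e5 := norm_sub_sq (𝕜 := ℂ) (φ 1) (φ (1 - s ω))
    rw [norm_smul, Complex.norm_I, one_mul] at e3
    rw [← e4] at e5
    simp only [RCLike.re_to_complex] at e5
    nlinarith [sq_nonneg ‖φ (1 - s ω)‖]
  have hcard : (0 : ℝ) < Fintype.card (ι → ZMod 2) := by exact_mod_cast Fintype.card_pos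
  have e7 : 𝔼 ω, ‖φ (a ω)‖ ^ 2 = ∑ i, ‖φ (h i)‖ ^ 2 := by
    simp only [a, map_sum, map_smul]
    rw [expect_orth univ ε (fun _ => 1) (fun i _ j _ => by rw [hε3]; simp)]
    simp only [one_mul]
  have e8 : ‖∑ ω, (1 - s ω)‖ ≤ Fintype.card (ι → ZMod 2) * ‖∑ i, h i * h i‖ := by
    refine (CStarAlgebra.norm_le_norm_of_nonneg_of_le
      (sum_nonneg fun ω _ => sub_nonneg.2 (hs1 ω)) (sum_le_sum fun ω _ => hs2 ω)).trans ?_
    rw [sum_star_orth univ ε (fun i _ j _ => hε3 i j)]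
    simp only [(hsa _).star_eq, norm_smul, Complex.norm_natCast, le_refl]
  rw [← e7]
  refine (expect_le_expect fun ω _ => key ω).trans ?_
  rw [expect_add_distrib, Fintype.expect_const, ← mul_expect, mul_assoc]
  gcongr
  rw [Fintype.expect_eq_sum_div_card, div_le_iff₀ hcard, ← Complex.re_sum, ← inner_sum,
    ← map_sum]
  refine (Complex.re_le_norm _).trans ((norm_inner_le_norm _ _).trans ?_)
  have n1 : ‖(1 : N)‖ ≤ 1 := norm_one_le
  calc _ ≤ (R * 1) * (R * (Fintype.card (ι → ZMod 2) * ‖∑ i, h i * h i‖)) := by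
        gcongr
        · exact (hφ 1).trans (by gcongr)
        · exact (hφ _).trans (by gcongr)
    _ = _ := by ring

lemma re_im_sq (b : N) : (ℜ b : N) * ℜ b + (ℑ b : N) * ℑ b
    = (2 : ℝ)⁻¹ • (star b * b + b * star b) := by
  simp only [realPart_apply_coe, imaginaryPart_apply_coe, smul_mul_smul_comm,
    Complex.I_mul_I, neg_smul, one_smul, mul_add, add_mul, mul_sub, sub_mul,
    neg_mul, mul_neg, neg_neg]
  module

theorem gro (J : N →ₗ[ℂ] K) {R : ℝ} (hR : 0 ≤ R) (hJ : ∀ x, ‖J x‖ ≤ R * ‖x‖) {ι : Type*}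
    [Fintype ι] (a : ι → N) :
    ∑ i, ‖J (a i)‖ ^ 2 ≤ 2 * R ^ 2 * (‖∑ i, star (a i) * a i‖ + ‖∑ i, a i * star (a i)‖) := by
  let f : N → ℝ := fun w => ‖J w‖ ^ 2
  have hbdd : BddAbove (f '' (unitary N : Set N)) := ⟨R ^ 2, by
    rintro _ ⟨w, hw, rfl⟩
    refine pow_le_pow_left₀ (norm_nonneg _) ((hJ w).trans ?_) 2
    exact mul_le_of_le_one_right hR (norm_unit_le hw.1)⟩
  have hUne : (f '' (unitary N : Set N)).Nonempty := ⟨_, 1, one_mem _, rfl⟩
  set t : ℝ := (2 * ∑ i, ‖a i‖ + 1)⁻¹ with ht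
  have hs0 : 0 < 2 * ∑ i, ‖a i‖ + 1 := by positivity
  have ht0 : 0 < t := inv_pos.2 hs0
  refine le_of_forall_pos_le_add fun δ hδ => ?_
  obtain ⟨_, ⟨w, hw, rfl⟩, hlt⟩ := exists_lt_of_lt_csSup hUne
    (sub_lt_self (sSup (f '' (unitary N : Set N))) (show 0 < δ * t ^ 2 / 2 by positivity))
  have hw1 := norm_unit_le hw.1
  have hw2 : ‖star w‖ ≤ 1 := by rwa [norm_star]
  let b : ι → N := fun i => t • (star w * a i)
  have hb : ∀ i, ‖b i‖ ≤ t * ‖a i‖ := fun i => by
    rw [norm_smul, Real.norm_of_nonneg ht0.le]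
    gcongr
    exact norm_mul_le_right hw2
  have := gro_sa (J ∘ₗ LinearMap.mulLeft ℂ w) (δ := δ * t ^ 2 / 2) hR
    (fun x => (hJ _).trans (by gcongr; exact norm_mul_le_right hw1))
    (fun u hu => by
      have := le_csSup hbdd ⟨_, mul_mem hw hu, rfl⟩
      simp only [f] at this hlt
      simp only [LinearMap.comp_apply, LinearMap.mulLeft_apply, mul_one]
      linarith)
    (Sum.elim (fun i => (ℜ (b i) : N)) fun i => (ℑ (b i) : N))
    (by rintro (i | i) <;> exact Subtype.prop _) (by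
      rw [Fintype.sum_sum_type, ← sum_add_distrib]
      refine (sum_le_sum (g := fun i => 2 * (t * ‖a i‖)) fun i _ => ?_).trans ?_
      · have h1 : ‖(ℜ (b i) : N)‖ ≤ ‖b i‖ := realPart.norm_le (b i)
        have h2 : ‖(ℑ (b i) : N)‖ ≤ ‖b i‖ := imaginaryPart.norm_le (b i)
        simp only [Sum.elim_inl, Sum.elim_inr]
        linarith [hb i]
      · rw [← mul_sum, ← mul_sum, mul_left_comm, ht, inv_mul_le_one₀ hs0]; linarith)
  simp only [Fintype.sum_sum_type, Sum.elim_inl, Sum.elim_inr, ← sum_add_distrib, re_im_sq,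
    LinearMap.comp_apply, LinearMap.mulLeft_apply, ← smul_sum] at this
  have h1 : ∀ i, t ^ 2 * ‖J (a i)‖ ^ 2 ≤ 2 * (‖J (w * ℜ (b i))‖ ^ 2 + ‖J (w * ℑ (b i))‖ ^ 2) := by
    intro i
    have e : (t : ℂ) • J (a i) = J (w * ℜ (b i)) + Complex.I • J (w * ℑ (b i)) := by
      rw [← map_smul, ← map_smul, ← map_add, ← mul_smul_comm, ← mul_add,
        realPart_add_I_smul_imaginaryPart]
      simp only [b, mul_smul_comm, ← mul_assoc, hw.2, one_mul, Complex.coe_smul]
    have := norm_add_sq_le (J (w * ℜ (b i))) (Complex.I • J (w * ℑ (b i)))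
    rw [← e, norm_smul, norm_smul, Complex.norm_I, Complex.norm_real, Real.norm_of_nonneg ht0.le,
      mul_pow, one_mul] at this
    linarith
  have h2 : ‖∑ i, (star (b i) * b i + b i * star (b i))‖ ≤
      t ^ 2 * (‖∑ i, star (a i) * a i‖ + ‖∑ i, a i * star (a i)‖) := by
    have e1 : ∀ i, star (b i) * b i = t ^ 2 • (star (a i) * a i) := fun i => by
      simp only [b, star_smul, star_trivial, smul_mul_smul_comm, star_mul, star_star, sq]
      rw [mul_assoc, ← mul_assoc w, hw.2, one_mul]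
    have e2 : ∀ i, b i * star (b i) = t ^ 2 • (star w * (a i * star (a i)) * w) := fun i => by
      simp only [b, star_smul, star_trivial, smul_mul_smul_comm, star_mul, star_star, sq, mul_assoc]
    simp only [e1, e2, sum_add_distrib, ← smul_sum, ← smul_add, ← sum_mul, ← mul_sum]
    rw [norm_smul, Real.norm_of_nonneg (sq_nonneg t)]
    gcongr
    refine (norm_add_le _ _).trans ?_
    gcongr
    exact (norm_mul_le_left hw1).trans (norm_mul_le_right hw2)
  refine le_of_mul_le_mul_left ?_ (pow_pos ht0 2)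
  rw [mul_sum]
  refine (sum_le_sum fun i _ => h1 i).trans ?_
  rw [← mul_sum]
  rw [norm_smul, norm_inv, Real.norm_two] at this
  have h3 := mul_le_mul_of_nonneg_left h2 (sq_nonneg R)
  nlinarith

end Vale.Agent.P082
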