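import Vale.Agent.P082.Coch
import Vale.Agent.P082.CB

/-! Averaging makes cochains completely bounded in the last variable. -/

open scoped InnerProductSpace ComplexConjugate BigOperators ComplexOrder
open Finset Filter Topology

set_option linter.unusedSectionVars false

namespace Vale.Agent.P082

open Vale.Agent.P104

variable {N : Type*} [CStarAlgebra N] [PartialOrder N] [StarOrderedRing N]
variable {H : Type*} [NormedAddCommGroup H] [InnerProductSpace ℂ H] [CompleteSpace H]
variable {ρ : N →⋆ₐ[ℂ] (H →L[ℂ] H)} {𝒮 : Set (H →L[ℂ] H)}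

lemma av_prod {A B M : Type*} [Fintype A] [Fintype B] [AddCommGroup M] [Module ℂ M]
    (f : A × B → M) : av f = av fun a => av fun b => f (a, b) := by
  simp only [av, Fintype.card_prod, Nat.cast_mul, mul_inv, mul_smul, Fintype.sum_prod_type,
    smul_sum]

lemma av_equiv {A M : Type*} [Fintype A] [AddCommGroup M] [Module ℂ M] (e : A ≃ A) (f : A → M) :
    (av fun a => f (e a)) = av f := by
  simp only [av, e.sum_comp]

lemma av_mul {A : Type*} [Fintype A] (f : A → N) (y : N) : (av fun a => f a * y) = av f * y :=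
  (map_av (LinearMap.mulRight ℂ y) f).symm

lemma mul_av {A : Type*} [Fintype A] (f : A → N) (y : N) : (av fun a => y * f a) = y * av f :=
  (map_av (LinearMap.mulLeft ℂ y) f).symm

lemma norm_le_of_rho (W : WS ρ 𝒮) {x : N} {c : ℝ} (hc : 0 ≤ c)
    (h : ∀ ξ, ‖ρ x ξ‖ ^ 2 ≤ c ^ 2 * ‖ξ‖ ^ 2) : ‖x‖ ≤ c := by
  rw [← NonUnitalStarAlgHom.norm_map ρ W.inj x]
  exact (ρ x).opNorm_le_bound hc fun ξ =>
    (sq_le_sq₀ (norm_nonneg _) (by positivity)).1 ((h ξ).trans_eq (mul_pow _ _ _).symm)

lemma isLin_FL {ι : Type*} [Fintype ι] [Nonempty ι] {u : ι → N} {χ : List N → N} (h : Lin χ)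
    (r : List N) : IsLinearMap ℂ fun t => FL u r t χ := by
  cases r with
  | nil => exact ⟨fun x y => mul_add _ _ _, fun c x => mul_smul_comm _ _ _⟩
  | cons x r =>
    simpa only [FL_cons, one_mul, mul_assoc] using
      isLin_av fun a => isLin_sh h (FL u r (u a)) 1 (x * star (u a))

/-- the fully averaged cochain -/
noncomputable def FA {ι : Type*} [Fintype ι] (u : ι → N) (χ : List N → N) (l : List N) : N :=
  av fun a => star (u a) * FL u l (u a) χ

variable {ι : Type} [Fintype ι] [DecidableEq ι] [AddCommGroup ι] {s : ι → N} {z : N}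

/-- orthogonal copies of a central projection -/
structure Cp (z : N) (s : ι → N) : Prop where
  cen : Cen z
  orth : ∀ i j, star (s i) * s j = if i = j then z else 0

/-- random permutation with signs -/
noncomputable def RU {Ω : Type} (s : ι → N) (ε : Ω → ι → ℂ) (a : ι × Ω) : N :=
  ∑ p, ε a.2 p • (s (a.1 + p) * star (s p))

variable {Ω : Type} [Fintype Ω] [Nonempty Ω] {ε : Ω → ι → ℂ}

lemma av_RU (hε : ∀ i j, 𝔼 ω, conj (ε ω i) * ε ω j = if i = j then 1 else 0) {B : N → N → N}
    (h1 : ∀ u, IsLinearMap ℂ fun y => B y u) (h2 : ∀ y, IsLinearMap ℂ (B y)) (Y : N) :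
    (av fun a => B (Y * star (RU s ε a)) (RU s ε a))
      = ∑ p, av fun α => B (Y * s p * star (s α)) (s α * star (s p)) := by
  let B' : N →ₗ[ℂ] N →ₗ[ℂ] N := LinearMap.mk₂ ℂ B (fun _ _ u => (h1 u).map_add _ _)
    (fun _ _ u => (h1 u).map_smul _ _) (fun y => (h2 y).map_add) fun c y => (h2 y).map_smul c
  change (av fun a => B' _ _) = ∑ p, av fun α => B' _ _
  simp only [av_prod, RU, star_sum, star_smul, mul_sum, map_sum, mul_smul_comm, map_smul,
    LinearMap.sum_apply, LinearMap.smul_apply, smul_sum, smul_smul, RCLike.star_def, star_mul,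
    star_star]
  have hb : ∀ b : ι → ι → N, av (fun ω => ∑ x, ∑ i, (ε ω x * conj (ε ω i)) • b i x) = ∑ i, b i i :=
    fun b => by simp [av_sum, av_smul_const, mul_comm (ε _ _), hε]
  simp only [hb]
  rw [av_sum]
  exact sum_congr rfl fun p _ => by
    simpa only [mul_assoc, Equiv.coe_addRight] using av_equiv (Equiv.addRight p)
      fun α => B' (Y * s p * star (s α)) (s α * star (s p))

namespace Cp

lemma self (h : Cp z s) (i : ι) : star (s i) * s i = z := by simp [h.orth]

lemma pi (h : Cp z s) (i : ι) : PI (s i) := PI.of_src (h.self i ▸ h.cen.1)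

lemma mul_z (h : Cp z s) (i : ι) : s i * z = s i := by rw [← h.self i, (h.pi i).mul_src]

lemma z_mul (h : Cp z s) (i : ι) : z * star (s i) = star (s i) := mul_star_eq h.cen.1 (h.mul_z i)

lemma le_one (h : Cp z s) {K : Type} [Fintype K] {κ : K → ι} (hκ : Function.Injective κ) :
    ∑ k, star (star (s (κ k))) * star (s (κ k)) ≤ 1 := by
  classical
  simp only [star_star]
  refine (Orth.sum_proj ⟨fun k => (h.pi _).rng, fun k l hkl => ?_⟩).le_one
  rw [mul_assoc, ← mul_assoc (star _), h.orth, if_neg (hκ.ne hkl), zero_mul, mul_zero]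

lemma row (h : Cp z s) {K : Type} [Fintype K] {κ : K → ι} (hκ : Function.Injective κ)
    (η : K → H) : ‖∑ k, ρ (s (κ k)) (η k)‖ ^ 2 ≤ ∑ k, ‖η k‖ ^ 2 := by
  simpa only [star_star] using row_le (ρ := ρ) (h.le_one hκ) η

lemma norm_mat (h : Cp z s) (W : WS ρ 𝒮) {K L : Type} [Fintype K] [Fintype L] {κ : K → ι}
    (hκ : Function.Injective κ) {μ : L → ι} (hμ : Function.Injective μ) {x : K → L → N} {c : ℝ}
    (hc : 0 ≤ c) (hx : MB ρ x (c ^ 2) fun η => ‖η‖ ^ 2) :
    ‖∑ k, ∑ l, s (κ k) * x k l * star (s (μ l))‖ ≤ c := by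
  refine norm_le_of_rho W hc fun ξ => ?_
  simp only [map_sum, _root_.sum_apply, mul_assoc, rho_mul]
  simp only [← map_sum (ρ (s _))]
  exact (h.row hκ _).trans ((hx _).trans (by gcongr; exact sum_rho_le (h.le_one hμ) ξ))

lemma norm_diag (h : Cp z s) (W : WS ρ 𝒮) {κ : ι → ι} (hκ : Function.Injective κ) {y : ι → N}
    {c : ℝ} (hc : 0 ≤ c) (hy : ∀ p, ‖y p‖ ≤ c) : ‖∑ p, s (κ p) * y p * star (s p)‖ ≤ c := by
  have := h.norm_mat W hκ Function.injective_id (x := fun k l => if k = l then y k else 0) hc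
    fun η => by
      simp only [ite_rho, sum_ite_eq, mem_univ, if_true, mul_sum, ← mul_pow]
      gcongr
      exact (rho_le _ _).trans (by gcongr; exact hy _)
  simpa using this

lemma norm_RU (h : Cp z s) (W : WS ρ 𝒮) (hε : ∀ ω p, ‖ε ω p‖ = 1) (a : ι × Ω) :
    ‖RU s ε a‖ ≤ 1 := by
  simpa [RU] using h.norm_diag W (add_right_injective a.1) (y := fun p => ε a.2 p • 1) zero_le_one
    fun p => by rw [norm_smul, hε, one_mul]; exact norm_one_le

lemma nrm_dgm (h : Cp z s) (W : WS ρ 𝒮) (r : List N) : nrm (r.map (dgm s)) ≤ nrm r := by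
  induction r with
  | nil => simp
  | cons a r ih =>
    rw [List.map_cons, nrm_cons, nrm_cons]
    exact mul_le_mul (h.norm_diag W Function.injective_id (norm_nonneg a) fun _ => le_rfl) ih
      (nrm_nonneg _) (norm_nonneg a)

lemma FL_RU (h : Cp z s) (hε : ∀ i j, 𝔼 ω, conj (ε ω i) * ε ω j = if i = j then 1 else 0)
    {χ : List N → N} (hχ : Lin χ) (r : List N) (X : N) (i p : ι) :
    FL (RU s ε) (r.map (dgm s) ++ [X]) (s i * star (s p)) χ
      = ∑ q, FL s (r ++ [star (s p) * X * s q]) (s i) χ * star (s q) := by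
  have key := fun l => av_RU (s := s) hε (B := fun y u => FL (RU s ε) l u (sh y χ))
    (fun u => by simpa only [one_mul, mul_one] using isLin_sh hχ (FL _ l u) 1 1)
    fun y => isLin_FL (hχ.sh y) l
  induction r generalizing χ i with
  | nil =>
    rw [List.map_nil, List.nil_append, FL_cons, key]
    simp only [List.nil_append, FL_cons, FL_nil, ← av_mul, mul_assoc]
  | cons a r ih =>
    have e : ∀ q α, s i * star (s p) * dgm s a * s q * star (s α)
        = if p = q then s i * a * star (s α) else 0 := fun q α => by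
      simp only [dgm, mul_sum, mul_assoc, ← mul_assoc (star (s _)) (s _), h.orth, ite_mul,
        mul_ite, zero_mul, mul_zero, sum_ite_eq, mem_univ, if_true, h.z_mul,
        ← mul_assoc (s i) z, h.mul_z]
    rw [List.map_cons, List.cons_append, FL_cons, key, sum_eq_single p]
    · simp only [e, if_true, List.cons_append, FL_cons, ← av_mul, ← av_sum]
      exact congrArg av (funext fun α => ih (hχ.sh _) α fun l => av_RU hε
        (fun u => by simpa only [one_mul, mul_one] using isLin_sh (hχ.sh _) (FL _ l u) 1 1)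
        fun y => isLin_FL ((hχ.sh _).sh y) l)
    · intro q _ hq
      simp only [e, if_neg hq.symm, hχ.head.map_zero, map_zero, av_const]
    · simp

lemma FA_RU (h : Cp z s) (hε : ∀ i j, 𝔼 ω, conj (ε ω i) * ε ω j = if i = j then 1 else 0)
    {χ : List N → N} (hχ : Lin χ) (r : List N) (X : N) :
    FA (RU s ε) χ (r.map (dgm s) ++ [X])
      = ∑ p, ∑ q, s p * FA s χ (r ++ [star (s p) * X * s q]) * star (s q) := by
  have := av_RU (s := s) hε (B := fun y u => y * FL (RU s ε) (r.map (dgm s) ++ [X]) u χ)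
    (fun u => (LinearMap.mulRight ℂ _).isLinear) (fun y => ⟨fun a b => by
      rw [(isLin_FL hχ _).map_add, mul_add], fun a b => by
      rw [(isLin_FL hχ _).map_smul, mul_smul_comm]⟩) 1
  simp only [one_mul] at this
  rw [FA, this]
  simp only [h.FL_RU hε hχ, mul_sum, av_sum, FA, ← mul_av, ← av_mul, mul_assoc]

lemma FL_z (h : Cp z s) (χ : List N → N) (r : List N) (x : N) {t : N} (ht : t * z = t) :
    FL s (r ++ [z * x]) t χ = FL s (r ++ [x]) t χ := by
  induction r generalizing χ t with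
  | nil => simp only [List.nil_append, FL_cons, ← mul_assoc, ht]
  | cons a r ih => simp only [List.cons_append, FL_cons, ih _ (h.mul_z _)]

lemma sand (h : Cp z s) {K L : Type} [Fintype K] [Fintype L] {κ : K → ι}
    (hκ : Function.Injective κ) {μ : L → ι} (hμ : Function.Injective μ) (x : K → L → N) (k : K)
    (l : L) : star (s (κ k)) * (∑ k, ∑ l, s (κ k) * x k l * star (s (μ l))) * s (μ l)
      = z * x k l := by
  classical
  simp only [mul_sum, sum_mul, mul_assoc, ← mul_assoc (star (s _)) (s _), h.orth, ite_mul, mul_ite,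
    hκ.eq_iff, hμ.eq_iff, zero_mul, mul_zero, sum_ite_irrel, sum_const_zero, sum_ite_eq, sum_ite_eq',
    mem_univ, if_true]
  rw [← (h.cen.2 _).eq, ← mul_assoc, h.cen.1.isIdempotentElem.eq]

lemma mb_FA (h : Cp z s) (W : WS ρ 𝒮) {χ : List N → N} (hχ : Lin χ) {C : ℕ → ℝ}
    (hC : ∀ n, 0 ≤ C n) (hb : Bnd C χ) (r : List N) {K L : Type} [Fintype K] [Fintype L]
    {κ : K → ι} (hκ : Function.Injective κ) {μ : L → ι} (hμ : Function.Injective μ)
    {x : K → L → N} (hx : MB ρ x 1 fun η => ‖η‖ ^ 2) : MB ρ (fun k l => FA s χ (r ++ [x k l])) 1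
      fun ξ => (C (r.length + 1) * nrm r) ^ 2 * ‖ξ‖ ^ 2 := fun η => by
  obtain ⟨ε, -, h1, h2⟩ := exists_sign ι
  have h3 := h.norm_mat W hκ hμ zero_le_one (by rwa [one_pow])
  set X := ∑ k, ∑ l, s (κ k) * x k l * star (s (μ l))
  have h0 := mul_nonneg (hC (r.length + 1)) (nrm_nonneg r)
  have h4 : ‖FA (RU s ε) χ (r.map (dgm s) ++ [X])‖ ≤ C (r.length + 1) * nrm r := by
    refine norm_av_le h0 fun a => (norm_mul_le_right (by simpa using h.norm_RU W h1 a)).trans
      ((bnd_FL (h.norm_RU W h1) hC hb _ _).trans ?_)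
    simp only [List.length_append, List.length_map, List.length_singleton, nrm_append, nrm_cons,
      nrm_nil, mul_one]
    refine mul_le_mul_of_nonneg_left ((mul_le_of_le_one_left (mul_nonneg (nrm_nonneg _)
      (norm_nonneg _)) (h.norm_RU W h1 a)).trans ?_) (hC _)
    exact (mul_le_of_le_one_right (nrm_nonneg _) h3).trans (h.nrm_dgm W r)
  have h5 : ∀ k l, FA s χ (r ++ [x k l])
      = star (s (κ k)) * FA (RU s ε) χ (r.map (dgm s) ++ [X]) * s (μ l) := fun k l => by
    rw [h.FA_RU h2 hχ]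
    refine .symm ((h.sand Function.injective_id Function.injective_id _ (κ k) (μ l)).trans ?_)
    simp only [X, h.sand hκ hμ, FA, h.FL_z _ _ _ (h.mul_z _), ← mul_av, ← mul_assoc, h.z_mul]
  simp only [h5, rho_mul, ← map_sum]
  refine (sum_rho_le (h.le_one hκ) _).trans ((pow_le_pow_left₀ (norm_nonneg _) ((rho_le _ _).trans
    (mul_le_mul_of_nonneg_right h4 (norm_nonneg _))) 2).trans ?_)
  rw [mul_pow, one_mul, ← mul_sum]
  exact mul_le_mul_of_nonneg_left (h.row hμ η) (sq_nonneg _)

end Cp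

lemma coc_sub {χ χ' : List N → N} (h : Coc χ) (h' : Coc χ') : Coc (χ - χ') := fun x r => by
  rw [map_sub, ← h, ← h', Pi.sub_apply, mul_sub]

lemma coc_smul {χ : List N → N} (h : Coc χ) (hz : Cen z) : Coc (z • χ) := fun x r => by
  rw [map_smul, ← h, Pi.smul_apply, smul_eq_mul, smul_eq_mul, ← mul_assoc, ← mul_assoc,
    (hz.2 x).eq]

theorem reduce_cb (W : WS ρ 𝒮) (hz : Cen z) (hm : ∀ m, Copies 1 z m) {φ : List N → N} (h : Lin φ)
    {C : ℕ → ℝ} (hC : ∀ n, 0 ≤ C n) (hb : Bnd C φ) (hc : Coc φ) :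
    ∃ ψ, Lin ψ ∧ Bnd (fun n => (n + 1) * C (n + 1)) ψ ∧ Lin (z • φ - cob ψ) ∧
      ∀ r, CB ρ (last (z • φ - cob ψ) r) (C (r.length + 1) * nrm r) := by
  choose s _ hs using fun m => hm (m + 1)
  have h1 : ∀ m, Cp z (s m) := fun m => ⟨hz, hs m⟩
  let k : ℕ → List N → N := fun m l => av fun a => star (s m a) * KL (s m) l (s m a) φ
  have h2 : ∀ m l, ‖k m l‖ ≤ (l.length + 1) * C (l.length + 1) * nrm l := fun m l => by
    have a1 := fun a => ((h1 m).pi a).norm_le
    have a2 := hC (l.length + 1)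
    have a3 := nrm_nonneg l
    refine norm_av_le (by positivity) fun a => (norm_mul_le_right (by simpa using a1 a)).trans
      ((bnd_KL a1 hC hb _ _).trans ?_)
    exact mul_le_mul_of_nonneg_left (mul_le_of_le_one_left a3 (a1 a)) (by positivity)
  obtain ⟨𝒰, h𝒰⟩ := Ultrafilter.exists_le (atTop : Filter ℕ)
  choose ψ hψ using fun l => exists_WL W 𝒰 (Eventually.of_forall fun m => h2 m l)
  have h3 : ∀ x r, WL ρ (𝒰 : Filter ℕ) (fun m => FA (s m) φ (x :: r))
      ((z • φ - cob ψ) (x :: r)) := fun x r =>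
    ((WL.const (z * φ (x :: r))).sub (((hψ r).mul_left x).sub (DL_lim hψ (x :: r)))).congr
      (g := fun m => FA (s m) φ (x :: r)) (Eventually.of_forall fun m => by
        have : cob (k m) (x :: r) = _ := homotopy_coc hz (h1 m).self hc x r
        rw [cob] at this
        rw [this, sub_sub_cancel, FA])
  have h4 : Lin (z • φ - cob ψ) :=
    Lin.lim W h3 fun m => Lin.av fun a => (lin_FL h _).mul _
  refine ⟨ψ, Lin.lim W (fun x l => hψ _) fun m => Lin.av fun a => (lin_KL h _).mul _,
    fun l => (hψ l).norm_le W (Eventually.of_forall fun m => h2 m l), h4,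
    fun r => ⟨mul_nonneg (hC _) (nrm_nonneg r), CBq.of_one fun K L _ _ x hx => ?_⟩⟩
  refine MB.lim (l := (𝒰 : Filter ℕ)) (f := fun m k l => FA (s m) φ (r ++ [x k l])) ?_
    (fun a b => ?_) fun _ => tendsto_const_nhds
  · refine Eventually.filter_mono h𝒰 ?_
    filter_upwards [eventually_ge_atTop (Fintype.card K), eventually_ge_atTop (Fintype.card L)]
      with m a1 a2
    obtain ⟨κ⟩ := Function.Embedding.nonempty_of_card_le (α := K) (β := Fin (m + 1))
      (by simpa using a1.trans m.le_succ)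
    obtain ⟨μ⟩ := Function.Embedding.nonempty_of_card_le (α := L) (β := Fin (m + 1))
      (by simpa using a2.trans m.le_succ)
    exact (h1 m).mb_FA W h hC hb r κ.injective μ.injective hx
  · rw [h4.last]
    cases r <;> exact h3 _ _

end Vale.Agent.P082
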