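import Vale.Agent.P082.Diag

/-! Approximate diagonals for finite algebras with a frame. -/

open scoped InnerProductSpace ComplexConjugate BigOperators ComplexOrder
open Finset

set_option linter.unusedSectionVars false

namespace Vale.Agent.P082

open Vale.Agent.P104

variable {N : Type*} [CStarAlgebra N] [PartialOrder N] [StarOrderedRing N] {τ : N →ₚ[ℂ] ℂ}

/-- modularity over central projections -/
def ZM (T : N → N) : Prop := ∀ c, Cen c → ∀ x, T (x * c) = T x * c

/-- approximate diagonals for a generating set -/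
def Loc (τ : N →ₚ[ℂ] ℂ) : Prop := ∃ G : Set N,
  (∀ B : NonUnitalSubalgebra ℂ N, G ⊆ B → ∀ x, x ∈ B) ∧ ∀ (F : Finset N) (ε : ℝ), 0 < ε →
    ∃ π, Mix π ∧ ∀ y ∈ F, y ∈ G → ∀ T, Bd1 T → ZM T →
      ‖τ (π (Lm y T) 1) - τ (π (Rm y T) 1)‖ ≤ ε

lemma corner_span {e : N} (he : IsStarProjection e) (B : NonUnitalSubalgebra ℂ N)
    (h : ∀ u ∈ unitary N, Commute e u → u * e ∈ B) {y : N} (hy : Commute e y) : y * e ∈ B := by
  let A := StarSubalgebra.centralizer ℂ ({e} : Set N)
  have hA : ∀ x, x ∈ A ↔ Commute e x := fun x => by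
    simp [A, StarSubalgebra.mem_centralizer_iff, he.isSelfAdjoint.star_eq, commute_iff_eq]
  let _ : CStarAlgebra A := StarSubalgebra.cstarAlgebra A (h_closed := Set.isClosed_centralizer _)
  obtain ⟨u, k, h1, -⟩ := CStarAlgebra.exists_sum_four_unitary (⟨y, (hA y).2 hy⟩ : A)
  have h2 : y = ∑ i, k i • ((u i : A) : N) := by simpa using congrArg Subtype.val h1
  rw [h2, sum_mul]
  refine sum_mem fun i _ => ?_
  rw [smul_mul_assoc]
  exact SMulMemClass.smul_mem _ (h _ ⟨congrArg Subtype.val (u i).2.1,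
    congrArg Subtype.val (u i).2.2⟩ ((hA _).1 (u i).1.2))

theorem loc_half (V : VNP N) (hτ : IsTr τ) (H : Half N) : Loc τ := by
  classical
  obtain ⟨w, hw, h0, h1⟩ := H 1 (IsStarProjection.one N)
  set e := star w * w with hed
  have he : IsStarProjection e := hw.src
  have ew : e * w = 0 := by rw [hed, mul_assoc, h0, mul_zero]
  have we : star w * e = 0 := by simpa [he.isSelfAdjoint.star_eq] using congrArg star ew
  have ee := he.isIdempotentElem.eq
  let v : Bool → N := fun b => cond b w e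
  have F : Frame e v := ⟨⟨he, by
    rintro (_ | _) (_ | _) <;> simp [v, he.isSelfAdjoint.star_eq, ee, ew, we, ← hed], by
    simp [v, he.isSelfAdjoint.star_eq, ee, ← h1, add_comm]⟩, false, rfl⟩
  refine ⟨{y | ∃ (W : unitary N) (a b : Bool), y = star (W : N) * (v a * star (v b)) * W},
    fun B hB x => ?_, fun s ε hε => ?_⟩
  · have b1 : ∀ a b, v a * star (v b) ∈ B := fun a b => hB ⟨1, a, b, by simp⟩
    have b2 : ∀ a, v a ∈ B := fun a => by
      simpa [v, he.isSelfAdjoint.star_eq, F.mul_e a] using b1 a false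
    have b3 : ∀ a, star (v a) ∈ B := fun a => by simpa [v, F.e_mul a] using b1 false a
    have b4 : ∀ u ∈ unitary N, Commute e u → u * e ∈ B := fun u hu hc => by
      have hc' : Commute e (star u) := by simpa [he.isSelfAdjoint.star_eq] using hc.star_star
      have c1 : star u * e + (1 - e) ∈ unitary N := by
        constructor <;> simp only [star_add, star_mul, star_star, star_sub, star_one,
          he.isSelfAdjoint.star_eq, add_mul, mul_add, mul_sub, sub_mul, mul_one, one_mul, hc.eq,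
          mul_assoc, ← mul_assoc e, hc'.eq, ee, ← mul_assoc u, ← mul_assoc (star u), hu.1, hu.2]
          <;> abel
      have c2 := mul_mem (hB ⟨⟨_, c1⟩, false, true, rfl⟩) (b2 true)
      have c3 : e * star w = star w := F.e_mul true
      have c4 : e * w = 0 := ew
      simp only [v, cond_true, cond_false, star_add, star_mul, star_star, star_sub, star_one,
        he.isSelfAdjoint.star_eq, add_mul, sub_mul, mul_assoc, c3, c4, one_mul, mul_zero, sub_zero,
        zero_add, ← hed, sub_self, add_zero, hc.eq] at c2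
      exact c2
    rw [← one_mul x, ← mul_one (1 * x)]
    nth_rw 1 [← F.sum]
    rw [← F.sum, sum_mul, sum_mul_sum]
    refine sum_mem fun a _ => sum_mem fun b _ => ?_
    have := corner_span he B b4 (y := star (v a) * x * v b) (by
      rw [commute_iff_eq, ← mul_assoc, ← mul_assoc, F.e_mul, mul_assoc _ _ e, F.mul_e])
    rw [mul_assoc _ _ e, F.mul_e] at this
    simpa only [mul_assoc] using mul_mem (mul_mem (b2 a) this) (b3 b)
  · have : ∀ y : N, ∃ W : unitary N, (∃ (W : unitary N) (a b : Bool),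
        y = star (W : N) * (v a * star (v b)) * W) →
        ∃ a b, y = star (W : N) * (v a * star (v b)) * W := fun y => by
      by_cases h : ∃ (W : unitary N) (a b : Bool), y = star (W : N) * (v a * star (v b)) * W
      · obtain ⟨W, h⟩ := h
        exact ⟨W, fun _ => h⟩
      · exact ⟨1, fun h' => absurd h' h⟩
    choose W hW using this
    obtain ⟨π, h1, h2⟩ := diag V hτ H F (s.toList.map W) hε
    refine ⟨π, h1, fun y hy hG T hT _ => ?_⟩
    obtain ⟨a, b, h⟩ := hW y hG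
    rw [h]
    exact h2 _ (List.mem_map_of_mem (mem_toList.2 hy)) a b T hT

lemma ab_cen (V : VNP N) {p g : N} (hp : IsStarProjection p) (hA : Ab p)
    (hg : IsStarProjection g) (hgp : g * p = g) : ∃ c, Cen c ∧ p * c = g := by
  have hq := hg.sub_of_mul_eq_left hp hgp
  obtain ⟨w, c, -, hc, h1, h2, h3, h4⟩ := V.comp g (p - g) hg hq
  have h0 : w = 0 := by
    have := congrArg star (hA g hg hgp (star w))
    rwa [star_mul, star_mul, star_star, hq.isSelfAdjoint.star_eq, hg.isSelfAdjoint.star_eq, h1, h2,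
      star_zero] at this
  rw [h0, mul_zero, zero_mul, mul_sub, mul_one, sub_eq_zero] at h3
  rw [h0, zero_mul, zero_mul, sub_mul, sub_eq_zero] at h4
  exact ⟨c, hc, h4.trans h3.symm⟩

lemma ab_ext (V : VNP N) {p : N} (hp : IsStarProjection p) (hA : Ab p) (f : N →ₗ[ℂ] ℂ) {C : ℝ}
    (hC : 0 ≤ C) (hf : ∀ x, ‖f x‖ ≤ C * ‖x‖) (h : ∀ c, Cen c → f (p * c) = 0) {t : N}
    (h1 : p * t = t) (h2 : t * p = t) : f t = 0 := by
  refine norm_le_zero_iff.1 (le_of_forall_pos_le_add fun δ hδ => ?_)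
  have hr : 0 < δ / (C + 1) := by positivity
  obtain ⟨Q, l, hl⟩ := Pt.fine_complex V hp hA (t := fun _ : Unit => t) (fun _ => h1)
    (fun _ => h2) hr
  have e1 : f t = f (∑ k, (t * Q.g k - l k () • Q.g k)) := by
    rw [sum_sub_distrib, ← mul_sum, Q.sum, h2, map_sub, map_sum, sum_eq_zero, sub_zero]
    intro k _
    obtain ⟨c, hc, hk⟩ := ab_cen V hp hA (Q.orth.proj k) (Q.mul_p k)
    rw [map_smul, ← hk, h c hc, smul_zero]
  have e2 := Q.norm_sum_le hp (y := fun k => t * Q.g k - l k () • Q.g k) (fun k => by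
    rw [mul_sub, mul_smul_comm, (Q.orth.proj k).isIdempotentElem.eq, ← mul_assoc,
      (hA.comm hp (Q.orth.proj k) (Q.mul_p k) h1 h2).eq, mul_assoc _ (Q.g k),
      (Q.orth.proj k).isIdempotentElem.eq]) (fun k => by
    rw [sub_mul, smul_mul_assoc, mul_assoc _ (Q.g k), (Q.orth.proj k).isIdempotentElem.eq])
    hr.le fun k => hl k ()
  rw [e1, zero_add]
  refine (hf _).trans ((mul_le_mul_of_nonneg_left e2 hC).trans ?_)
  rw [mul_div_assoc', div_le_iff₀ (by positivity)]
  nlinarith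

lemma norm_tau_le (hτ : IsTr τ) (x : N) : ‖τ x‖ ≤ ‖x‖ := by
  have := norm_inner_le_norm (𝕜 := ℂ) (L2 τ 1) (L2 τ x)
  rw [inner_L2, star_one, one_mul] at this
  exact this.trans ((mul_le_of_le_one_left (norm_nonneg _)
    ((hτ.L2_le 1).trans norm_one_le)).trans (hτ.L2_le x))

theorem loc_ab (V : VNP N) (hτ : IsTr τ) {S : Type} [Fintype S] [DecidableEq S] [Nonempty S]
    {p : N} {g : S → N} (F : Frame0 p g) (hA : Ab p) : Loc τ := by
  refine ⟨Set.univ, fun B hB x => hB (Set.mem_univ x), fun s ε hε =>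
    ⟨eOp g, Mix.eOp F, fun y _ _ T hT hZ => le_trans (le_of_eq ?_) hε.le⟩⟩
  have n1 := fun s => (F.pi s).norm_le
  have n2 := fun s => (F.pi s).adj.norm_le
  have key : ∀ r s t x, p * x = x → x * p = x → τ (g t * star (g s) * T (g r * x * star (g t)))
      = τ (g t * x * star (g s) * T (g r * star (g t))) := fun r s t x h1 h2 => by
    refine sub_eq_zero.1 (ab_ext V F.proj hA ((τ : N →ₗ[ℂ] ℂ) ∘ₗ
      (LinearMap.mulLeft ℂ (g t * star (g s)) ∘ₗ T ∘ₗ LinearMap.mulRight ℂ (star (g t)) ∘ₗ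
        LinearMap.mulLeft ℂ (g r)) - (τ : N →ₗ[ℂ] ℂ) ∘ₗ
      (LinearMap.mulRight ℂ (T (g r * star (g t))) ∘ₗ LinearMap.mulRight ℂ (star (g s)) ∘ₗ
        LinearMap.mulLeft ℂ (g t))) zero_le_two (fun x => ?_) (fun c hc => ?_) h1 h2)
    · refine (norm_sub_le _ _).trans ?_
      rw [two_mul]
      refine add_le_add ((norm_tau_le hτ _).trans ?_) ((norm_tau_le hτ _).trans ?_)
      · exact (norm_mul_le_right (norm_mul_le_one (n1 t) (n2 s))).trans ((hT _).trans
          ((norm_mul_le_left (n2 t)).trans (norm_mul_le_right (n1 r))))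
      · exact (norm_mul_le_left ((hT _).trans (norm_mul_le_one (n1 r) (n2 t)))).trans
          ((norm_mul_le_left (n2 s)).trans (norm_mul_le_right (n1 t)))
    · change τ (g t * star (g s) * T (g r * (p * c) * star (g t))) -
        τ (g t * (p * c) * star (g s) * T (g r * star (g t))) = 0
      rw [← mul_assoc (g r), ← mul_assoc (g t), F.mul_e, F.mul_e, mul_assoc _ c, (hc.2 _).eq,
        ← mul_assoc, hZ c hc, mul_assoc _ c, (hc.2 _).eq, ← mul_assoc, ← mul_assoc (g t),
        mul_assoc _ c, (hc.2 _).eq, ← mul_assoc, sub_self]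
  rw [norm_eq_zero, sub_eq_zero]
  simp only [eOp, LinearMap.smul_apply, LinearMap.sum_apply, Oc_apply, Lm_apply, Rm_apply,
    star_mul, star_star, mul_one, map_smul, map_sum τ]
  congr 1
  have e1 : ∀ s t, τ (g t * star (g s) * T (y * (g s * star (g t)))) = ∑ r,
      τ (g t * (star (g r) * y * g s) * star (g s) * T (g r * star (g t))) := fun s t => by
    conv_lhs => rw [← one_mul y, ← F.sum]
    simp only [sum_mul, map_sum, mul_sum]
    refine sum_congr rfl fun r _ => ?_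
    rw [← key r s t _ (by rw [← mul_assoc, ← mul_assoc, F.e_mul]) (by rw [mul_assoc, F.mul_e])]
    simp only [mul_assoc]
  simp only [e1]
  rw [sum_comm, sum_comm (f := fun s t => ∑ r,
      τ (g t * (star (g r) * y * g s) * star (g s) * T (g r * star (g t))))]
  refine sum_congr rfl fun t _ => ?_
  rw [sum_comm]
  refine sum_congr rfl fun r _ => ?_
  simp only [← map_sum, ← sum_mul, mul_assoc _ _ (star (g _)), ← mul_sum, F.sum]
  simp only [mul_assoc, mul_one]

theorem Loc.l2 (hτ : IsTr τ) (h : Loc τ) : ∃ G : Set N,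
    (∀ B : NonUnitalSubalgebra ℂ N, G ⊆ B → ∀ x, x ∈ B) ∧ ∀ (F : Finset N) (ε : ℝ), 0 < ε →
    ∃ (ι : Type) (_ : Fintype ι) (w : ι → ℝ) (u : ι → N), (∀ i, 0 ≤ w i) ∧ ∑ i, w i = 1 ∧
      (∀ i, u i ∈ unitary N) ∧ ∀ y ∈ F, y ∈ G → ∀ T : N →ₗ[ℂ] N, Bd1 T → ZM T →
      ‖∑ i, (w i : ℂ) • (T (u i) * star (u i) * y - T (y * u i) * star (u i))‖ ≤ 2 * ‖y‖ ∧
      ‖L2 τ (∑ i, (w i : ℂ) • (T (u i) * star (u i) * y - T (y * u i) * star (u i)))‖ ^ 2
        ≤ (2 * ‖y‖ + 1) * ε := by
  obtain ⟨G, h1, h2⟩ := h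
  refine ⟨G, h1, fun F ε hε => ?_⟩
  obtain ⟨_, ⟨ι, _, w, u, a1, a2, a3, rfl⟩, h3⟩ := h2 F ε hε
  refine ⟨ι, inferInstance, w, u, a1, a2, a3, fun y hy hG T hT hZ => ?_⟩
  set D := ∑ i, (w i : ℂ) • (T (u i) * star (u i) * y - T (y * u i) * star (u i)) with hD
  have b1 : ‖D‖ ≤ 2 * ‖y‖ := by
    refine (norm_sum_le _ _).trans ((sum_le_sum (g := fun i => w i * (2 * ‖y‖))
      fun i _ => ?_).trans_eq (by rw [← sum_mul, a2, one_mul]))
    rw [norm_smul, Complex.norm_real, Real.norm_of_nonneg (a1 i)]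
    have c1 := norm_unit_le (a3 i).1
    have c2 : ‖star (u i)‖ ≤ 1 := by rwa [norm_star]
    refine mul_le_mul_of_nonneg_left ((norm_sub_le _ _).trans ?_) (a1 i)
    rw [two_mul]
    exact add_le_add (norm_mul_le_right (norm_mul_le_one ((hT _).trans c1) c2))
      ((norm_mul_le_left c2).trans ((hT _).trans (norm_mul_le_left c1)))
  have hr : 0 < 2 * ‖y‖ + 1 := by positivity
  have b2 : ‖(((2 * ‖y‖ + 1)⁻¹ : ℝ) : ℂ) • star D‖ ≤ 1 := by
    rw [norm_smul, Complex.norm_real, Real.norm_of_nonneg (by positivity), norm_star,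
      inv_mul_le_one₀ hr]
    linarith
  have := h3 y hy hG (Lm ((((2 * ‖y‖ + 1)⁻¹ : ℝ) : ℂ) • star D) T)
    (fun x => (norm_mul_le_right b2).trans (hT x)) fun c hc x => by
      simp only [Lm_apply, hZ c hc, mul_assoc]
  have e : τ ((∑ i, (w i : ℂ) • Oc (u i)) (Lm y (Lm ((((2 * ‖y‖ + 1)⁻¹ : ℝ) : ℂ) • star D) T)) 1) -
      τ ((∑ i, (w i : ℂ) • Oc (u i)) (Rm y (Lm ((((2 * ‖y‖ + 1)⁻¹ : ℝ) : ℂ) • star D) T)) 1)
      = (((2 * ‖y‖ + 1)⁻¹ : ℝ) : ℂ) • τ (star D * D) := by
    rw [← map_smul, ← smul_mul_assoc]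
    generalize (((2 * ‖y‖ + 1)⁻¹ : ℝ) : ℂ) • star D = z
    simp only [hD, LinearMap.sum_apply, LinearMap.smul_apply, Oc_apply, Lm_apply, Rm_apply, mul_one,
      mul_sum, map_sum, mul_smul_comm, map_smul, mul_sub, map_sub, ← sum_sub_distrib, ← smul_sub]
    refine sum_congr rfl fun i _ => ?_
    rw [← mul_assoc (star (u i)) y, hτ.comm (star (u i) * y), hτ.comm (star (u i))]
    simp only [mul_assoc]
  rw [e, norm_smul, Complex.norm_real, Real.norm_of_nonneg (by positivity),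
    inv_mul_le_iff₀ hr] at this
  refine ⟨b1, le_trans ?_ this⟩
  rw [L2_sq, tr_apply]
  exact Complex.re_le_norm _

end Vale.Agent.P082
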