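import Vale.Agent.P104.Glue

/-! The properly infinite central summand. -/

open scoped InnerProductSpace ComplexConjugate BigOperators ComplexOrder
open Finset

set_option linter.unusedSectionVars false

namespace Vale.Agent.P082

open Vale.Agent.P104

variable {N : Type*} [CStarAlgebra N] [PartialOrder N] [StarOrderedRing N]
variable {H : Type*} [NormedAddCommGroup H] [InnerProductSpace ℂ H] [CompleteSpace H]
variable {ρ : N →⋆ₐ[ℂ] (H →L[ℂ] H)} {𝒮 : Set (H →L[ℂ] H)}

lemma inf_of_copies (W : WS ρ 𝒮) {p : N} (hp : IsStarProjection p) (h0 : p ≠ 0)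
    (h : ∀ n, Copies 1 p n) : ∃ z, Cen z ∧ p * z ≠ 0 ∧ ∀ m, Copies 1 z m := by
  classical
  obtain ⟨s, h1, h2, h3⟩ := exists_max (fun u : N => star u * u = p)
    (fun a b => star a * b = 0) (fun a b h => by simpa using congrArg star h)
  have a1 : ∀ i : s, PI (i : N) := fun i => PI.of_src (h1 _ i.2 ▸ hp)
  have a2 : ∀ i : s, (i : N) * p = i := fun i => by rw [← h1 _ i.2, (a1 i).mul_src]
  have a3 : Pairwise fun i j : s => star (i : N) * j = 0 := fun i j hij =>
    h2 i.2 j.2 (Subtype.coe_ne_coe.2 hij)
  have o : Pairwise fun i j : s => (i : N) * star (i : N) * ((j : N) * star (j : N)) = 0 :=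
    fun i j hij => by
      beta_reduce
      rw [mul_assoc, ← mul_assoc (star _), a3 hij, zero_mul, mul_zero]
  obtain ⟨G, hG⟩ := W.exists_psum (w := fun i : s => (i : N) * star (i : N))
    (fun i => proj_PI (a1 i).rng) (by simpa using o) (by simpa using o)
  have hGs : star G = G := hG.adj.unique W (by simpa using hG.sum)
  have hGG : G * G = G := by
    have := hG.src
    simp only [star_mul, star_star, (a1 _).rng.isIdempotentElem.eq, hGs] at this
    exact this.unique W hG.sum
  have hGp : IsStarProjection G := ⟨hGG, hGs⟩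
  have hGi : ∀ i : s, G * i = i := fun i => by
    have := hG.rng_mul i
    rw [hGs, hGG] at this
    rw [← a1 i, ← mul_assoc, this]
  obtain ⟨w, c, hw, hc, b1, b2, b3, b4⟩ := W.vnp.comp (1 - G) p hGp.one_sub hp
  have b5 : ∀ i : s, w * i = 0 := fun i => by
    rw [← b1, mul_assoc, sub_mul, one_mul, hGi, sub_self, mul_zero]
  have cz := hc.one_sub
  refine ⟨1 - c, cz, fun h4 => h0 ?_, fun m => ?_⟩
  · have e1 : star (star w * c) = c * w := by rw [star_mul, star_star, hc.1.isSelfAdjoint.star_eq]
    have e2 : ∀ b ∈ s, star (star w * c) * b = 0 := fun b hb => by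
      rw [e1, mul_assoc, b5 ⟨b, hb⟩, mul_zero]
    have e3 : star (star w * c) * (star w * c) = p := by
      rw [e1, mul_assoc, ← mul_assoc w, ← b4, (hc.2 _).eq, mul_assoc, hc.1.isIdempotentElem.eq]
      rw [mul_sub, mul_one, sub_eq_zero] at h4
      exact h4.symm
    rw [← e3, e2 _ (h3 _ e3 e2)]
  · obtain ⟨a, ha⟩ : ∃ a : Option s × Fin m → N,
        ∀ x y, star (a x) * a y = if x = y then p else 0 := by
      rcases finite_or_infinite s with hs | hs
      · have := Fintype.ofFinite s
        obtain ⟨u, -, hu⟩ := h (Fintype.card (Option s × Fin m))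
        exact ⟨fun x => u (Fintype.equivFin _ x), fun x y => by simp [hu]⟩
      · obtain ⟨f⟩ : Nonempty (Option s × Fin m ↪ s) := by
          rw [← Cardinal.le_def, Cardinal.mk_prod, Cardinal.mk_option,
            Cardinal.add_one_eq (Cardinal.aleph0_le_mk s)]
          simp only [Cardinal.lift_uzero, Cardinal.mk_fin, Cardinal.lift_natCast]
          exact (mul_le_mul_right (Cardinal.natCast_lt_aleph0.le.trans
            (Cardinal.aleph0_le_mk s)) _).trans_eq (Cardinal.mul_eq_self (Cardinal.aleph0_le_mk s))
        refine ⟨fun x => f x, fun x y => ?_⟩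
        split_ifs with hxy
        · rw [hxy, h1 _ (f y).2]
        · exact a3 (f.injective.ne hxy)
    have c1 : ∀ k l (i j : s), star (a (some i, k) * star (i : N)) * (a (some j, l) * star (j : N))
        = if i = j ∧ k = l then (i : N) * star (i : N) else 0 := fun k l i j => by
      rw [star_mul, star_star, mul_assoc, ← mul_assoc (star _), ha]
      simp only [Prod.mk.injEq, Option.some.injEq]
      split_ifs with hij
      · rw [← mul_assoc, a2, hij.1]
      · simp
    choose V hV using fun k => W.exists_psum (w := fun i : s => a (some i, k) * star (i : N))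
      (fun i => PI.of_src (by rw [c1, if_pos ⟨rfl, rfl⟩]; exact (a1 i).rng))
      (fun i j hij => by simp only [c1, hij, false_and, if_false])
      (fun i j hij => by
        beta_reduce
        rw [star_mul, star_star, mul_assoc, ← mul_assoc (star _), a3 hij, zero_mul, mul_zero])
    have c2 : ∀ k l, star (V k) * V l = if k = l then G else 0 := fun k l => by
      split_ifs with hkl
      · subst hkl
        exact (hV k).src.unique W (by simpa only [c1, and_self, if_true] using hG.sum)
      · exact (hV l).sum.left_zero W fun j => (hV k).adj.right_zero W fun i => by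
          simp only [c1, hkl, and_false, if_false]
    have c3 : ∀ k l, star (a (none, k)) * V l = 0 := fun k l => (hV l).sum.left_zero W fun j => by
      rw [← mul_assoc, ha]; simp
    have c4 : ∀ k l, star (V l) * a (none, k) = 0 := fun k l => by
      simpa using congrArg star (c3 k l)
    refine ⟨fun k => (V k + a (none, k) * w) * (1 - c), fun _ => one_mul _, fun k l => ?_⟩
    have c5 : star (V k + a (none, k) * w) * (V l + a (none, l) * w)
        = if k = l then G + star w * w else 0 := by
      simp only [star_add, star_mul, add_mul, mul_add, c2, mul_assoc, c3, ← mul_assoc (star (V _)),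
        c4, ← mul_assoc (star (a _)), ha, Prod.mk.injEq, true_and]
      split_ifs <;> simp [b2]
    rw [star_mul, cz.1.isSelfAdjoint.star_eq, mul_assoc, ← mul_assoc (star _), c5]
    split_ifs
    · rw [add_mul, ← b3, ← add_mul, add_sub_cancel, one_mul, cz.1.isIdempotentElem.eq]
    · simp

theorem exists_split (W : WS ρ 𝒮) : ∃ z : N, Cen z ∧ (∀ m, Copies 1 z m) ∧
    ∀ p, IsStarProjection p → p ≠ 0 → (1 - z) * p = p → ∃ n, ¬Copies 1 p n := by
  classical
  obtain ⟨s, Z, a1, a2, hZ, a3⟩ := W.max_psum (fun z => Cen z ∧ ∀ m, Copies 1 z m) Bi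
    (fun z hz => proj_PI hz.1.1) (fun _ _ => Bi.symm) (fun _ _ h => h)
  have b0 : ∀ i : s, Cen (i : N) := fun i => (a1 _ i.2).1
  have b1 : star Z = Z := hZ.adj.unique W (by
    simpa only [(b0 _).1.isSelfAdjoint.star_eq] using hZ.sum)
  have b2 : Z * Z = Z := by
    have := hZ.src
    simp only [(b0 _).1.isSelfAdjoint.star_eq, (b0 _).1.isIdempotentElem.eq, b1] at this
    exact this.unique W hZ.sum
  have b3 : Cen Z := ⟨⟨b2, b1⟩, fun x => (hZ.sum.mul_right x).unique W (by
    simpa only [((b0 _).2 x).eq] using hZ.sum.mul_left x)⟩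
  refine ⟨Z, b3, fun m => ?_, fun p hp h0 h1 => by_contra fun h2 => ?_⟩
  · choose u _ hu using fun i : s => (a1 _ i.2).2 m
    have c0 : ∀ i k, u i k * i = u i k := fun i k => by
      have : PI (u i k) := PI.of_src (by rw [hu, if_pos rfl]; exact (b0 i).1)
      simpa [hu] using this.mul_src
    have c1 : ∀ i j : s, i ≠ j → (i : N) * j = 0 := fun i j hij => by
      simpa only [(b0 _).1.isSelfAdjoint.star_eq] using (a2 i.2 j.2 (Subtype.coe_ne_coe.2 hij)).1
    have c2 : ∀ i j k l, i ≠ j → star (u i k) * u j l = 0 := fun i j k l hij => by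
      rw [← c0 j, ← ((b0 j).2 _).eq, ← c0 i, ← ((b0 i).2 _).eq, star_mul,
        (b0 i).1.isSelfAdjoint.star_eq, mul_assoc, ← mul_assoc (i : N), c1 i j hij, zero_mul,
        mul_zero]
    choose V hV using fun k => W.exists_psum (w := fun i : s => u i k)
      (fun i => PI.of_src (by rw [hu, if_pos rfl]; exact (b0 i).1))
      (fun i j hij => c2 i j k k hij) (fun i j hij => by
        beta_reduce
        rw [← c0 i, ← c0 j, star_mul, (b0 j).1.isSelfAdjoint.star_eq, mul_assoc,
          ← mul_assoc (i : N), c1 i j hij, zero_mul, mul_zero])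
    refine ⟨V, fun _ => one_mul _, fun k l => ?_⟩
    split_ifs with hkl
    · subst hkl
      exact (hV k).src.unique W (by simpa only [hu, if_true] using hZ.sum)
    · exact (hV l).sum.left_zero W fun j => (hV k).adj.right_zero W fun i => by
        by_cases hij : i = j
        · rw [hij, hu, if_neg hkl]
        · exact c2 i j k l hij
  · obtain ⟨z, hz, c1, c2⟩ := inf_of_copies W hp h0 (by simpa using h2)
    have c3 := hz.mul b3.one_sub
    have := a3 (z * (1 - Z)) ⟨c3, fun m => ?_⟩ fun b hb => ?_
    · rw [← h1, (b3.one_sub.2 p).eq, mul_assoc, (b3.one_sub.2 z).eq, this, mul_zero] at c1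
      exact c1 rfl
    · obtain ⟨u, -, hu⟩ := c2 m
      refine ⟨fun k => u k * (1 - Z), fun _ => one_mul _, fun k l => ?_⟩
      rw [star_mul, b3.one_sub.1.isSelfAdjoint.star_eq, mul_assoc, ← mul_assoc (star _), hu,
        (b3.one_sub.2 _).eq, mul_assoc, b3.one_sub.1.isIdempotentElem.eq]
      split_ifs <;> simp
    · have d1 : Z * b = b := by
        have : Z * star Z * b = b := hZ.rng_mul ⟨b, hb⟩
        rwa [b1, b2] at this
      have d2 : z * (1 - Z) * b = 0 := by rw [mul_assoc, sub_mul, one_mul, d1, sub_self, mul_zero]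
      exact ⟨by rw [c3.1.isSelfAdjoint.star_eq, d2],
        by rw [(a1 b hb).1.1.isSelfAdjoint.star_eq, d2]⟩

end Vale.Agent.P082
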