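import Vale.Agent.P082.Inf
import Vale.Agent.P082.Split
import Vale.Agent.P082.Finite

/-! Vanishing of the cohomology, for cochains on lists. -/

open scoped InnerProductSpace ComplexConjugate BigOperators ComplexOrder
open Finset Filter Topology

set_option linter.unusedSectionVars false

namespace Vale.Agent.P082

open Vale.Agent.P104

variable {N : Type*} [CStarAlgebra N] [PartialOrder N] [StarOrderedRing N]
variable {H : Type*} [NormedAddCommGroup H] [InnerProductSpace ℂ H] [CompleteSpace H]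
variable {ρ : N →⋆ₐ[ℂ] (H →L[ℂ] H)} {𝒮 : Set (H →L[ℂ] H)}

lemma Lin.add {χ χ' : List N → N} (h : Lin χ) (h' : Lin χ') : Lin (χ + χ') := fun r r' =>
  ⟨fun x y => by
    simp only [Pi.add_apply, (h r r').map_add, (h' r r').map_add]; abel,
    fun c x => by simp only [Pi.add_apply, (h r r').map_smul, (h' r r').map_smul, smul_add]⟩

lemma Bnd.add {χ χ' : List N → N} {C C' : ℕ → ℝ} (h : Bnd C χ) (h' : Bnd C' χ') :
    Bnd (C + C') (χ + χ') := fun l =>
  (norm_add_le _ _).trans ((add_le_add (h l) (h' l)).trans_eq (add_mul _ _ _).symm)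

lemma Bnd.smul {χ : List N → N} {C : ℕ → ℝ} (h : Bnd C χ) (e : N) :
    Bnd (fun n => ‖e‖ * C n) (e • χ) := fun l =>
  (norm_mul_le _ _).trans ((mul_le_mul_of_nonneg_left (h l) (norm_nonneg e)).trans_eq
    (mul_assoc _ _ _).symm)

lemma cob_add (χ χ' : List N → N) (x : N) (r : List N) :
    cob (χ + χ') (x :: r) = cob χ (x :: r) + cob χ' (x :: r) := by
  simp only [cob, map_add, Pi.add_apply, mul_add]; abel

lemma cob_smul (χ : List N → N) {e x : N} (h : Commute e x) (r : List N) :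
    cob (e • χ) (x :: r) = e * cob χ (x :: r) := by
  simp only [cob, map_smul, Pi.smul_apply, smul_eq_mul, mul_sub, ← mul_assoc, h.eq]

theorem vanish (W : WS ρ 𝒮) {φ : List N → N} (h : Lin φ) {C : ℕ → ℝ} (hC : ∀ n, 0 ≤ C n)
    (hb : Bnd C φ) (hc : Coc φ) (n : ℕ) :
    ∃ g C', Lin g ∧ Bnd C' g ∧ ∀ x r, r.length = n → cob g (x :: r) = φ (x :: r) := by
  obtain ⟨z, hz, h1, h2⟩ := exists_split W
  obtain ⟨ψ, a1, a2, a3, a4⟩ := reduce_cb W hz h1 h hC hb hc
  obtain ⟨R, hR⟩ := mean_cb W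
  obtain ⟨ψ', b1, b2, b3⟩ := integrate (cls_cb W) hR a3 (C := fun n => C (n + 1)) a4
    (coc_sub (coc_smul hc hz) (coc_cob ψ))
  obtain ⟨R', hR'⟩ := mean_fin W hz.one_sub h2
  obtain ⟨ψ'', c1, c2, c3⟩ := integrate (cls_bn W) hR' h (C := fun n => C (n + 1))
    (fun r => ⟨mul_nonneg (hC _) (nrm_nonneg r), fun x => by
      simpa [h.last, nrm_append, mul_assoc] using hb (r ++ [x])⟩) hc
  refine ⟨ψ + (-1 : N) ^ (n + 1) • (ψ' + ψ''), _, a1.add ((b1.add c1).mul _),
    a2.add ((b2.add c2).smul _), fun x r hr => ?_⟩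
  rw [cob_add, cob_smul _ ((Commute.neg_one_left x).pow_left _), cob_add, b3, c3, hr, ← mul_add,
    ← mul_assoc, ← pow_add, (Even.add_self _).neg_one_pow, one_mul, Pi.sub_apply, Pi.smul_apply,
    smul_eq_mul, (hz.2 _).eq]
  noncomm_ring

end Vale.Agent.P082
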