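import Vale.Agent.P082.Gro

/-! Path expansions of random chains. -/

open scoped InnerProductSpace ComplexConjugate BigOperators ComplexOrder
open Finset

set_option linter.unusedSectionVars false

namespace Vale.Agent.P082

open Vale.Agent.P104

variable {N : Type*} [CStarAlgebra N] [PartialOrder N] [StarOrderedRing N]
variable {A κ : Type*} [Fintype A] [DecidableEq A]

/-- completely positive map of a family -/
def Ps {ι : Type*} [Fintype ι] (x : ι → N) (X : N) : N := ∑ a, x a * X * star (x a)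

/-- the adjoint completely positive map of a family -/
def Ph {ι : Type*} [Fintype ι] (x : ι → N) (X : N) : N := ∑ a, star (x a) * X * x a

section
variable {ι : Type*} [Fintype ι] {x : ι → N} {X Y : N}

lemma Ps_mono (x : ι → N) (h : X ≤ Y) : Ps x X ≤ Ps x Y :=
  sum_le_sum fun _ _ => star_right_conjugate_le_conjugate h _

lemma Ph_mono (x : ι → N) (h : X ≤ Y) : Ph x X ≤ Ph x Y :=
  sum_le_sum fun _ _ => star_left_conjugate_le_conjugate h _

lemma Ps_add (x : ι → N) (X Y : N) : Ps x (X + Y) = Ps x X + Ps x Y := by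
  simp [Ps, mul_add, add_mul, sum_add_distrib]

lemma Ph_add (x : ι → N) (X Y : N) : Ph x (X + Y) = Ph x X + Ph x Y := by
  simp [Ph, mul_add, add_mul, sum_add_distrib]

lemma Ps_smul (x : ι → N) (t : ℝ) (X : N) : Ps x (t • X) = t • Ps x X := by
  simp [Ps, smul_sum]

lemma Ph_smul (x : ι → N) (t : ℝ) (X : N) : Ph x (t • X) = t • Ph x X := by
  simp [Ph, smul_sum]

lemma Ps_nonneg (x : ι → N) (h : 0 ≤ X) : 0 ≤ Ps x X :=
  sum_nonneg fun _ _ => star_right_conjugate_nonneg h _

lemma Ph_nonneg (x : ι → N) (h : 0 ≤ X) : 0 ≤ Ph x X :=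
  sum_nonneg fun _ _ => star_left_conjugate_nonneg h _

end

lemma norm_le_of_le {X : N} {t : ℝ} (ht : 0 ≤ t) (h0 : 0 ≤ X) (h : X ≤ t • 1) : ‖X‖ ≤ t := by
  refine (CStarAlgebra.norm_le_norm_of_nonneg_of_le h0 h).trans ?_
  rw [norm_smul, Real.norm_of_nonneg ht]
  exact mul_le_of_le_one_right ht norm_one_le

/-- a layer of a chain -/
structure Lay (x : A → N) : Prop where
  pi : ∀ a, PI (x a)
  l : Ps x 1 = 1
  r : Ph x 1 = 1
  con : ∀ θ : A → ℂ, (∀ a, ‖θ a‖ = 1) → ∑ a, θ a • x a ∈ unitary N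

/-- removing one site -/
def kill (σ : A) (x : κ → A → N) (k : κ) (a : A) : N := if a = σ then 0 else x k a

/-- the monomial of a path -/
def pth (x : κ → A → N) : (c : List κ) → (Fin c.length → A) → N
  | [], _ => 1
  | k :: c, y => x k (y 0) * pth x c (Fin.tail y)

/-- the random chain -/
def prd (x : κ → A → N) (θ : A → ℂ) (c : List κ) : N := (c.map fun k => ∑ a, θ a • x k a).prod

variable {x : κ → A → N}

lemma sum_pth {M : Type*} [AddCommMonoid M] (k : κ) (c : List κ)
    (f : (Fin (k :: c).length → A) → M) :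
    ∑ y, f y = ∑ a, ∑ y : Fin c.length → A, f (Fin.cons a y : Fin (c.length + 1) → A) :=
  sum_paths (r := c.length) f

lemma pth_cons (k : κ) (c : List κ) (a : A) (y : Fin c.length → A) :
    pth x (k :: c) (Fin.cons a y : Fin (c.length + 1) → A) = x k a * pth x c y := rfl

lemma chi_cons {r : ℕ} (θ : A → ℂ) (a : A) (y : Fin r → A) :
    chi θ (Fin.cons a y : Fin (r + 1) → A) = θ a * chi θ y := by
  simp [chi, Fin.prod_univ_succ]

lemma prd_cons (θ : A → ℂ) (k : κ) (c : List κ) :
    prd x θ (k :: c) = (∑ a, θ a • x k a) * prd x θ c := by simp [prd]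

lemma prd_eq (θ : A → ℂ) (c : List κ) : prd x θ c = ∑ y, chi θ y • pth x c y := by
  induction c with
  | nil => simp [prd, pth, chi]
  | cons k c ih =>
    rw [prd_cons, ih, sum_pth, sum_mul_sum]
    refine sum_congr rfl fun a _ => sum_congr rfl fun y _ => ?_
    rw [pth_cons, smul_mul_smul_comm]
    congr 1
    exact (chi_cons θ a y).symm

lemma prd_unit (hL : ∀ k, Lay (x k)) {θ : A → ℂ} (hθ : ∀ a, ‖θ a‖ = 1) (c : List κ) :
    prd x θ c ∈ unitary N := by
  induction c with
  | nil => exact one_mem _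
  | cons k c ih => rw [prd_cons]; exact mul_mem ((hL k).con θ hθ) ih

lemma pth_kill (σ : A) (c : List κ) (y : Fin c.length → A) (h : ∃ j, y j = σ) :
    pth (kill σ x) c y = 0 := by
  induction c with
  | nil => obtain ⟨j, -⟩ := h; exact j.elim0
  | cons k c ih =>
    obtain ⟨j, hj⟩ := h
    rw [pth]
    refine Fin.cases (motive := fun j => y j = σ → _) (fun h => ?_) (fun j h => ?_) j hj
    · rw [kill, if_pos h, zero_mul]
    · rw [ih _ ⟨j, h⟩, mul_zero]

lemma Ps_pth (k : κ) (c : List κ) (X : N) :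
    Ps (pth x (k :: c)) X = Ps (x k) (Ps (pth x c) X) := by
  simp only [Ps, sum_pth, pth_cons, mul_sum, sum_mul, star_mul, mul_assoc]

lemma Ph_pth (k : κ) (c : List κ) (X : N) :
    Ph (pth x (k :: c)) X = Ph (pth x c) (Ph (x k) X) := by
  simp only [Ph, sum_pth, pth_cons, mul_sum, sum_mul, star_mul, mul_assoc]
  exact sum_comm

lemma Ph_append (c l : List κ) (X : N) :
    Ph (pth x (c ++ l)) X = Ph (pth x l) (Ph (pth x c) X) := by
  induction c generalizing X with
  | nil => simp [Ph, pth]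
  | cons k c ih => rw [Ph_pth, ← ih, ← Ph_pth]; rfl

lemma Ps_pth_one (hL : ∀ k, Lay (x k)) (c : List κ) : Ps (pth x c) 1 = 1 := by
  induction c with
  | nil => simp [Ps, pth]
  | cons k c ih => rw [Ps_pth, ih, (hL k).l]

lemma Ph_pth_one (hL : ∀ k, Lay (x k)) (c : List κ) : Ph (pth x c) 1 = 1 := by
  induction c with
  | nil => simp [Ph, pth]
  | cons k c ih => rw [Ph_pth, (hL k).r, ih]

lemma Ps_kill (σ : A) (k : κ) (X : N) :
    Ps (kill σ x k) X + x k σ * X * star (x k σ) = Ps (x k) X := by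
  rw [Ps, Ps, ← sum_erase_add _ _ (mem_univ σ), ← sum_erase_add _ _ (mem_univ σ)]
  simp only [kill, if_true, zero_mul, add_zero]
  congr 1
  exact sum_congr rfl fun a ha => by rw [if_neg (ne_of_mem_erase ha)]

lemma Ph_kill (σ : A) (k : κ) (X : N) :
    Ph (kill σ x k) X + star (x k σ) * X * x k σ = Ph (x k) X := by
  rw [Ph, Ph, ← sum_erase_add _ _ (mem_univ σ), ← sum_erase_add _ _ (mem_univ σ)]
  simp only [kill, if_true, mul_zero, add_zero]
  congr 1
  exact sum_congr rfl fun a ha => by rw [if_neg (ne_of_mem_erase ha)]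

lemma Ps_kill_le (σ : A) (k : κ) {X : N} (h : 0 ≤ X) : Ps (kill σ x k) X ≤ Ps (x k) X :=
  (le_add_of_nonneg_right (star_right_conjugate_nonneg h _)).trans_eq (Ps_kill σ k X)

lemma Ph_kill_le (σ : A) (k : κ) {X : N} (h : 0 ≤ X) : Ph (kill σ x k) X ≤ Ph (x k) X :=
  (le_add_of_nonneg_right (star_left_conjugate_nonneg h _)).trans_eq (Ph_kill σ k X)

/-- the monomials of paths through a given site -/
def dif (σ : A) (x : κ → A → N) (c : List κ) (y : Fin c.length → A) : N :=
  pth x c y - pth (kill σ x) c y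

lemma dif_cons (σ : A) (k : κ) (c : List κ) (a : A) (y : Fin c.length → A) :
    dif σ x (k :: c) (Fin.cons a y : Fin (c.length + 1) → A)
      = if a = σ then x k σ * pth x c y else kill σ x k a * dif σ x c y := by
  simp only [dif, pth_cons, kill]
  split_ifs with h
  · simp [h]
  · rw [mul_sub]

lemma Ps_dif (σ : A) (k : κ) (c : List κ) (X : N) : Ps (dif σ x (k :: c)) X =
    x k σ * Ps (pth x c) X * star (x k σ) + Ps (kill σ x k) (Ps (dif σ x c) X) := by
  simp only [Ps, sum_pth, dif_cons]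
  rw [← sum_erase_add _ _ (mem_univ σ), ← sum_erase_add _ _ (mem_univ σ), add_comm]
  simp only [if_true, kill, zero_mul, add_zero, mul_sum, sum_mul, star_mul, mul_assoc,
    sum_const_zero]
  congr 1
  exact sum_congr rfl fun a ha => by simp only [if_neg (ne_of_mem_erase ha), star_mul, mul_assoc]

lemma Ph_dif (σ : A) (k : κ) (c : List κ) (X : N) : Ph (dif σ x (k :: c)) X =
    Ph (pth x c) (star (x k σ) * X * x k σ) + Ph (dif σ x c) (Ph (kill σ x k) X) := by
  simp only [Ph, sum_pth, dif_cons, mul_sum, sum_mul]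
  rw [sum_comm (t := univ) (f := fun (y : Fin c.length → A) a => star (dif σ x c y) *
    (star (kill σ x k a) * X * kill σ x k a) * dif σ x c y),
    ← sum_erase_add _ _ (mem_univ σ), ← sum_erase_add _ _ (mem_univ σ), add_comm]
  simp only [if_true, kill, zero_mul, mul_zero, sum_const_zero, add_zero, star_mul, mul_assoc]
  congr 1
  exact sum_congr rfl fun a ha => by simp only [if_neg (ne_of_mem_erase ha), star_mul, mul_assoc]

/-- relation between consecutive layers -/
structure Rel (x : κ → A → N) (ty : κ → Bool) (η : ℝ) (k k' : κ) : Prop where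
  ne : ty k ≠ ty k'
  l : ∀ k0 σ, Ps (x k0) (Ps (x k) (x k' σ * star (x k' σ))) ≤ η • 1
  r : ∀ k0 σ, Ph (x k') (Ph (x k) (star (x k0 σ) * x k0 σ)) ≤ η • 1

variable {ty : κ → Bool} {η : ℝ}

lemma left_small (hL : ∀ k, Lay (x k)) (hη : 0 ≤ η) {σ : A} {b : Bool}
    (hty : ∀ k, ty k ≠ b → x k σ = 0) : ∀ (c : List κ), c.IsChain (Rel x ty η) →
      (∀ k ∈ c.head?, ty k ≠ b) → ∀ k0, Ps (x k0) (Ps (dif σ x c) 1) ≤ (c.length * η) • 1
  | [], _, _, k0 => by simp [Ps, dif, pth]
  | [k], _, h, k0 => by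
    rw [Ps_dif, hty k (h k rfl)]
    simp only [Ps, dif, pth, sub_self, zero_mul, mul_zero, sum_const_zero, add_zero]
    exact smul_nonneg (by positivity) zero_le_one
  | k :: k' :: c, hc, h, k0 => by
    obtain ⟨h1, h2⟩ := List.isChain_cons_cons.1 hc
    have ih := left_small hL hη hty c h2.tail (fun k'' hk => by
      have a1 := h1.ne
      have a2 := (h2.rel_head? hk).ne
      have a3 := h k rfl
      revert a1 a2 a3
      cases ty k <;> cases ty k' <;> cases ty k'' <;> cases b <;> simp) k'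
    have n1 := Ps_nonneg (dif σ x c) (zero_le_one' N)
    rw [Ps_dif, hty k (h k rfl), zero_mul, zero_mul, zero_add]
    refine (Ps_mono _ ((Ps_kill_le σ k (Ps_nonneg _ zero_le_one)).trans (Ps_mono _
      (Y := x k' σ * star (x k' σ) + (c.length * η) • 1) ?_))).trans ?_
    · rw [Ps_dif, Ps_pth_one hL, mul_one]
      exact add_le_add le_rfl ((Ps_kill_le σ k' n1).trans ih)
    · rw [Ps_add, Ps_add, Ps_smul, (hL k).l, Ps_smul, (hL k0).l]
      refine (add_le_add (h1.l k0 σ) le_rfl).trans ?_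
      rw [← add_smul]
      refine smul_le_smul_of_nonneg_right ?_ zero_le_one
      simp only [List.length_cons]; push_cast; nlinarith

lemma right_small0 (hL : ∀ k, Lay (x k)) {k1 k2 : κ} (c : List κ)
    (hc : (c ++ [k1, k2]).IsChain (Rel x ty η)) (k0 : κ) (σ : A) :
    Ph (pth x [k1, k2]) (Ph (pth x c) (star (x k0 σ) * x k0 σ)) ≤ η • 1 := by
  rw [← Ph_append]
  obtain ⟨k, k', l, h⟩ : ∃ k k' l, c ++ [k1, k2] = k :: k' :: l := by
    rcases c with _ | ⟨a, _ | ⟨b, c⟩⟩
    · exact ⟨_, _, _, rfl⟩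
    · exact ⟨_, _, _, rfl⟩
    · exact ⟨_, _, _, rfl⟩
  rw [h] at hc ⊢
  rw [Ph_pth, Ph_pth]
  refine (Ph_mono _ ((List.isChain_cons_cons.1 hc).1.r k0 σ)).trans_eq ?_
  rw [Ph_smul, Ph_pth_one hL]

lemma right_small (hL : ∀ k, Lay (x k)) {k1 k2 : κ} (σ : A) (c : List κ)
    (hc : (c ++ [k1, k2]).IsChain (Rel x ty η)) {X : N} (h0 : 0 ≤ X) (h1 : X ≤ 1) :
    Ph (pth x [k1, k2]) (Ph (dif σ x c) X) ≤ (c.length * η) • 1 := by
  induction c generalizing X with
  | nil => simp [Ph, dif, pth]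
  | cons k c ih =>
    rw [Ph_dif, Ph_add, List.length_cons (as := c), Nat.cast_succ, add_mul, one_mul, add_smul,
      add_comm]
    refine add_le_add (ih hc.tail (Ph_nonneg _ h0) ((Ph_kill_le σ k h0).trans
      ((Ph_mono _ h1).trans_eq (hL k).r))) (le_trans (Ph_mono _ (Ph_mono _ ?_))
        (right_small0 hL c hc.tail k σ))
    simpa using star_left_conjugate_le_conjugate h1 (x k σ)

end Vale.Agent.P082
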